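import Vale.Agent.P063.Symm

/-!
The bound on the Fourier mass of one band of levels.
-/

set_option linter.unusedSectionVars false
set_option linter.unusedSimpArgs false
set_option linter.unusedVariables false

namespace Vale.Agent.P063

open Finset Function

variable {n r : ℕ} {p : ℝ}

/-- The Fourier mass of a band of levels is controlled by the parameters. -/
theorem band_bound (h0 : 0 < p) (h1 : p < 1) (f : (Edge n r → Bool) → ℝ)
    (hf : ∀ x, f x = 0 ∨ f x = 1)
    (hsym : ∀ (σ : Equiv.Perm (Fin n)) x, f (x ∘ edgePerm σ) = f x)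
    (Lc : ℕ) (hLc : 0 < Lc) (K hi q T a d t₀ : ℕ) (hq : 1 ≤ q) (hT : 0 < T)
    (hbund : ∀ T' < T, T' ^ r + 2 * q * T' + q ≤ K) (ha : 0 < a) (hS : 6 * hi ≤ a * q)
    (hd : hi ≤ d) (hcol : 2 * (hi * r) ^ 2 ≤ Lc) (ht : ∀ V, T ≤ 4 * V → t₀ ≤ V)
    (hM : 1 ≤ n / Lc) {ε L θ : ℝ} (hε : 0 ≤ ε) (hL : 0 < L) (hθ : 0 < θ)
    (hθL : sB p ^ a * θ * L ≤ ε) (hI : inflT p f ≤ ε * L) :
    ∑ S ∈ univ.filter (fun S : Finset (Edge n r) => K ≤ S.card ∧ S.card < hi), fc p f S ^ 2
      ≤ 12 * (2 * (sB p ^ d * ((1 + L / θ ^ 2) ^ a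
          * √((1 + L / θ ^ 2) ^ a / (((n / Lc) ^ t₀ : ℕ) : ℝ)))) + 4 * ε) := by
  classical
  set c : Fin n → Fin Lc := modC Lc hLc with hc
  set O : ℝ := (((n / Lc) ^ t₀ : ℕ) : ℝ) with hO
  have hO0 : 0 < O := by
    rw [hO]
    exact_mod_cast pow_pos (by omega) _
  set Δ : ℝ := 2 * (sB p ^ d * ((1 + L / θ ^ 2) ^ a * √((1 + L / θ ^ 2) ^ a / O))) + 4 * ε with hΔ
  set w : Finset (Edge n r) → ℝ := fun S => fc p f S ^ 2 with hw
  have hw0 : ∀ S, 0 ≤ w S := fun S => sq_nonneg _
  set Tfam : (Finset (Fin Lc) → Bool) → Finset (Finset (Edge n r)) := fun ρ =>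
    univ.filter (fun S : Finset (Edge n r) => S ∩ selR c ρ ∈ goodF c ρ a T ∧ (S \ selR c ρ).card ≤ d)
    with hTfam
  -- the core inequality for a fixed selection
  have step1 : ∀ ρ, ∑ S ∈ Tfam ρ, w S ≤ Δ := by
    intro ρ
    apply core h0 h1 f hf (selR c ρ) a d hε hL hθ hO0 hθL hI (goodF c ρ a T)
    · intro A hA
      obtain ⟨h2, h3⟩ := mem_filter.mp hA
      exact ⟨mem_powerset.mp h2, h3.1⟩
    · intro A hA
      obtain ⟨h2, h3, hinj, h5⟩ := mem_filter.mp hA
      obtain ⟨Orb, hcard, hOrb⟩ := orbit_large (c := c) (n / Lc)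
        (fun k => modC_class_lower Lc hLc k) A hinj
      refine ⟨Orb, ?_, ?_⟩
      · have h6 : (n / Lc) ^ t₀ ≤ (n / Lc) ^ (vset A).card :=
          Nat.pow_le_pow_right hM (ht _ h5)
        rw [hO]
        exact_mod_cast le_trans h6 hcard
      · intro A' hA'
        obtain ⟨σ, hσ, rfl⟩ := hOrb A' hA'
        exact ⟨edgePerm σ, selR_perm hσ ρ, hsym σ, rfl⟩
  set Band := univ.filter (fun S : Finset (Edge n r) => K ≤ S.card ∧ S.card < hi) with hBand
  -- averaging over the selection
  have hq0 : (0 : ℝ) < q := by exact_mod_cast hq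
  have hπ0 : (0 : ℝ) ≤ 1 / (q : ℝ) := by positivity
  have hπ1 : 1 / (q : ℝ) ≤ 1 := by
    rw [div_le_one hq0]
    exact_mod_cast hq
  have step2 : (∑ S ∈ Band, (if Set.InjOn c ((vset S : Finset (Fin n)) : Set (Fin n)) then w S else 0))
      * (1 / 6) ≤ Δ := by
    have hpt : ∀ ρ : Finset (Fin Lc) → Bool,
        (∑ S ∈ Band, (if Set.InjOn c ((vset S : Finset (Fin n)) : Set (Fin n))
          then w S * (if S ∩ selR c ρ ∈ goodF c ρ a T then (1 : ℝ) else 0) else 0)) ≤ Δ := by
      intro ρ
      refine le_trans ?_ (step1 ρ)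
      have h2 : ∀ S ∈ Band, (if Set.InjOn c ((vset S : Finset (Fin n)) : Set (Fin n))
          then w S * (if S ∩ selR c ρ ∈ goodF c ρ a T then (1 : ℝ) else 0) else 0)
          ≤ if S ∈ Tfam ρ then w S else 0 := by
        intro S hS
        have hS' := (mem_filter.mp hS).2
        by_cases hgood : S ∩ selR c ρ ∈ goodF c ρ a T
        · have hmem : S ∈ Tfam ρ := by
            refine mem_filter.mpr ⟨mem_univ _, hgood, ?_⟩
            have := card_le_card (sdiff_subset (s := S) (t := selR c ρ))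
            omega
          rw [if_pos hmem, if_pos hgood, mul_one]
          split_ifs
          · exact le_refl _
          · exact hw0 S
        · rw [if_neg hgood, mul_zero, ite_self]
          split_ifs
          · exact hw0 S
          · exact le_refl _
      calc _ ≤ ∑ S ∈ Band, (if S ∈ Tfam ρ then w S else 0) := sum_le_sum h2
        _ ≤ ∑ S : Finset (Edge n r), (if S ∈ Tfam ρ then w S else 0) :=
            sum_le_sum_of_subset_of_nonneg (subset_univ _)
              (fun S _ _ => by split_ifs <;> first | exact hw0 S | exact le_refl _)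
        _ = _ := by
            rw [sum_ite_mem, univ_inter]
    have hm := cE_mono (ι := Finset (Fin Lc)) hπ0 hπ1 hpt
    rw [cE_const, cE_sum] at hm
    refine le_trans ?_ hm
    rw [sum_mul]
    apply sum_le_sum
    intro S hS
    by_cases hinj : Set.InjOn c ((vset S : Finset (Fin n)) : Set (Fin n))
    · simp only [hinj, if_true]
      rw [cE_const_mul]
      apply mul_le_mul_of_nonneg_left _ (hw0 S)
      obtain ⟨h2, h3⟩ := (mem_filter.mp hS).2 |> fun h => (⟨h.1, h.2⟩ : _ ∧ _)
      apply coverage_event S hinj q T a hq hT _ ha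
      · have := Nat.mul_le_mul_left 6 h3.le
        omega
      · intro T' hT'
        exact le_trans (hbund T' hT') h2
    · simp only [hinj, if_false]
      rw [cE_const]
      norm_num
  -- symmetrisation
  have hLcr : (0 : ℝ) < (Lc : ℝ) := by exact_mod_cast hLc
  have step3 := sym_band (n := n) (r := r) (c := c) w hw0
    (by
      intro σ S
      simp only [hw]
      rw [fc_map p f (edgePerm σ) (hsym σ) S])
    Band
    (by
      intro σ S hS
      obtain ⟨_, h2⟩ := mem_filter.mp hS
      refine mem_filter.mpr ⟨mem_univ _, ?_⟩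
      rw [card_map]
      exact h2)
    (by
      intro S hS
      have hS' := (mem_filter.mp hS).2
      have hcl := fun a => modC_class_upper (n := n) Lc hLc a
      have := rainbow_count (c := c) (Lc : ℝ) hLcr hcl (vset S) (by
        have h2 : (vset S).card ≤ hi * r :=
          le_trans (card_vset_le S) (Nat.mul_le_mul_right r hS'.2.le)
        have h3 : 2 * (vset S).card ^ 2 ≤ Lc :=
          le_trans (Nat.mul_le_mul_left 2 (Nat.pow_le_pow_left h2 2)) hcol
        exact_mod_cast h3)
      exact this)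
  have hfinal : ∑ S ∈ Band, w S ≤ 12 * Δ := by
    refine le_trans step3 ?_
    linarith
  exact hfinal

end Vale.Agent.P063
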