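import Vale.Agent.P063.Cube

/-!
The (4,2) hypercontractive inequality for low degree polynomials on the biased cube,
and the level inequality for bounded functions with small support.
-/

set_option linter.unusedSectionVars false
set_option linter.unusedSimpArgs false
set_option linter.unusedVariables false

namespace Vale.Agent.P063

open Finset Function

variable {ι : Type*} [Fintype ι] [DecidableEq ι] {p : ℝ}

/-- the hypercontractive constant -/
noncomputable def sB (p : ℝ) : ℝ := 4 / s0 p

lemma sB_pos (h0 : 0 < p) (h1 : p < 1) : 0 < sB p := div_pos (by norm_num) (s0_pos h0 h1)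

lemma s0_le_one (h0 : 0 < p) (h1 : p < 1) : s0 p ≤ 1 := by
  have h2 := s0_sq h0 h1
  have hs := s0_pos h0 h1
  nlinarith [mul_pos h0 (sub_pos.mpr h1), sq_nonneg (p - 1/2)]

lemma sB_ge_four (h0 : 0 < p) (h1 : p < 1) : 4 ≤ sB p := by
  unfold sB
  rw [le_div_iff₀ (s0_pos h0 h1)]
  have := s0_le_one h0 h1
  linarith

lemma sB_sq (h0 : 0 < p) (h1 : p < 1) : sB p ^ 2 = 16 / (p * (1 - p)) := by
  unfold sB
  rw [div_pow, s0_sq h0 h1]
  norm_num

/-- a polynomial given by coefficients -/
noncomputable def polyOf (p : ℝ) (T : Finset ι) (a : Finset ι → ℝ) (x : ι → Bool) : ℝ :=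
  ∑ S ∈ T.powerset, a S * chi p S x

/-- the arithmetic step of the induction -/
lemma bonami_arith {s τ A B Q4 R4 X v : ℝ} (hs : 4 ≤ s) (hτ : 0 < τ) (hA : 0 ≤ A) (hB : 0 ≤ B)
    (hX0 : 0 ≤ X) (hR40 : 0 ≤ R4) (hQ4 : Q4 ≤ (s * τ * A) ^ 2) (hR4 : R4 ≤ (τ * B) ^ 2)
    (hcs : X ^ 2 ≤ Q4 * R4) (hv : s ^ 2 * v = 16) (hv0 : 0 < v) :
    Q4 + 6 * X + (2 * X + 2 * (R4 * (1 / v))) + R4 * (1 / v) ≤ (s * τ * (A + B)) ^ 2 := by
  have hX2 : X ≤ (s * τ * A) * (τ * B) := by
    have hprod : X ^ 2 ≤ ((s * τ * A) * (τ * B)) ^ 2 := by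
      calc X ^ 2 ≤ Q4 * R4 := hcs
        _ ≤ (s * τ * A) ^ 2 * (τ * B) ^ 2 := mul_le_mul hQ4 hR4 hR40 (sq_nonneg _)
        _ = _ := by ring
    have h0s : 0 ≤ s := by linarith
    exact (abs_le_of_sq_le_sq' hprod (by positivity)).2
  have hinv : 1 / v = s ^ 2 / 16 := by
    field_simp
    linarith
  have hR42 : R4 * (1 / v) ≤ (τ * B) ^ 2 * (s ^ 2 / 16) := by
    rw [hinv]
    exact mul_le_mul_of_nonneg_right hR4 (by positivity)
  have h8 : 8 * ((s * τ * A) * (τ * B)) ≤ 2 * (s * τ) ^ 2 * A * B := by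
    have h9 : 0 ≤ τ ^ 2 * A * B * s * (s - 4) := by
      have h10 : 0 ≤ s - 4 := by linarith
      have h0s : 0 ≤ s := by linarith
      positivity
    have e : 2 * (s * τ) ^ 2 * A * B - 8 * ((s * τ * A) * (τ * B))
        = 2 * (τ ^ 2 * A * B * s * (s - 4)) := by ring
    linarith
  have h3 : 3 * ((τ * B) ^ 2 * (s ^ 2 / 16)) ≤ (s * τ * B) ^ 2 := by
    have h11 : 0 ≤ (s * τ * B) ^ 2 := by positivity
    have e : (s * τ * B) ^ 2 - 3 * ((τ * B) ^ 2 * (s ^ 2 / 16)) = (13 / 16) * (s * τ * B) ^ 2 := by
      ring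
    linarith
  have e : (s * τ * (A + B)) ^ 2 = (s * τ * A) ^ 2 + 2 * (s * τ) ^ 2 * A * B + (s * τ * B) ^ 2 := by
    ring
  rw [e]
  linarith

/-- (4,2) hypercontractivity in the form of a fourth moment bound. -/
theorem bonami (h0 : 0 < p) (h1 : p < 1) (T : Finset ι) :
    ∀ (d : ℕ) (a : Finset ι → ℝ), (∀ S, a S ≠ 0 → S ⊆ T ∧ S.card ≤ d) →
      cE p (fun x => polyOf p T a x ^ 4) ≤ (sB p ^ d * cE p (fun x => polyOf p T a x ^ 2)) ^ 2 := by
  have hp0 := h0.le
  have hp1 := h1.le
  have hs4 := sB_ge_four h0 h1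
  have hs0 : 0 < sB p := by linarith
  induction T using Finset.induction_on with
  | empty =>
    intro d a _
    have hc : ∀ x : ι → Bool, polyOf p (∅ : Finset ι) a x = a ∅ := by
      intro x; simp [polyOf]
    simp only [hc, cE_const]
    have h1d : 1 ≤ sB p ^ d := one_le_pow₀ (by linarith)
    have h3 : (a ∅) ^ 4 = ((a ∅) ^ 2) ^ 2 := by ring
    rw [h3]
    apply pow_le_pow_left₀ (sq_nonneg _)
    nlinarith [sq_nonneg (a ∅)]
  | insert e T' he ih =>
    intro d a ha
    -- the two components
    set aQ : Finset ι → ℝ := fun S => if e ∈ S then 0 else a S with haQ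
    set aR : Finset ι → ℝ := fun S => if e ∈ S then 0 else a (insert e S) with haR
    set Q : (ι → Bool) → ℝ := polyOf p T' aQ with hQ
    set R : (ι → Bool) → ℝ := polyOf p T' aR with hR
    have hnot : ∀ S ∈ T'.powerset, e ∉ S := fun S hS hc => he (mem_powerset.mp hS hc)
    have hP : ∀ x, polyOf p (insert e T') a x = Q x + R x * psi p (x e) := by
      intro x
      unfold polyOf at *
      rw [sum_powerset_insert he, hQ, hR]
      congr 1
      · apply sum_congr rfl
        intro S hS
        simp [haQ, hnot S hS]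
      · simp only [polyOf]
        rw [sum_mul]
        apply sum_congr rfl
        intro S hS
        rw [chi_insert p (hnot S hS)]
        simp only [haR, hnot S hS, if_false]
        ring
    have indep : ∀ (b : Finset ι → ℝ) (x : ι → Bool) (c : Bool),
        polyOf p T' b (update x e c) = polyOf p T' b x := by
      intro b x c
      unfold polyOf
      apply sum_congr rfl
      intro S hS
      rw [chi_update_of_notMem p (hnot S hS)]
    have hQi : ∀ x c, Q (update x e c) = Q x := indep aQ
    have hRi : ∀ x c, R (update x e c) = R x := indep aR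
    -- induction hypotheses
    have ihQ := ih d aQ (by
      intro S hS
      simp only [haQ] at hS
      split_ifs at hS with h
      · exact absurd rfl hS
      · obtain ⟨h2, h3⟩ := ha S hS
        refine ⟨?_, h3⟩
        intro j hj
        rcases mem_insert.mp (h2 hj) with rfl | h4
        · exact absurd hj h
        · exact h4)
    have ihR := ih (d - 1) aR (by
      intro S hS
      simp only [haR] at hS
      split_ifs at hS with h
      · exact absurd rfl hS
      · obtain ⟨h2, h3⟩ := ha _ hS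
        rw [card_insert_of_notMem h] at h3
        refine ⟨?_, by omega⟩
        intro j hj
        rcases mem_insert.mp (h2 (mem_insert_of_mem hj)) with rfl | h4
        · exact absurd hj h
        · exact h4)
    have e2 : cE p (fun x => polyOf p (insert e T') a x ^ 2)
        = cE p (fun x => Q x ^ 2) + cE p (fun x => R x ^ 2) := by
      have : (fun x => polyOf p (insert e T') a x ^ 2) = fun x =>
          Q x ^ 2 + ((2 * (Q x * R x)) * psi p (x e) + R x ^ 2 * psi p (x e) ^ 2) := by
        funext x; rw [hP]; ring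
      rw [this, cE_add, cE_add]
      rw [cE_mul_coord p e (fun x => 2 * (Q x * R x)) (by intro x b; simp only [hQi, hRi])
        (fun b => psi p b)]
      rw [cE_mul_coord p e (fun x => R x ^ 2) (by intro x b; simp only [hRi])
        (fun b => psi p b ^ 2)]
      rw [psi_mean, psi_sq_mean h0 h1]
      ring
    have e4 : cE p (fun x => polyOf p (insert e T') a x ^ 4)
        = cE p (fun x => Q x ^ 4) + 6 * cE p (fun x => Q x ^ 2 * R x ^ 2)
          + 4 * cE p (fun x => Q x * R x ^ 3) * ((1 - 2 * p) / s0 p)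
          + cE p (fun x => R x ^ 4) * (p * psi p true ^ 4 + (1 - p) * psi p false ^ 4) := by
      have : (fun x => polyOf p (insert e T') a x ^ 4) = fun x =>
          Q x ^ 4 + ((4 * (Q x ^ 3 * R x)) * psi p (x e)
            + ((6 * (Q x ^ 2 * R x ^ 2)) * psi p (x e) ^ 2
            + ((4 * (Q x * R x ^ 3)) * psi p (x e) ^ 3 + R x ^ 4 * psi p (x e) ^ 4))) := by
        funext x; rw [hP]; ring
      rw [this, cE_add, cE_add, cE_add, cE_add]
      rw [cE_mul_coord p e (fun x => 4 * (Q x ^ 3 * R x)) (by intro x b; simp only [hQi, hRi])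
        (fun b => psi p b)]
      rw [cE_mul_coord p e (fun x => 6 * (Q x ^ 2 * R x ^ 2)) (by intro x b; simp only [hQi, hRi])
        (fun b => psi p b ^ 2)]
      rw [cE_mul_coord p e (fun x => 4 * (Q x * R x ^ 3)) (by intro x b; simp only [hQi, hRi])
        (fun b => psi p b ^ 3)]
      rw [cE_mul_coord p e (fun x => R x ^ 4) (by intro x b; simp only [hRi])
        (fun b => psi p b ^ 4)]
      rw [psi_mean, psi_sq_mean h0 h1, psi_cube_mean h0 h1]
      rw [cE_const_mul, cE_const_mul, cE_const_mul]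
      ring
    -- abbreviations
    set A := cE p (fun x => Q x ^ 2) with hA
    set B := cE p (fun x => R x ^ 2) with hB
    have hA0 : 0 ≤ A := cE_nonneg hp0 hp1 (fun x => sq_nonneg _)
    have hB0 : 0 ≤ B := cE_nonneg hp0 hp1 (fun x => sq_nonneg _)
    set X := cE p (fun x => Q x ^ 2 * R x ^ 2) with hX
    have hX0 : 0 ≤ X := cE_nonneg hp0 hp1 (fun x => by positivity)
    set Q4 := cE p (fun x => Q x ^ 4) with hQ4
    set R4 := cE p (fun x => R x ^ 4) with hR4
    have hR40 : 0 ≤ R4 := cE_nonneg hp0 hp1 (fun x => by positivity)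
    have hv : 0 < p * (1 - p) := mul_pos h0 (by linarith)
    -- the cubic term
    have hcube : 4 * cE p (fun x => Q x * R x ^ 3) * ((1 - 2 * p) / s0 p)
        ≤ 2 * X + 2 * (R4 * (1 / (p * (1 - p)))) := by
      set κ := (1 - 2 * p) / s0 p with hκ
      have hκ2 : κ ^ 2 ≤ 1 / (p * (1 - p)) := by
        rw [hκ, div_pow, s0_sq h0 h1]
        apply div_le_div_of_nonneg_right _ hv.le
        nlinarith
      have pt : ∀ x, 4 * (Q x * R x ^ 3) * κ ≤ 2 * (Q x ^ 2 * R x ^ 2) + 2 * (R x ^ 4 * κ ^ 2) := by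
        intro x
        nlinarith [sq_nonneg (Q x * R x - R x ^ 2 * κ)]
      have := cE_mono hp0 hp1 pt
      have e1 : cE p (fun x => 4 * (Q x * R x ^ 3) * κ)
          = 4 * cE p (fun x => Q x * R x ^ 3) * κ := by
        rw [cE_mul_const, cE_const_mul]
      have e2' : cE p (fun x => 2 * (Q x ^ 2 * R x ^ 2) + 2 * (R x ^ 4 * κ ^ 2))
          = 2 * X + 2 * (R4 * κ ^ 2) := by
        rw [cE_add, cE_const_mul, cE_const_mul, cE_mul_const]
      rw [e1, e2'] at this
      have h5 : R4 * κ ^ 2 ≤ R4 * (1 / (p * (1 - p))) :=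
        mul_le_mul_of_nonneg_left hκ2 hR40
      linarith
    have hfour : R4 * (p * psi p true ^ 4 + (1 - p) * psi p false ^ 4)
        ≤ R4 * (1 / (p * (1 - p))) :=
      mul_le_mul_of_nonneg_left (psi_four_mean h0 h1) hR40
    -- Cauchy-Schwarz on the mixed term
    have hcs : X ^ 2 ≤ Q4 * R4 := by
      have := cE_cs hp0 hp1 (fun x => Q x ^ 2) (fun x => R x ^ 2)
      simp only [← pow_mul] at this
      exact this
    rw [e4, e2]
    have hbd : Q4 + 6 * X + (2 * X + 2 * (R4 * (1 / (p * (1 - p))))) + R4 * (1 / (p * (1 - p)))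
        ≤ (sB p ^ d * (A + B)) ^ 2 := by
      rcases Nat.eq_zero_or_pos d with hd | hd
      · -- degree zero: `R` vanishes
        subst hd
        have aR0 : ∀ S, aR S = 0 := by
          intro S
          simp only [haR]
          split_ifs with h
          · rfl
          · by_contra hne
            have := (ha _ hne).2
            rw [card_insert_of_notMem h] at this
            omega
        have R0 : ∀ x, R x = 0 := by
          intro x
          simp only [hR, polyOf, aR0, zero_mul, sum_const_zero]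
        have hR40' : R4 = 0 := by
          simp only [hR4, R0]
          have := cE_const (ι := ι) p 0
          simpa using this
        have hX0' : X = 0 := by
          simp only [hX, R0]
          have := cE_const (ι := ι) p 0
          simpa using this
        have hB0' : B = 0 := by
          simp only [hB, R0]
          have := cE_const (ι := ι) p 0
          simpa using this
        rw [hR40', hX0', hB0']
        simp only [pow_zero, one_mul, add_zero, mul_zero, zero_mul] at ihQ ⊢
        exact ihQ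
      · obtain ⟨d', rfl⟩ : ∃ d', d = d' + 1 := ⟨d - 1, by omega⟩
        simp only [Nat.add_sub_cancel] at ihR
        set τ := sB p ^ d' with hτ
        have hτ0 : 0 < τ := by positivity
        have hpow : sB p ^ (d' + 1) = sB p * τ := by rw [pow_succ]; ring
        rw [hpow] at ihQ ⊢
        have hs2 : sB p ^ 2 * (p * (1 - p)) = 16 := by
          rw [sB_sq h0 h1]; exact div_mul_cancel₀ 16 hv.ne'
        exact bonami_arith hs4 (by positivity) hA0 hB0 hX0 hR40 ihQ ihR hcs hs2 hv
    linarith

/-- the level inequality: a function bounded by one with small support has little mass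
on low levels. -/
theorem level_ineq (h0 : 0 < p) (h1 : p < 1) (h : (ι → Bool) → ℝ) (hh : ∀ x, |h x| ≤ 1)
    (D : (ι → Bool) → Prop) [DecidablePred D] (hD : ∀ x, h x ≠ 0 → D x)
    (F : Finset (Finset ι)) (d : ℕ) (hF : ∀ U ∈ F, U.card ≤ d) :
    ∑ U ∈ F, fc p h U ^ 2
      ≤ sB p ^ d * (cE p (fun x => if D x then (1 : ℝ) else 0)
          * √(cE p (fun x => if D x then (1 : ℝ) else 0))) := by
  have hp0 := h0.le
  have hp1 := h1.le
  set π := cE p (fun x => if D x then (1 : ℝ) else 0) with hπ
  have hπ0 : 0 ≤ π := cE_nonneg hp0 hp1 (fun x => by split_ifs <;> norm_num)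
  set W := ∑ U ∈ F, fc p h U ^ 2 with hW
  have hW0 : 0 ≤ W := sum_nonneg fun _ _ => sq_nonneg _
  -- the low degree part
  set a : Finset ι → ℝ := fun U => if U ∈ F then fc p h U else 0 with ha
  set P : (ι → Bool) → ℝ := polyOf p univ a with hP
  have hPe : ∀ x, P x = ∑ U ∈ F, fc p h U * chi p U x := by
    intro x
    simp only [hP, polyOf, powerset_univ, ha]
    rw [← sum_filter_add_sum_filter_not univ (fun U => U ∈ F)]
    have h2 : ∑ U ∈ univ.filter (fun U => U ∉ F), (if U ∈ F then fc p h U else 0) * chi p U x = 0 := by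
      apply sum_eq_zero
      intro U hU
      simp only [mem_filter, mem_univ, true_and] at hU
      simp [hU]
    rw [h2, add_zero]
    have h3 : univ.filter (fun U => U ∈ F) = F := by ext U; simp
    rw [h3]
    apply sum_congr rfl
    intro U hU
    simp [hU]
  have hbon := bonami h0 h1 (univ : Finset ι) d a (by
    intro S hS
    simp only [ha] at hS
    split_ifs at hS with hm
    · exact ⟨subset_univ _, hF S hm⟩
    · exact absurd rfl hS)
  change cE p (fun x => P x ^ 4) ≤ (sB p ^ d * cE p (fun x => P x ^ 2)) ^ 2 at hbon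
  -- the second moment of `P` and the correlation with `h`
  have hP2 : cE p (fun x => P x ^ 2) = W := by
    have : (fun x => P x ^ 2) = fun x => ∑ U ∈ F, fc p h U * (∑ V ∈ F, fc p h V * (chi p U x * chi p V x)) := by
      funext x
      rw [hPe, pow_two, sum_mul_sum]
      apply sum_congr rfl; intro U _
      rw [mul_sum]
      apply sum_congr rfl; intro V _
      ring
    rw [this, cE_sum]
    apply sum_congr rfl
    intro U hU
    rw [cE_const_mul, cE_sum]
    simp only [cE_const_mul, chi_orthonormal h0 h1]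
    simp only [mul_ite, mul_one, mul_zero]
    rw [sum_ite_eq F U]
    simp only [hU, if_true]
    ring
  have hHP : cE p (fun x => h x * P x) = W := by
    have : (fun x => h x * P x) = fun x => ∑ U ∈ F, fc p h U * (h x * chi p U x) := by
      funext x
      rw [hPe, mul_sum]
      apply sum_congr rfl; intro U _
      ring
    rw [this, cE_sum]
    apply sum_congr rfl
    intro U _
    rw [cE_const_mul]
    unfold fc
    ring
  -- Hoelder in two Cauchy-Schwarz steps
  set I : (ι → Bool) → ℝ := fun x => if D x then (1 : ℝ) else 0 with hI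
  have hI2 : ∀ x, I x ^ 2 = I x := by
    intro x; simp only [hI]; split_ifs <;> norm_num
  have hI0 : ∀ x, 0 ≤ I x := by
    intro x; simp only [hI]; split_ifs <;> norm_num
  have step1 : W ≤ cE p (fun x => I x * |P x|) := by
    rw [← hHP]
    apply cE_mono hp0 hp1
    intro x
    by_cases hx : D x
    · simp only [hI, hx, if_true, one_mul]
      calc h x * P x ≤ |h x * P x| := le_abs_self _
        _ = |h x| * |P x| := abs_mul _ _
        _ ≤ 1 * |P x| := mul_le_mul_of_nonneg_right (hh x) (abs_nonneg _)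
        _ = |P x| := one_mul _
    · have : h x = 0 := by
        by_contra hne
        exact hx (hD x hne)
      simp [hI, hx, this]
  have step2 : (cE p (fun x => I x * |P x|)) ^ 2 ≤ π * cE p (fun x => I x * P x ^ 2) := by
    have := cE_cs hp0 hp1 I (fun x => I x * |P x|)
    have e1 : cE p (fun x => I x * (I x * |P x|)) = cE p (fun x => I x * |P x|) := by
      congr 1; funext x; rw [← mul_assoc, ← pow_two, hI2]
    have e2 : cE p (fun x => I x ^ 2) = π := by
      rw [hπ]; congr 1; funext x; exact hI2 x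
    have e3 : cE p (fun x => (I x * |P x|) ^ 2) = cE p (fun x => I x * P x ^ 2) := by
      congr 1; funext x; rw [mul_pow, hI2, sq_abs]
    rwa [e1, e2, e3] at this
  have step3 : (cE p (fun x => I x * P x ^ 2)) ^ 2 ≤ π * cE p (fun x => P x ^ 4) := by
    have := cE_cs hp0 hp1 I (fun x => P x ^ 2)
    have e2 : cE p (fun x => I x ^ 2) = π := by
      rw [hπ]; congr 1; funext x; exact hI2 x
    have e3 : cE p (fun x => (P x ^ 2) ^ 2) = cE p (fun x => P x ^ 4) := by
      congr 1; funext x; ring
    rwa [e2, e3] at this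
  rw [hP2] at hbon
  set Z := cE p (fun x => I x * P x ^ 2) with hZ
  have hZ0 : 0 ≤ Z := cE_nonneg hp0 hp1 (fun x => mul_nonneg (hI0 x) (sq_nonneg _))
  set τ := sB p ^ d with hτ
  have hτ0 : 0 ≤ τ := by
    have := sB_ge_four h0 h1
    positivity
  -- combine
  have hW2 : W ^ 2 ≤ π * Z := by
    have h5 : 0 ≤ cE p (fun x => I x * |P x|) :=
      cE_nonneg hp0 hp1 (fun x => mul_nonneg (hI0 x) (abs_nonneg _))
    calc W ^ 2 ≤ (cE p (fun x => I x * |P x|)) ^ 2 := pow_le_pow_left₀ hW0 step1 2
      _ ≤ _ := step2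
  have hZ2 : Z ^ 2 ≤ π * (τ * W) ^ 2 :=
    le_trans step3 (mul_le_mul_of_nonneg_left hbon hπ0)
  -- conclude `W ≤ τ π √π`
  by_cases hWz : W = 0
  · rw [hWz]
    have := Real.sqrt_nonneg π
    positivity
  have hWpos : 0 < W := lt_of_le_of_ne hW0 (Ne.symm hWz)
  have h4 : W ^ 4 ≤ π ^ 3 * (τ * W) ^ 2 := by
    calc W ^ 4 = (W ^ 2) ^ 2 := by ring
      _ ≤ (π * Z) ^ 2 := pow_le_pow_left₀ (by positivity) hW2 2
      _ = π ^ 2 * Z ^ 2 := by ring
      _ ≤ π ^ 2 * (π * (τ * W) ^ 2) := mul_le_mul_of_nonneg_left hZ2 (by positivity)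
      _ = _ := by ring
  have h6 : W ^ 2 ≤ π ^ 3 * τ ^ 2 := by
    have h7 : 0 < W ^ 2 := by positivity
    have h8 : W ^ 2 * W ^ 2 ≤ (π ^ 3 * τ ^ 2) * W ^ 2 := by nlinarith
    exact le_of_mul_le_mul_right h8 h7
  have h7 : W ^ 2 ≤ (τ * (π * √π)) ^ 2 := by
    have h9 : (√π) ^ 2 = π := Real.sq_sqrt hπ0
    calc W ^ 2 ≤ π ^ 3 * τ ^ 2 := h6
      _ = τ ^ 2 * π ^ 2 * π := by ring
      _ = τ ^ 2 * π ^ 2 * (√π) ^ 2 := by rw [h9]
      _ = _ := by ring
  have h9 : 0 ≤ τ * (π * √π) := by
    have := Real.sqrt_nonneg π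
    positivity
  exact (abs_le_of_sq_le_sq' h7 h9).2

end Vale.Agent.P063
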