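import Vale.Agent.P063.Restrict

/-!
The core inequality: sets in a restricted part with large orbits under symmetries
carry little Fourier mass on bounded levels.
-/

set_option linter.unusedSectionVars false
set_option linter.unusedSimpArgs false
set_option linter.unusedVariables false

namespace Vale.Agent.P063

open Finset Function

variable {ι : Type*} [Fintype ι] [DecidableEq ι] {p : ℝ}

/-- the list of influential coordinates at `x` -/
noncomputable def listJ (p : ℝ) (f : (ι → Bool) → ℝ) (R : Finset ι) (θ : ℝ) (x : ι → Bool) :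
    Finset ι := R.filter (fun e => θ ^ 2 ≤ Iloc p f R e x)

/-- the good event for `A` -/
def evA (p : ℝ) (f : (ι → Bool) → ℝ) (R : Finset ι) (θ L : ℝ) (A : Finset ι) (x : ι → Bool) : Prop :=
  A ⊆ listJ p f R θ x ∧ Itot p f R x ≤ L

open Classical in
/-- the probability of the good event for `A` -/
noncomputable def pA (p : ℝ) (f : (ι → Bool) → ℝ) (R : Finset ι) (θ L : ℝ) (A : Finset ι) : ℝ :=
  cE p (fun x => if evA p f R θ L A x then (1 : ℝ) else 0)

lemma pA_nonneg (h0 : 0 ≤ p) (h1 : p ≤ 1) (f : (ι → Bool) → ℝ) (R : Finset ι) (θ L : ℝ)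
    (A : Finset ι) : 0 ≤ pA p f R θ L A := by
  classical
  apply cE_nonneg h0 h1
  intro x
  split_ifs <;> norm_num

lemma card_listJ_le (h0 : 0 ≤ p) (h1 : p ≤ 1) (f : (ι → Bool) → ℝ) (R : Finset ι) {θ L : ℝ}
    (hθ : 0 < θ) (x : ι → Bool) (hx : Itot p f R x ≤ L) :
    ((listJ p f R θ x).card : ℝ) ≤ L / θ ^ 2 := by
  rw [le_div_iff₀ (by positivity)]
  have h2 : ∑ e ∈ listJ p f R θ x, θ ^ 2 ≤ ∑ e ∈ listJ p f R θ x, Iloc p f R e x :=
    sum_le_sum fun e he => (mem_filter.mp he).2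
  rw [sum_const, nsmul_eq_mul] at h2
  have h3 : ∑ e ∈ listJ p f R θ x, Iloc p f R e x ≤ ∑ e ∈ R, Iloc p f R e x :=
    sum_le_sum_of_subset_of_nonneg (filter_subset _ _) (fun e _ _ => Iloc_nonneg h0 h1 f R e x)
  have h4 : ∑ e ∈ R, Iloc p f R e x = Itot p f R x := rfl
  linarith

/-- the probabilities of the good events sum to at most `Y` -/
lemma sum_pA_le (h0 : 0 ≤ p) (h1 : p ≤ 1) (f : (ι → Bool) → ℝ) (R : Finset ι) {θ L : ℝ}
    (hθ : 0 < θ) (hL : 0 ≤ L) (a : ℕ) :
    ∑ A ∈ R.powerset.filter (fun A => A.card ≤ a), pA p f R θ L A ≤ (1 + L / θ ^ 2) ^ a := by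
  classical
  unfold pA
  rw [← cE_sum]
  have hY : 0 ≤ (1 + L / θ ^ 2) ^ a := by positivity
  have := cE_mono (ι := ι) h0 h1
    (F := fun x => ∑ A ∈ R.powerset.filter (fun A => A.card ≤ a),
      if evA p f R θ L A x then (1 : ℝ) else 0)
    (G := fun _ => (1 + L / θ ^ 2) ^ a) (by
    intro x
    by_cases hx : Itot p f R x ≤ L
    · have e1 : ∑ A ∈ R.powerset.filter (fun A => A.card ≤ a),
            (if evA p f R θ L A x then (1 : ℝ) else 0)
          = (((R.powerset.filter (fun A => A.card ≤ a)).filter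
              (fun A => evA p f R θ L A x)).card : ℝ) := by
        rw [← sum_filter]
        simp
      rw [e1]
      have hsub : (R.powerset.filter (fun A => A.card ≤ a)).filter (fun A => evA p f R θ L A x)
          ⊆ (listJ p f R θ x).powerset.filter (fun A => A.card ≤ a) := by
        intro A hA
        obtain ⟨h2, h3⟩ := mem_filter.mp hA
        exact mem_filter.mpr ⟨mem_powerset.mpr h3.1, (mem_filter.mp h2).2⟩
      have h5 : (((R.powerset.filter (fun A => A.card ≤ a)).filter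
              (fun A => evA p f R θ L A x)).card : ℝ)
          ≤ (((listJ p f R θ x).powerset.filter (fun A => A.card ≤ a)).card : ℝ) := by
        exact_mod_cast card_le_card hsub
      refine le_trans h5 (le_trans (card_low_subsets _ a) ?_)
      apply pow_le_pow_left₀ (by positivity)
      have := card_listJ_le h0 h1 f R hθ x hx
      linarith
    · have e1 : ∑ A ∈ R.powerset.filter (fun A => A.card ≤ a),
            (if evA p f R θ L A x then (1 : ℝ) else 0) = 0 := by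
        apply sum_eq_zero
        intro A _
        rw [if_neg]
        intro h
        exact hx h.2
      rw [e1]
      exact hY)
  rwa [cE_const] at this

/-- precomposition by a permutation of the coordinates, as an equivalence -/
def compEquiv (γ : Equiv.Perm ι) : (ι → Bool) ≃ (ι → Bool) where
  toFun x := x ∘ γ
  invFun x := x ∘ γ.symm
  left_inv x := by funext e; simp
  right_inv x := by funext e; simp

lemma cw_comp (p : ℝ) (γ : Equiv.Perm ι) (x : ι → Bool) : cw p (x ∘ γ) = cw p x := by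
  unfold cw
  exact Equiv.prod_comp γ (fun e => bw p (x e))

lemma cE_comp (p : ℝ) (γ : Equiv.Perm ι) (F : (ι → Bool) → ℝ) :
    cE p (fun x => F (x ∘ γ)) = cE p F := by
  unfold cE
  rw [← Equiv.sum_comp (compEquiv γ) (fun x => cw p x * F x)]
  apply sum_congr rfl
  intro x _
  change cw p x * F (x ∘ γ) = cw p (x ∘ γ) * F (x ∘ γ)
  rw [cw_comp]

lemma chi_map (p : ℝ) (γ : Equiv.Perm ι) (S : Finset ι) (x : ι → Bool) :
    chi p (S.map γ.toEmbedding) x = chi p S (x ∘ γ) := by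
  unfold chi
  rw [prod_map]
  rfl

/-- a symmetric function has equal Fourier coefficients on an orbit -/
lemma fc_map (p : ℝ) (f : (ι → Bool) → ℝ) (γ : Equiv.Perm ι) (hγ : ∀ x, f (x ∘ γ) = f x)
    (S : Finset ι) : fc p f (S.map γ.toEmbedding) = fc p f S := by
  unfold fc
  rw [← cE_comp p γ (fun x => f x * chi p S x)]
  congr 1
  funext x
  rw [hγ, chi_map]

lemma mix_comp {R : Finset ι} {γ : Equiv.Perm ι} (hR : ∀ e, γ e ∈ R ↔ e ∈ R) (w x : ι → Bool) :
    mix R (w ∘ γ) (x ∘ γ) = (mix R w x) ∘ γ := by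
  funext e
  simp only [mix, comp_apply, hR e]

lemma Iloc_comp (p : ℝ) (f : (ι → Bool) → ℝ) {R : Finset ι} {γ : Equiv.Perm ι}
    (hR : ∀ e, γ e ∈ R ↔ e ∈ R) (hf : ∀ x, f (x ∘ γ) = f x) (e : ι) (x : ι → Bool) :
    Iloc p f R e (x ∘ γ) = Iloc p f R (γ e) x := by
  unfold Iloc inflE
  rw [← cE_comp p γ (fun y => if f (mix R (update y e true) (x ∘ γ))
      ≠ f (mix R (update y e false) (x ∘ γ)) then (1 : ℝ) else 0)]
  congr 1
  funext w
  have key : ∀ b : Bool, f (mix R (update (w ∘ γ) e b) (x ∘ γ)) = f (mix R (update w (γ e) b) x) := by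
    intro b
    have h2 : update (w ∘ γ) e b = (update w (γ e) b) ∘ γ := by
      rw [update_comp_equiv]
      simp
    rw [h2, mix_comp hR, hf]
  simp only [key]

lemma Itot_comp (p : ℝ) (f : (ι → Bool) → ℝ) {R : Finset ι} {γ : Equiv.Perm ι}
    (hR : ∀ e, γ e ∈ R ↔ e ∈ R) (hf : ∀ x, f (x ∘ γ) = f x) (x : ι → Bool) :
    Itot p f R (x ∘ γ) = Itot p f R x := by
  unfold Itot
  apply sum_equiv γ (fun e => (hR e).symm)
  intro e _
  exact Iloc_comp p f hR hf e x

lemma mem_listJ_comp (p : ℝ) (f : (ι → Bool) → ℝ) {R : Finset ι} {γ : Equiv.Perm ι}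
    (hR : ∀ e, γ e ∈ R ↔ e ∈ R) (hf : ∀ x, f (x ∘ γ) = f x) (θ : ℝ) (e : ι) (x : ι → Bool) :
    e ∈ listJ p f R θ (x ∘ γ) ↔ γ e ∈ listJ p f R θ x := by
  unfold listJ
  simp only [mem_filter, Iloc_comp p f hR hf, hR e]

lemma evA_comp (p : ℝ) (f : (ι → Bool) → ℝ) {R : Finset ι} {γ : Equiv.Perm ι}
    (hR : ∀ e, γ e ∈ R ↔ e ∈ R) (hf : ∀ x, f (x ∘ γ) = f x) (θ L : ℝ) (A : Finset ι)
    (x : ι → Bool) :
    evA p f R θ L A (x ∘ γ) ↔ evA p f R θ L (A.map γ.toEmbedding) x := by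
  unfold evA
  rw [Itot_comp p f hR hf]
  constructor
  · rintro ⟨h2, h3⟩
    refine ⟨?_, h3⟩
    intro j hj
    obtain ⟨e, he, rfl⟩ := mem_map.mp hj
    exact (mem_listJ_comp p f hR hf θ e x).mp (h2 he)
  · rintro ⟨h2, h3⟩
    refine ⟨?_, h3⟩
    intro e he
    exact (mem_listJ_comp p f hR hf θ e x).mpr (h2 (mem_map_of_mem _ he))

lemma pA_map (p : ℝ) (f : (ι → Bool) → ℝ) {R : Finset ι} {γ : Equiv.Perm ι}
    (hR : ∀ e, γ e ∈ R ↔ e ∈ R) (hf : ∀ x, f (x ∘ γ) = f x) (θ L : ℝ) (A : Finset ι) :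
    pA p f R θ L (A.map γ.toEmbedding) = pA p f R θ L A := by
  classical
  unfold pA
  rw [← cE_comp p γ (fun x => if evA p f R θ L A x then (1 : ℝ) else 0)]
  congr 1
  funext x
  simp only [evA_comp p f hR hf]

/-- the bound on a good event probability through the orbit size -/
lemma pA_le_of_orbit (h0 : 0 ≤ p) (h1 : p ≤ 1) (f : (ι → Bool) → ℝ) (R : Finset ι) {θ L O : ℝ}
    (hθ : 0 < θ) (hL : 0 ≤ L) (hO : 0 < O) (a : ℕ) {A : Finset ι} (hAR : A ⊆ R) (hAa : A.card ≤ a)
    (horb : ∃ Orb : Finset (Finset ι), O ≤ (Orb.card : ℝ) ∧ ∀ A' ∈ Orb, ∃ γ : Equiv.Perm ι,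
      (∀ e, γ e ∈ R ↔ e ∈ R) ∧ (∀ x, f (x ∘ γ) = f x) ∧ A' = A.map γ.toEmbedding) :
    pA p f R θ L A ≤ (1 + L / θ ^ 2) ^ a / O := by
  obtain ⟨Orb, hOrb, hγ⟩ := horb
  rw [le_div_iff₀ hO]
  have hA0 := pA_nonneg h0 h1 f R θ L A
  have hsub : Orb ⊆ R.powerset.filter (fun A => A.card ≤ a) := by
    intro A' hA'
    obtain ⟨γ, h2, h3, rfl⟩ := hγ A' hA'
    refine mem_filter.mpr ⟨mem_powerset.mpr ?_, by rwa [card_map]⟩
    intro j hj
    obtain ⟨e, he, rfl⟩ := mem_map.mp hj
    exact (h2 e).mpr (hAR he)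
  have h4 : ∑ A' ∈ Orb, pA p f R θ L A' = (Orb.card : ℝ) * pA p f R θ L A := by
    rw [← nsmul_eq_mul, ← sum_const]
    apply sum_congr rfl
    intro A' hA'
    obtain ⟨γ, h2, h3, rfl⟩ := hγ A' hA'
    exact pA_map p f h2 h3 θ L A
  have h5 : ∑ A' ∈ Orb, pA p f R θ L A'
      ≤ ∑ A' ∈ R.powerset.filter (fun A => A.card ≤ a), pA p f R θ L A' :=
    sum_le_sum_of_subset_of_nonneg hsub (fun A' _ _ => pA_nonneg h0 h1 f R θ L A')
  have h6 := sum_pA_le h0 h1 f R hθ hL a
  calc pA p f R θ L A * O ≤ pA p f R θ L A * (Orb.card : ℝ) :=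
        mul_le_mul_of_nonneg_left hOrb hA0
    _ = ∑ A' ∈ Orb, pA p f R θ L A' := by rw [h4]; ring
    _ ≤ _ := le_trans h5 h6

/-- the error of replacing the coefficient functions by their truncations -/
lemma error_bound (h0 : 0 < p) (h1 : p < 1) (f : (ι → Bool) → ℝ) (hf : ∀ x, f x = 0 ∨ f x = 1)
    (R : Finset ι) (a : ℕ) {ε L θ : ℝ} (hε : 0 ≤ ε) (hL : 0 < L) (hθ : 0 < θ)
    (hθL : sB p ^ a * θ * L ≤ ε) (hI : inflT p f ≤ ε * L)
    (F : Finset (Finset ι)) (hF : ∀ A ∈ F, A ⊆ R ∧ A.card ≤ a) :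
    cE p (fun x => ∑ A ∈ F, (open Classical in if evA p f R θ L A x then 0 else cA p f R A x ^ 2))
      ≤ 2 * ε := by
  classical
  have hpt : ∀ x, (∑ A ∈ F, (if evA p f R θ L A x then 0 else cA p f R A x ^ 2))
      ≤ (if L < Itot p f R x then (1 : ℝ) else 0) + ε := by
    intro x
    by_cases hx : L < Itot p f R x
    · rw [if_pos hx]
      have e1 : ∑ A ∈ F, (if evA p f R θ L A x then 0 else cA p f R A x ^ 2)
          ≤ ∑ A : Finset ι, cA p f R A x ^ 2 := by
        calc _ ≤ ∑ A ∈ F, cA p f R A x ^ 2 := by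
              apply sum_le_sum
              intro A _
              split_ifs
              · positivity
              · exact le_refl _
          _ ≤ _ := sum_le_sum_of_subset_of_nonneg (subset_univ F) (fun _ _ _ => sq_nonneg _)
      have := cA_sq_sum h0 h1 f hf R x
      linarith
    · rw [if_neg hx, zero_add]
      have hx' : Itot p f R x ≤ L := not_lt.mp hx
      have e1 : ∑ A ∈ F, (if evA p f R θ L A x then 0 else cA p f R A x ^ 2)
          = ∑ A ∈ F.filter (fun A => ¬ A ⊆ listJ p f R θ x), cA p f R A x ^ 2 := by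
        rw [sum_filter]
        apply sum_congr rfl
        intro A _
        by_cases hA : A ⊆ listJ p f R θ x
        · rw [if_pos ⟨hA, hx'⟩, if_neg (not_not.mpr hA)]
        · rw [if_neg (fun h => hA h.1), if_pos hA]
      rw [e1]
      have g01 : ∀ y, f (mix R y x) = 0 ∨ f (mix R y x) = 1 := fun y => hf _
      have hl := list_bound h0 h1 (fun y => f (mix R y x)) g01 R θ hθ.le a F hF
      have h2 : sB p ^ a * θ * ∑ e ∈ R, inflE p (fun y => f (mix R y x)) e ≤ ε := by
        have h3 : ∑ e ∈ R, inflE p (fun y => f (mix R y x)) e = Itot p f R x := rfl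
        rw [h3]
        have hs4 := sB_ge_four h0 h1
        have h4 : 0 ≤ sB p ^ a * θ := by positivity
        calc _ ≤ sB p ^ a * θ * L := mul_le_mul_of_nonneg_left hx' h4
          _ ≤ ε := hθL
      exact le_trans hl h2
  have hm := cE_mono (ι := ι) h0.le h1.le hpt
  rw [cE_add, cE_const] at hm
  have hmk : cE p (fun x => if L < Itot p f R x then (1 : ℝ) else 0) ≤ ε := by
    have h2 : ∀ x, (if L < Itot p f R x then (1 : ℝ) else 0) ≤ Itot p f R x * (1 / L) := by
      intro x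
      have h3 := Itot_nonneg h0.le h1.le f R x
      split_ifs with hx
      · rw [mul_one_div, le_div_iff₀ hL]
        linarith
      · positivity
    have h3 := cE_mono (ι := ι) h0.le h1.le h2
    rw [cE_mul_const] at h3
    have h4 := cE_Itot h0.le h1.le f R
    have h5 : cE p (Itot p f R) * (1 / L) ≤ ε := by
      rw [mul_one_div, div_le_iff₀ hL]
      linarith
    linarith
  linarith

lemma inter_sdiff_cover (S R : Finset ι) : S ∩ R ∪ S \ R = S := by
  ext j
  simp only [mem_union, mem_inter, mem_sdiff]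
  tauto

/-- the core inequality. -/
theorem core (h0 : 0 < p) (h1 : p < 1) (f : (ι → Bool) → ℝ) (hf : ∀ x, f x = 0 ∨ f x = 1)
    (R : Finset ι) (a d : ℕ) {ε L θ O : ℝ} (hε : 0 ≤ ε) (hL : 0 < L) (hθ : 0 < θ)
    (hO : 0 < O) (hθL : sB p ^ a * θ * L ≤ ε) (hI : inflT p f ≤ ε * L)
    (F : Finset (Finset ι)) (hF : ∀ A ∈ F, A ⊆ R ∧ A.card ≤ a)
    (horb : ∀ A ∈ F, ∃ Orb : Finset (Finset ι), O ≤ (Orb.card : ℝ) ∧ ∀ A' ∈ Orb, ∃ γ : Equiv.Perm ι,
      (∀ e, γ e ∈ R ↔ e ∈ R) ∧ (∀ x, f (x ∘ γ) = f x) ∧ A' = A.map γ.toEmbedding) :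
    ∑ S ∈ univ.filter (fun S : Finset ι => S ∩ R ∈ F ∧ (S \ R).card ≤ d), fc p f S ^ 2
      ≤ 2 * (sB p ^ d * ((1 + L / θ ^ 2) ^ a * √((1 + L / θ ^ 2) ^ a / O))) + 4 * ε := by
  classical
  have hs4 := sB_ge_four h0 h1
  set Y := (1 + L / θ ^ 2) ^ a with hY
  have hY0 : 0 ≤ Y := by positivity
  set T := univ.filter (fun S : Finset ι => S ∩ R ∈ F ∧ (S \ R).card ≤ d) with hT
  have hmaps : ∀ S ∈ T, S ∩ R ∈ F := fun S hS => (mem_filter.mp hS).2.1
  rw [← sum_fiberwise_of_maps_to hmaps]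
  -- the bound for one fibre
  have hfib : ∀ A ∈ F, ∑ S ∈ T with S ∩ R = A, fc p f S ^ 2
      ≤ 2 * (sB p ^ d * (pA p f R θ L A * √(Y / O)))
        + 2 * cE p (fun x => if evA p f R θ L A x then 0 else cA p f R A x ^ 2) := by
    intro A hA
    have hAR := (hF A hA).1
    set cT : (ι → Bool) → ℝ := fun x => if evA p f R θ L A x then cA p f R A x else 0 with hcT
    set G := (T.filter (fun S => S ∩ R = A)).image (fun S => S \ R) with hG
    have hGd : ∀ U ∈ G, U.card ≤ d ∧ Disjoint U R := by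
      intro U hU
      obtain ⟨S, hS, rfl⟩ := mem_image.mp hU
      exact ⟨(mem_filter.mp (mem_filter.mp hS).1).2.2, sdiff_disjoint⟩
    have e1 : ∑ S ∈ T with S ∩ R = A, fc p f S ^ 2 = ∑ U ∈ G, fc p (cA p f R A) U ^ 2 := by
      rw [hG, sum_image]
      · apply sum_congr rfl
        intro S hS
        have hSA : S ∩ R = A := (mem_filter.mp hS).2
        rw [fc_cA p f hAR sdiff_disjoint, ← hSA, inter_sdiff_cover]
      · intro S hS S' hS' hSS
        have hSA : S ∩ R = A := (mem_filter.mp hS).2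
        have hSA' : S' ∩ R = A := (mem_filter.mp hS').2
        have hSS' : S \ R = S' \ R := hSS
        rw [← inter_sdiff_cover S R, ← inter_sdiff_cover S' R, hSA, hSA', hSS']
    rw [e1]
    have hlev := level_ineq h0 h1 cT
      (by
        intro x
        simp only [hcT]
        split_ifs
        · exact cA_abs_le h0 h1 f hf R A x
        · simp)
      (evA p f R θ L A)
      (by
        intro x hx
        simp only [hcT] at hx
        by_contra hn
        exact hx (if_neg hn))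
      G d (fun U hU => (hGd U hU).1)
    have hpA : pA p f R θ L A = cE p (fun x => if evA p f R θ L A x then (1 : ℝ) else 0) := rfl
    rw [← hpA] at hlev
    have hpA0 := pA_nonneg h0.le h1.le f R θ L A
    have hpAle := pA_le_of_orbit h0.le h1.le f R hθ hL.le hO a hAR (hF A hA).2 (horb A hA)
    have hsq : √(pA p f R θ L A) ≤ √(Y / O) := Real.sqrt_le_sqrt hpAle
    have hτ : 0 ≤ sB p ^ d := by positivity
    have h2 : ∑ U ∈ G, fc p cT U ^ 2 ≤ sB p ^ d * (pA p f R θ L A * √(Y / O)) :=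
      le_trans hlev (mul_le_mul_of_nonneg_left (mul_le_mul_of_nonneg_left hsq hpA0) hτ)
    have h3 : ∑ U ∈ G, fc p (fun x => cA p f R A x - cT x) U ^ 2
        ≤ cE p (fun x => if evA p f R θ L A x then 0 else cA p f R A x ^ 2) := by
      have h4 : ∑ U ∈ G, fc p (fun x => cA p f R A x - cT x) U ^ 2
          ≤ ∑ U : Finset ι, fc p (fun x => cA p f R A x - cT x) U ^ 2 :=
        sum_le_sum_of_subset_of_nonneg (subset_univ G) (fun _ _ _ => sq_nonneg _)
      rw [parseval_sq h0 h1] at h4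
      have h5 : (fun x => (cA p f R A x - cT x) ^ 2)
          = fun x => if evA p f R θ L A x then 0 else cA p f R A x ^ 2 := by
        funext x
        simp only [hcT]
        split_ifs <;> simp
      rwa [h5] at h4
    have h6 : ∑ U ∈ G, fc p (cA p f R A) U ^ 2
        ≤ 2 * ∑ U ∈ G, fc p cT U ^ 2 + 2 * ∑ U ∈ G, fc p (fun x => cA p f R A x - cT x) U ^ 2 := by
      rw [mul_sum, mul_sum, ← sum_add_distrib]
      apply sum_le_sum
      intro U _
      rw [fc_sub]
      nlinarith [sq_nonneg (fc p (cA p f R A) U - 2 * fc p cT U)]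
    linarith
  -- sum over the family
  have hsum1 : ∑ A ∈ F, pA p f R θ L A ≤ Y := by
    have hsub : F ⊆ R.powerset.filter (fun A => A.card ≤ a) := by
      intro A hA
      exact mem_filter.mpr ⟨mem_powerset.mpr (hF A hA).1, (hF A hA).2⟩
    exact le_trans (sum_le_sum_of_subset_of_nonneg hsub
      (fun A _ _ => pA_nonneg h0.le h1.le f R θ L A)) (sum_pA_le h0.le h1.le f R hθ hL.le a)
  have hsum2 := error_bound h0 h1 f hf R a hε hL hθ hθL hI F hF
  rw [cE_sum] at hsum2
  have hsq0 : 0 ≤ √(Y / O) := Real.sqrt_nonneg _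
  have hτ : 0 ≤ sB p ^ d := by positivity
  calc ∑ A ∈ F, ∑ S ∈ T with S ∩ R = A, fc p f S ^ 2
      ≤ ∑ A ∈ F, (2 * (sB p ^ d * (pA p f R θ L A * √(Y / O)))
        + 2 * cE p (fun x => if evA p f R θ L A x then 0 else cA p f R A x ^ 2)) := sum_le_sum hfib
    _ = 2 * (sB p ^ d * ((∑ A ∈ F, pA p f R θ L A) * √(Y / O)))
        + 2 * ∑ A ∈ F, cE p (fun x => if evA p f R θ L A x then 0 else cA p f R A x ^ 2) := by
        rw [sum_add_distrib, ← mul_sum, ← mul_sum, ← mul_sum, sum_mul]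
    _ ≤ 2 * (sB p ^ d * (Y * √(Y / O))) + 2 * (2 * ε) := by
        have h7 : sB p ^ d * ((∑ A ∈ F, pA p f R θ L A) * √(Y / O)) ≤ sB p ^ d * (Y * √(Y / O)) :=
          mul_le_mul_of_nonneg_left (mul_le_mul_of_nonneg_right hsum1 hsq0) hτ
        linarith
    _ = _ := by ring

end Vale.Agent.P063
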