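import Mathlib

/-!
Biased cube basics: product weights, expectation, Fourier characters,
orthonormality and the Parseval identity.
-/

set_option linter.unusedSectionVars false
set_option linter.unusedSimpArgs false
set_option linter.unusedVariables false

namespace Vale.Agent.P063

open Finset Function

variable {ι : Type*} [Fintype ι] [DecidableEq ι]

/-- weight of one bit under the `p`-biased measure -/
noncomputable def bw (p : ℝ) (b : Bool) : ℝ := if b then p else 1 - p

@[simp] lemma bw_true (p : ℝ) : bw p true = p := by simp [bw]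
@[simp] lemma bw_false (p : ℝ) : bw p false = 1 - p := by simp [bw]

lemma bw_nonneg {p : ℝ} (h0 : 0 ≤ p) (h1 : p ≤ 1) (b : Bool) : 0 ≤ bw p b := by
  cases b
  · simp only [bw_false]; linarith
  · simpa using h0

lemma bw_pos {p : ℝ} (h0 : 0 < p) (h1 : p < 1) (b : Bool) : 0 < bw p b := by
  cases b
  · simp only [bw_false]; linarith
  · simpa using h0

/-- product weight of a point of the cube -/
noncomputable def cw (p : ℝ) (x : ι → Bool) : ℝ := ∏ e, bw p (x e)

/-- expectation under the product measure -/
noncomputable def cE (p : ℝ) (F : (ι → Bool) → ℝ) : ℝ := ∑ x, cw p x * F x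

lemma cw_nonneg {p : ℝ} (h0 : 0 ≤ p) (h1 : p ≤ 1) (x : ι → Bool) : 0 ≤ cw p x :=
  prod_nonneg fun _ _ => bw_nonneg h0 h1 _

lemma cw_pos {p : ℝ} (h0 : 0 < p) (h1 : p < 1) (x : ι → Bool) : 0 < cw p x :=
  prod_pos fun _ _ => bw_pos h0 h1 _

/-- the expectation of a product of single coordinate functions -/
lemma cE_prod (p : ℝ) (g : ι → Bool → ℝ) :
    cE p (fun x => ∏ e, g e (x e)) = ∏ e, (p * g e true + (1 - p) * g e false) := by
  unfold cE cw
  have key := Finset.prod_univ_sum (fun _ : ι => (univ : Finset Bool))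
    (fun e b => bw p b * g e b)
  simp only [Fintype.piFinset_univ] at key
  simp only [← Finset.prod_mul_distrib]
  rw [← key]
  apply prod_congr rfl
  intro e _
  simp [Fintype.sum_bool]

lemma cE_const (p c : ℝ) : cE (ι := ι) p (fun _ => c) = c := by
  have h := cE_prod (ι := ι) p (fun _ _ => 1)
  have h1 : ∏ _e : ι, (p * 1 + (1 - p) * 1) = 1 := by
    apply prod_eq_one; intro _ _; ring
  simp only [prod_const_one] at h
  rw [h1] at h
  unfold cE at h ⊢
  calc ∑ x, cw p x * c = (∑ x, cw p x * 1) * c := by
        rw [sum_mul]; apply sum_congr rfl; intro x _; ring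
    _ = c := by rw [h]; ring

lemma cw_sum (p : ℝ) : ∑ x : ι → Bool, cw p x = 1 := by
  have := cE_const (ι := ι) p 1
  simpa [cE] using this

lemma cE_add (p : ℝ) (F G : (ι → Bool) → ℝ) :
    cE p (fun x => F x + G x) = cE p F + cE p G := by
  unfold cE; rw [← sum_add_distrib]; apply sum_congr rfl; intro x _; ring

lemma cE_sub (p : ℝ) (F G : (ι → Bool) → ℝ) :
    cE p (fun x => F x - G x) = cE p F - cE p G := by
  unfold cE; rw [← sum_sub_distrib]; apply sum_congr rfl; intro x _; ring

lemma cE_const_mul (p c : ℝ) (F : (ι → Bool) → ℝ) :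
    cE p (fun x => c * F x) = c * cE p F := by
  unfold cE; rw [mul_sum]; apply sum_congr rfl; intro x _; ring

lemma cE_mul_const (p c : ℝ) (F : (ι → Bool) → ℝ) :
    cE p (fun x => F x * c) = cE p F * c := by
  unfold cE; rw [sum_mul]; apply sum_congr rfl; intro x _; ring

lemma cE_sum {α : Type*} (p : ℝ) (s : Finset α) (F : α → (ι → Bool) → ℝ) :
    cE p (fun x => ∑ a ∈ s, F a x) = ∑ a ∈ s, cE p (F a) := by
  unfold cE
  simp only [mul_sum]
  rw [sum_comm]

lemma cE_mono {p : ℝ} (h0 : 0 ≤ p) (h1 : p ≤ 1) {F G : (ι → Bool) → ℝ}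
    (h : ∀ x, F x ≤ G x) : cE p F ≤ cE p G := by
  unfold cE
  apply sum_le_sum
  intro x _
  exact mul_le_mul_of_nonneg_left (h x) (cw_nonneg h0 h1 x)

lemma cE_nonneg {p : ℝ} (h0 : 0 ≤ p) (h1 : p ≤ 1) {F : (ι → Bool) → ℝ}
    (h : ∀ x, 0 ≤ F x) : 0 ≤ cE p F := by
  have := cE_mono (ι := ι) h0 h1 (F := fun _ => 0) (G := F) h
  rwa [cE_const] at this

/-- Cauchy-Schwarz for the expectation -/
lemma cE_cs {p : ℝ} (h0 : 0 ≤ p) (h1 : p ≤ 1) (F G : (ι → Bool) → ℝ) :
    (cE p (fun x => F x * G x)) ^ 2 ≤ cE p (fun x => F x ^ 2) * cE p (fun x => G x ^ 2) := by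
  unfold cE
  have := Finset.sum_mul_sq_le_sq_mul_sq (univ : Finset (ι → Bool))
    (fun x => √(cw p x) * F x) (fun x => √(cw p x) * G x)
  have hs : ∀ x : ι → Bool, √(cw p x) * √(cw p x) = cw p x := fun x =>
    Real.mul_self_sqrt (cw_nonneg h0 h1 x)
  calc (∑ x, cw p x * (F x * G x)) ^ 2
      = (∑ x, (√(cw p x) * F x) * (√(cw p x) * G x)) ^ 2 := by
        congr 1; apply sum_congr rfl; intro x _
        calc cw p x * (F x * G x) = (√(cw p x) * √(cw p x)) * (F x * G x) := by rw [hs]
          _ = _ := by ring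
    _ ≤ (∑ x, (√(cw p x) * F x) ^ 2) * (∑ x, (√(cw p x) * G x) ^ 2) := this
    _ = _ := by
        congr 1 <;>
        · apply sum_congr rfl; intro x _
          rw [mul_pow, Real.sq_sqrt (cw_nonneg h0 h1 x)]

/-- split a cube sum according to the bit `e` -/
lemma sum_split (e : ι) (G : (ι → Bool) → ℝ) :
    ∑ x, G x = ∑ x, if x e then G x + G (update x e false) else 0 := by
  have hinv : Function.Involutive (fun x : ι → Bool => update x e (!x e)) := by
    intro x
    funext j
    by_cases hj : j = e
    · subst hj; simp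
    · simp [update_of_ne hj]
  have h2 : ∑ x, (if x e then 0 else G x)
      = ∑ x, (if x e then G (update x e false) else 0) := by
    rw [← Equiv.sum_comp hinv.toPerm]
    apply sum_congr rfl
    intro x _
    simp only [Involutive.coe_toPerm, update_self]
    cases hx : x e <;> simp
  calc ∑ x, G x = ∑ x, ((if x e then G x else 0) + (if x e then 0 else G x)) := by
        apply sum_congr rfl; intro x _; split_ifs <;> simp
    _ = _ := by
        rw [sum_add_distrib, h2, ← sum_add_distrib]
        apply sum_congr rfl; intro x _; split_ifs <;> simp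

/-- the weight of the coordinates other than `e` -/
noncomputable def cwo (p : ℝ) (e : ι) (x : ι → Bool) : ℝ := ∏ j ∈ univ.erase e, bw p (x j)

lemma cw_eq (p : ℝ) (e : ι) (x : ι → Bool) : cw p x = bw p (x e) * cwo p e x := by
  unfold cw cwo
  rw [mul_prod_erase univ (fun j => bw p (x j)) (mem_univ e)]

lemma cwo_update (p : ℝ) (e : ι) (x : ι → Bool) (b : Bool) :
    cwo p e (update x e b) = cwo p e x := by
  unfold cwo
  apply prod_congr rfl
  intro j hj
  rw [update_of_ne (ne_of_mem_erase hj)]

lemma update_eq_of_true {e : ι} {x : ι → Bool} {b : Bool} (h : x e = b) : update x e b = x := by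
  subst h; simp

/-- resampling one coordinate preserves the expectation -/
lemma cE_split (p : ℝ) (e : ι) (F : (ι → Bool) → ℝ) :
    cE p F = cE p (fun x => p * F (update x e true) + (1 - p) * F (update x e false)) := by
  unfold cE
  rw [sum_split e (fun x => cw p x * F x),
    sum_split e (fun x => cw p x * (p * F (update x e true) + (1 - p) * F (update x e false)))]
  apply sum_congr rfl
  intro x _
  by_cases hx : x e = true
  · simp only [hx, if_true]
    have h1 : update x e true = x := update_eq_of_true hx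
    have c1 : cw p x = p * cwo p e x := by rw [cw_eq p e x, hx, bw_true]
    have c2 : cw p (update x e false) = (1 - p) * cwo p e x := by
      rw [cw_eq p e, cwo_update, update_self, bw_false]
    simp only [update_idem, update_self, h1, c1, c2]
    ring
  · simp [hx]

/-- a coordinate function is independent of a function not depending on the coordinate -/
lemma cE_mul_coord (p : ℝ) (e : ι) (G : (ι → Bool) → ℝ)
    (hG : ∀ x b, G (update x e b) = G x) (u : Bool → ℝ) :
    cE p (fun x => G x * u (x e)) = cE p G * (p * u true + (1 - p) * u false) := by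
  rw [cE_split p e]
  simp only [hG, update_self]
  rw [← cE_mul_const]
  congr 1
  funext x
  ring

section Fourier

variable {p : ℝ}

/-- the standard deviation of a bit -/
noncomputable def s0 (p : ℝ) : ℝ := √(p * (1 - p))

lemma s0_pos (h0 : 0 < p) (h1 : p < 1) : 0 < s0 p :=
  Real.sqrt_pos.mpr (mul_pos h0 (by linarith))

lemma s0_sq (h0 : 0 < p) (h1 : p < 1) : s0 p ^ 2 = p * (1 - p) :=
  Real.sq_sqrt (mul_pos h0 (by linarith)).le

/-- the normalised coordinate function -/
noncomputable def psi (p : ℝ) (b : Bool) : ℝ := if b then (1 - p) / s0 p else -p / s0 p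

@[simp] lemma psi_true (p : ℝ) : psi p true = (1 - p) / s0 p := by simp [psi]
@[simp] lemma psi_false (p : ℝ) : psi p false = -p / s0 p := by simp [psi]

lemma psi_mean (p : ℝ) : p * psi p true + (1 - p) * psi p false = 0 := by
  simp only [psi_true, psi_false]; ring

lemma psi_sq_mean (h0 : 0 < p) (h1 : p < 1) :
    p * psi p true ^ 2 + (1 - p) * psi p false ^ 2 = 1 := by
  have hs := s0_pos h0 h1
  have h2 := s0_sq h0 h1
  simp only [psi_true, psi_false, div_pow, neg_sq]
  field_simp
  rw [h2]; ring

lemma psi_cube_mean (h0 : 0 < p) (h1 : p < 1) :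
    p * psi p true ^ 3 + (1 - p) * psi p false ^ 3 = (1 - 2 * p) / s0 p := by
  have hs := s0_pos h0 h1
  have h2 := s0_sq h0 h1
  simp only [psi_true, psi_false, div_pow]
  field_simp
  rw [h2]; ring

lemma psi_four_mean (h0 : 0 < p) (h1 : p < 1) :
    p * psi p true ^ 4 + (1 - p) * psi p false ^ 4 ≤ 1 / (p * (1 - p)) := by
  have hs := s0_pos h0 h1
  have h2 := s0_sq h0 h1
  have hv : 0 < p * (1 - p) := mul_pos h0 (by linarith)
  have h4 : s0 p ^ 4 = (p * (1 - p)) ^ 2 := by
    calc s0 p ^ 4 = (s0 p ^ 2) ^ 2 := by ring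
      _ = _ := by rw [h2]
  simp only [psi_true, psi_false, div_pow, h4]
  have h5 : p * ((1 - p) ^ 4 / (p * (1 - p)) ^ 2) + (1 - p) * ((-p) ^ 4 / (p * (1 - p)) ^ 2)
      = ((1 - p) ^ 3 + p ^ 3) / (p * (1 - p)) := by
    have h1' : (1 - p) ≠ 0 := by linarith
    have h0' : p ≠ 0 := h0.ne'
    field_simp
  rw [h5]
  apply div_le_div_of_nonneg_right _ hv.le
  nlinarith [mul_pos h0 (sub_pos.mpr h1)]

lemma psi_kernel (h0 : 0 < p) (h1 : p < 1) (a b : Bool) :
    1 + psi p a * psi p b = if a = b then 1 / bw p a else 0 := by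
  have hs := s0_pos h0 h1
  have h2 := s0_sq h0 h1
  have h1' : (1 - p) ≠ 0 := by linarith
  have h0' : p ≠ 0 := h0.ne'
  have hss : s0 p * s0 p = p * (1 - p) := by rw [← h2]; ring
  cases a <;> cases b <;> simp only [psi_true, psi_false, bw_true, bw_false, if_true, if_false,
    reduceCtorEq] <;> rw [div_mul_div_comm, hss] <;> field_simp <;> ring

/-- the character of a set of coordinates -/
noncomputable def chi (p : ℝ) (S : Finset ι) (x : ι → Bool) : ℝ := ∏ e ∈ S, psi p (x e)

@[simp] lemma chi_empty (p : ℝ) (x : ι → Bool) : chi p ∅ x = 1 := by simp [chi]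

lemma chi_update_of_notMem (p : ℝ) {S : Finset ι} {e : ι} (he : e ∉ S) (x : ι → Bool) (b : Bool) :
    chi p S (update x e b) = chi p S x := by
  unfold chi
  apply prod_congr rfl
  intro j hj
  rw [update_of_ne]
  rintro rfl
  exact he hj

lemma chi_insert (p : ℝ) {S : Finset ι} {e : ι} (he : e ∉ S) (x : ι → Bool) :
    chi p (insert e S) x = psi p (x e) * chi p S x := by
  unfold chi
  rw [prod_insert he]

lemma chi_union (p : ℝ) {S T : Finset ι} (h : Disjoint S T) (x : ι → Bool) :
    chi p (S ∪ T) x = chi p S x * chi p T x := by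
  unfold chi
  rw [prod_union h]

lemma chi_eq_prod (p : ℝ) (S : Finset ι) (x : ι → Bool) :
    chi p S x = ∏ e, (if e ∈ S then psi p (x e) else 1) := by
  unfold chi
  rw [prod_ite_mem univ S, univ_inter]

lemma chi_congr (p : ℝ) {S : Finset ι} {x y : ι → Bool} (h : ∀ e ∈ S, x e = y e) :
    chi p S x = chi p S y := by
  unfold chi
  apply prod_congr rfl
  intro e he
  rw [h e he]

/-- orthonormality of the characters -/
lemma chi_orthonormal (h0 : 0 < p) (h1 : p < 1) (S T : Finset ι) :
    cE p (fun x => chi p S x * chi p T x) = if S = T then 1 else 0 := by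
  have hx : (fun x : ι → Bool => chi p S x * chi p T x)
      = fun x => ∏ e, ((if e ∈ S then psi p (x e) else 1) * (if e ∈ T then psi p (x e) else 1)) := by
    funext x
    rw [chi_eq_prod, chi_eq_prod, prod_mul_distrib]
  rw [hx]
  rw [cE_prod p (fun e b => (if e ∈ S then psi p b else 1) * (if e ∈ T then psi p b else 1))]
  by_cases hST : S = T
  · subst hST
    simp only [if_true]
    apply prod_eq_one
    intro e _
    by_cases he : e ∈ S
    · simp only [he, if_true]
      have := psi_sq_mean h0 h1
      nlinarith [this]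
    · simp only [he, if_false]; ring
  · simp only [hST, if_false]
    have : ∃ e, (e ∈ S ∧ e ∉ T) ∨ (e ∉ S ∧ e ∈ T) := by
      by_contra hne
      push Not at hne
      apply hST
      ext e
      constructor
      · intro he
        exact (hne e).1 he
      · intro he
        by_contra ht
        exact ((hne e).2 ht) he
    obtain ⟨e, he⟩ := this
    apply prod_eq_zero (mem_univ e)
    have hm := psi_mean p
    rcases he with ⟨h3, h4⟩ | ⟨h3, h4⟩
    · simp only [h3, h4, if_true, if_false, mul_one]; exact hm
    · simp only [h3, h4, if_true, if_false, one_mul]; exact hm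

lemma chi_sq_mean (h0 : 0 < p) (h1 : p < 1) (S : Finset ι) :
    cE p (fun x => chi p S x ^ 2) = 1 := by
  have := chi_orthonormal h0 h1 S S
  simp only [if_true] at this
  rw [← this]
  congr 1
  funext x
  ring

/-- the reproducing kernel of the characters -/
lemma chi_kernel (h0 : 0 < p) (h1 : p < 1) (x y : ι → Bool) :
    ∑ S : Finset ι, chi p S x * chi p S y = if x = y then 1 / cw p x else 0 := by
  have hk : ∏ e, (1 + psi p (x e) * psi p (y e)) = ∑ S : Finset ι, chi p S x * chi p S y := by
    rw [Finset.prod_one_add, powerset_univ]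
    apply sum_congr rfl
    intro S _
    unfold chi
    rw [prod_mul_distrib]
  rw [← hk]
  simp only [psi_kernel h0 h1]
  by_cases hxy : x = y
  · subst hxy
    simp only [if_true]
    unfold cw
    rw [prod_div_distrib]
    simp
  · rw [if_neg hxy]
    obtain ⟨e, he⟩ := Function.ne_iff.mp hxy
    apply prod_eq_zero (mem_univ e)
    simp [he]

/-- Fourier coefficient -/
noncomputable def fc (p : ℝ) (f : (ι → Bool) → ℝ) (S : Finset ι) : ℝ :=
  cE p (fun x => f x * chi p S x)

/-- the Parseval identity -/
theorem parseval (h0 : 0 < p) (h1 : p < 1) (f g : (ι → Bool) → ℝ) :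
    ∑ S : Finset ι, fc p f S * fc p g S = cE p (fun x => f x * g x) := by
  unfold fc cE
  have step : ∀ S : Finset ι,
      (∑ x, cw p x * (f x * chi p S x)) * (∑ y, cw p y * (g y * chi p S y))
        = ∑ x, ∑ y, cw p x * f x * (cw p y * g y) * (chi p S x * chi p S y) := by
    intro S
    rw [sum_mul_sum]
    apply sum_congr rfl; intro x _
    apply sum_congr rfl; intro y _
    ring
  simp only [step]
  rw [sum_comm]
  apply sum_congr rfl
  intro x _
  rw [sum_comm]
  simp only [← mul_sum, chi_kernel h0 h1]
  rw [sum_eq_single x]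
  · have := (cw_pos h0 h1 x).ne'
    simp only [if_true]
    field_simp
  · intro y _ hy
    rw [if_neg (Ne.symm hy)]; ring
  · simp

lemma parseval_sq (h0 : 0 < p) (h1 : p < 1) (f : (ι → Bool) → ℝ) :
    ∑ S : Finset ι, fc p f S ^ 2 = cE p (fun x => f x ^ 2) := by
  have := parseval h0 h1 f f
  simp only [← pow_two] at this
  exact this

lemma fc_sub (p : ℝ) (f g : (ι → Bool) → ℝ) (S : Finset ι) :
    fc p (fun x => f x - g x) S = fc p f S - fc p g S := by
  unfold fc
  rw [← cE_sub]
  congr 1
  funext x
  ring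

/-- discrete derivative -/
def dd (e : ι) (f : (ι → Bool) → ℝ) (x : ι → Bool) : ℝ :=
  f (update x e true) - f (update x e false)

/-- Fourier coefficient through a discrete derivative -/
lemma fc_of_mem (h0 : 0 < p) (h1 : p < 1) (f : (ι → Bool) → ℝ) {S : Finset ι} {e : ι}
    (he : e ∈ S) : fc p f S = s0 p * fc p (dd e f) (S.erase e) := by
  unfold fc
  rw [cE_split p e, ← cE_const_mul]
  congr 1
  funext x
  have hS : S = insert e (S.erase e) := (insert_erase he).symm
  have hn : e ∉ S.erase e := notMem_erase e S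
  have hs := s0_pos h0 h1
  have c1 : chi p S (update x e true) = (1 - p) / s0 p * chi p (S.erase e) x := by
    rw [hS, chi_insert p hn, erase_insert hn, chi_update_of_notMem p hn, update_self, psi_true]
  have c2 : chi p S (update x e false) = -p / s0 p * chi p (S.erase e) x := by
    rw [hS, chi_insert p hn, erase_insert hn, chi_update_of_notMem p hn, update_self, psi_false]
  rw [c1, c2]
  have h2 := s0_sq h0 h1
  unfold dd
  field_simp
  rw [h2]
  ring

/-- influence of a coordinate -/
noncomputable def inflE (p : ℝ) (f : (ι → Bool) → ℝ) (e : ι) : ℝ :=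
  cE p (fun x => if f (update x e true) ≠ f (update x e false) then 1 else 0)

/-- total influence -/
noncomputable def inflT (p : ℝ) (f : (ι → Bool) → ℝ) : ℝ := ∑ e, inflE p f e

lemma inflE_nonneg (h0 : 0 ≤ p) (h1 : p ≤ 1) (f : (ι → Bool) → ℝ) (e : ι) :
    0 ≤ inflE p f e := by
  apply cE_nonneg h0 h1
  intro x
  split_ifs <;> norm_num

end Fourier

end Vale.Agent.P063
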