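import Vale.Agent.P063.Band

/-!
Total influence, variance and the Fourier mass on high levels; Russo's formula.
-/

set_option linter.unusedSectionVars false
set_option linter.unusedSimpArgs false
set_option linter.unusedVariables false

namespace Vale.Agent.P063

open Finset Function

variable {ι : Type*} [Fintype ι] [DecidableEq ι] {p : ℝ}

lemma dd_sq_eq (f : (ι → Bool) → ℝ) (hf : ∀ x, f x = 0 ∨ f x = 1) (e : ι) (x : ι → Bool) :
    dd e f x ^ 2 = if f (update x e true) ≠ f (update x e false) then 1 else 0 := by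
  unfold dd
  rcases hf (update x e true) with h2 | h2 <;> rcases hf (update x e false) with h3 | h3 <;>
    simp [h2, h3]

/-- the Fourier mass on sets through a coordinate is bounded by the influence -/
lemma star_mass_le (h0 : 0 < p) (h1 : p < 1) (f : (ι → Bool) → ℝ) (hf : ∀ x, f x = 0 ∨ f x = 1)
    (e : ι) :
    ∑ S ∈ univ.filter (fun S : Finset ι => e ∈ S), fc p f S ^ 2 ≤ p * (1 - p) * inflE p f e := by
  set F := univ.filter (fun S : Finset ι => e ∈ S) with hF
  have e1 : ∑ A ∈ F, fc p f A ^ 2
      = p * (1 - p) * ∑ U ∈ F.image (fun A => A.erase e), fc p (dd e f) U ^ 2 := by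
    rw [sum_image, mul_sum]
    · apply sum_congr rfl
      intro A hA
      rw [fc_of_mem h0 h1 f (mem_filter.mp hA).2, mul_pow, s0_sq h0 h1]
    · intro A hA B hB hAB
      have hAe := (mem_filter.mp (mem_coe.mp hA)).2
      have hBe := (mem_filter.mp (mem_coe.mp hB)).2
      have hAB' : A.erase e = B.erase e := hAB
      rw [← insert_erase hAe, ← insert_erase hBe, hAB']
  rw [e1]
  apply mul_le_mul_of_nonneg_left _ (mul_pos h0 (by linarith)).le
  calc ∑ U ∈ F.image (fun A => A.erase e), fc p (dd e f) U ^ 2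
      ≤ ∑ U : Finset ι, fc p (dd e f) U ^ 2 :=
        sum_le_sum_of_subset_of_nonneg (subset_univ _) (fun _ _ _ => sq_nonneg _)
    _ = cE p (fun x => dd e f x ^ 2) := parseval_sq h0 h1 _
    _ = inflE p f e := by
        unfold inflE
        congr 1
        funext x
        exact dd_sq_eq f hf e x

/-- the energy identity, as an inequality -/
lemma sum_card_mul_le (h0 : 0 < p) (h1 : p < 1) (f : (ι → Bool) → ℝ)
    (hf : ∀ x, f x = 0 ∨ f x = 1) :
    ∑ S : Finset ι, (S.card : ℝ) * fc p f S ^ 2 ≤ p * (1 - p) * inflT p f := by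
  have e1 : ∀ S : Finset ι, (S.card : ℝ) * fc p f S ^ 2
      = ∑ e, (if e ∈ S then fc p f S ^ 2 else 0) := by
    intro S
    have h : univ.filter (fun e => e ∈ S) = S := by
      ext e
      simp
    rw [← sum_filter, h, sum_const, nsmul_eq_mul]
  simp only [e1]
  rw [sum_comm]
  unfold inflT
  rw [mul_sum]
  apply sum_le_sum
  intro e _
  rw [← sum_filter]
  exact star_mass_le h0 h1 f hf e

lemma fc_empty (p : ℝ) (f : (ι → Bool) → ℝ) : fc p f ∅ = cE p f := by
  unfold fc
  simp

/-- the variance as the Fourier mass off the empty set -/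
lemma variance_eq (h0 : 0 < p) (h1 : p < 1) (f : (ι → Bool) → ℝ) (hf : ∀ x, f x = 0 ∨ f x = 1) :
    ∑ S ∈ univ.filter (fun S : Finset ι => S ≠ ∅), fc p f S ^ 2 = cE p f * (1 - cE p f) := by
  have h2 := parseval_sq h0 h1 f
  have h3 : cE p (fun x => f x ^ 2) = cE p f := by
    congr 1
    funext x
    rcases hf x with h | h <;> simp [h]
  rw [h3] at h2
  rw [← sum_filter_add_sum_filter_not univ (fun S : Finset ι => S = ∅)] at h2
  have h4 : univ.filter (fun S : Finset ι => S = ∅) = {∅} := by
    ext S; simp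
  rw [h4, sum_singleton, fc_empty] at h2
  have : ∑ S ∈ univ.filter (fun S : Finset ι => ¬ S = ∅), fc p f S ^ 2
      = ∑ S ∈ univ.filter (fun S : Finset ι => S ≠ ∅), fc p f S ^ 2 := rfl
  rw [← this]
  linarith

/-- the total influence controls the mass above a level -/
theorem energy_lower (h0 : 0 < p) (h1 : p < 1) (f : (ι → Bool) → ℝ)
    (hf : ∀ x, f x = 0 ∨ f x = 1) (M : ℕ) (hM : 1 ≤ M) :
    (M : ℝ) * (cE p f * (1 - cE p f)
        - ∑ S ∈ univ.filter (fun S : Finset ι => 1 ≤ S.card ∧ S.card < M), fc p f S ^ 2)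
      ≤ p * (1 - p) * inflT p f := by
  have hM0 : (0 : ℝ) ≤ M := Nat.cast_nonneg _
  set Low := univ.filter (fun S : Finset ι => 1 ≤ S.card ∧ S.card < M) with hLow
  set High := univ.filter (fun S : Finset ι => M ≤ S.card) with hHigh
  have hsub : univ.filter (fun S : Finset ι => S ≠ ∅) ⊆ Low ∪ High := by
    intro S hS
    have hS' : S ≠ ∅ := (mem_filter.mp hS).2
    have hc : 1 ≤ S.card := card_pos.mpr (nonempty_iff_ne_empty.mpr hS')
    rcases Nat.lt_or_ge S.card M with h | h
    · exact mem_union_left _ (mem_filter.mpr ⟨mem_univ _, hc, h⟩)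
    · exact mem_union_right _ (mem_filter.mpr ⟨mem_univ _, h⟩)
  have hdisj : Disjoint Low High := by
    rw [disjoint_left]
    intro S h2 h3
    have h4 := (mem_filter.mp h2).2.2
    have h5 := (mem_filter.mp h3).2
    omega
  have hvar : cE p f * (1 - cE p f) ≤ ∑ S ∈ Low, fc p f S ^ 2 + ∑ S ∈ High, fc p f S ^ 2 := by
    rw [← variance_eq h0 h1 f hf, ← sum_union hdisj]
    exact sum_le_sum_of_subset_of_nonneg hsub (fun _ _ _ => sq_nonneg _)
  have hhigh : (M : ℝ) * ∑ S ∈ High, fc p f S ^ 2 ≤ ∑ S : Finset ι, (S.card : ℝ) * fc p f S ^ 2 := by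
    rw [mul_sum]
    calc ∑ S ∈ High, (M : ℝ) * fc p f S ^ 2 ≤ ∑ S ∈ High, (S.card : ℝ) * fc p f S ^ 2 := by
          apply sum_le_sum
          intro S hS
          apply mul_le_mul_of_nonneg_right _ (sq_nonneg _)
          exact_mod_cast (mem_filter.mp hS).2
      _ ≤ _ := sum_le_sum_of_subset_of_nonneg (subset_univ _) (fun _ _ _ => by positivity)
  have h3 := sum_card_mul_le h0 h1 f hf
  have h4 : (M : ℝ) * (cE p f * (1 - cE p f) - ∑ S ∈ Low, fc p f S ^ 2)
      ≤ (M : ℝ) * ∑ S ∈ High, fc p f S ^ 2 :=
    mul_le_mul_of_nonneg_left (by linarith) hM0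
  linarith

/-! Russo's formula -/

lemma hasDerivAt_bw (b : Bool) (p : ℝ) : HasDerivAt (fun q => bw q b) (if b then 1 else -1) p := by
  cases b
  · simp only [bw_false, Bool.false_eq_true, if_false]
    simpa using (hasDerivAt_id p).const_sub 1
  · simp only [bw_true, if_true]
    exact hasDerivAt_id p

lemma hasDerivAt_cw (x : ι → Bool) (p : ℝ) :
    HasDerivAt (fun q => cw q x)
      (∑ e, (cwo p e x) * (if x e then 1 else -1)) p := by
  unfold cw cwo
  have := HasDerivAt.fun_finsetProd (u := (univ : Finset ι)) (f := fun e q => bw q (x e))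
    (f' := fun e => if x e then (1 : ℝ) else -1) (x := p) (fun e _ => hasDerivAt_bw (x e) p)
  simpa using this

lemma cwo_mul_sign_sum (p : ℝ) (e : ι) (f : (ι → Bool) → ℝ) :
    ∑ x, cwo p e x * (if x e then (1 : ℝ) else -1) * f x
      = cE p (dd e f) := by
  unfold cE dd
  rw [sum_split e (fun x => cwo p e x * (if x e then (1 : ℝ) else -1) * f x),
    sum_split e (fun x => cw p x * (f (update x e true) - f (update x e false)))]
  apply sum_congr rfl
  intro x _
  by_cases hx : x e = true
  · simp only [hx, if_true]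
    have h1 : update x e true = x := update_eq_of_true hx
    have c1 : cw p x = p * cwo p e x := by rw [cw_eq p e x, hx, bw_true]
    have c2 : cw p (update x e false) = (1 - p) * cwo p e x := by
      rw [cw_eq p e, cwo_update, update_self, bw_false]
    simp only [update_idem, update_self, h1, c1, c2, cwo_update]
    simp
    ring
  · simp [hx]

/-- Russo's formula in the form of a derivative -/
theorem hasDerivAt_cE (f : (ι → Bool) → ℝ) (p : ℝ) :
    HasDerivAt (fun q => cE q f) (∑ e, cE p (dd e f)) p := by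
  unfold cE
  have h := HasDerivAt.fun_sum (u := (univ : Finset (ι → Bool)))
    (A := fun x q => cw q x * f x)
    (A' := fun x => (∑ e, (cwo p e x) * (if x e then 1 else -1)) * f x) (x := p)
    (fun x _ => (hasDerivAt_cw x p).mul_const (f x))
  have e1 : ∑ x, (∑ e, (cwo p e x) * (if x e then (1 : ℝ) else -1)) * f x
      = ∑ e, ∑ x, cw p x * dd e f x := by
    simp only [sum_mul]
    rw [sum_comm]
    apply sum_congr rfl
    intro e _
    exact cwo_mul_sign_sum p e f
  rw [e1] at h
  exact h

/-- for a monotone function the derivative of the expectation is the total influence -/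
lemma dd_eq_of_mono (f : (ι → Bool) → ℝ) (hf : ∀ x, f x = 0 ∨ f x = 1)
    (hmono : ∀ x e, f (update x e false) ≤ f (update x e true)) (e : ι) (x : ι → Bool) :
    dd e f x = if f (update x e true) ≠ f (update x e false) then 1 else 0 := by
  unfold dd
  have := hmono x e
  rcases hf (update x e true) with h2 | h2 <;> rcases hf (update x e false) with h3 | h3 <;>
    simp [h2, h3] at this ⊢
  linarith

theorem hasDerivAt_cE_mono (f : (ι → Bool) → ℝ) (hf : ∀ x, f x = 0 ∨ f x = 1)
    (hmono : ∀ x e, f (update x e false) ≤ f (update x e true)) (p : ℝ) :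
    HasDerivAt (fun q => cE q f) (inflT p f) p := by
  have h := hasDerivAt_cE f p
  have e1 : ∑ e, cE p (dd e f) = inflT p f := by
    unfold inflT inflE
    apply sum_congr rfl
    intro e _
    congr 1
    funext x
    exact dd_eq_of_mono f hf hmono e x
  rwa [e1] at h

end Vale.Agent.P063
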