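import Vale.Agent.P063.Width

/-!
Translation from families of hypergraphs to functions on the cube, and the final theorem.
-/

set_option linter.unusedSectionVars false
set_option linter.unusedSimpArgs false
set_option linter.unusedVariables false

namespace Vale.Agent.P063

open Finset Function Filter Topology

variable {n r : ℕ}

/-- the hypergraph of a point of the cube -/
def hyperOf (x : Edge n r → Bool) : Finset (Finset (Fin n)) :=
  (univ.filter (fun e : Edge n r => x e = true)).image Subtype.val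

lemma mem_hyperOf {x : Edge n r → Bool} {s : Finset (Fin n)} :
    s ∈ hyperOf x ↔ ∃ h : s.card = r, x ⟨s, h⟩ = true := by
  unfold hyperOf
  simp only [mem_image, mem_filter, mem_univ, true_and, Subtype.exists, exists_and_right,
    exists_eq_right]

lemma card_hyperOf (x : Edge n r → Bool) :
    (hyperOf x).card = (univ.filter (fun e : Edge n r => x e = true)).card := by
  unfold hyperOf
  exact card_image_of_injective _ Subtype.val_injective

lemma card_edge : Fintype.card (Edge n r) = n.choose r := by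
  rw [Fintype.card_finset_len, Fintype.card_fin]

lemma cw_eq_pow (p : ℝ) (x : Edge n r → Bool) :
    cw p x = p ^ (hyperOf x).card * (1 - p) ^ (n.choose r - (hyperOf x).card) := by
  have h1 : (univ.filter (fun e : Edge n r => x e = true)).card
      + (univ.filter (fun e : Edge n r => ¬ x e = true)).card = n.choose r := by
    rw [card_filter_add_card_filter_not, card_univ, card_edge]
  unfold cw
  have h2 : ∀ e, bw p (x e) = if x e = true then p else 1 - p := fun e => rfl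
  simp only [h2]
  rw [prod_ite, prod_const, prod_const, card_hyperOf]
  congr 2
  omega

/-- the indicator of a family of hypergraphs -/
noncomputable def fP (P : Finset (Finset (Finset (Fin n)))) (x : Edge n r → Bool) : ℝ :=
  if hyperOf x ∈ P then 1 else 0

lemma fP_01 (P : Finset (Finset (Finset (Fin n)))) (x : Edge n r → Bool) :
    fP P x = 0 ∨ fP P x = 1 := by
  unfold fP
  split_ifs <;> simp

lemma sum_P_eq {P : Finset (Finset (Finset (Fin n)))}
    (hP : ∀ H ∈ P, H ⊆ powersetCard r univ) (p : ℝ) :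
    ∑ H ∈ P, p ^ H.card * (1 - p) ^ (n.choose r - H.card) = cE p (fP (r := r) P) := by
  unfold cE fP
  simp only [mul_ite, mul_one, mul_zero]
  rw [← sum_filter]
  symm
  apply sum_nbij' hyperOf (fun H (e : Edge n r) => decide (e.val ∈ H))
  · intro x hx
    exact (mem_filter.mp hx).2
  · intro H hH
    refine mem_filter.mpr ⟨mem_univ _, ?_⟩
    have : hyperOf (fun e : Edge n r => decide (e.val ∈ H)) = H := by
      ext s
      rw [mem_hyperOf]
      constructor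
      · rintro ⟨h, h2⟩
        simpa using h2
      · intro hs
        have h3 := (mem_powersetCard.mp (hP H hH hs)).2
        exact ⟨h3, by simpa using hs⟩
    rw [this]
    exact hH
  · intro x _
    funext e
    by_cases he : x e = true
    · have : e.val ∈ hyperOf x := mem_hyperOf.mpr ⟨e.property, he⟩
      simp [this, he]
    · have : e.val ∉ hyperOf x := by
        intro hc
        obtain ⟨h, h2⟩ := mem_hyperOf.mp hc
        exact he h2
      simp only [this, decide_false]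
      simpa using he
  · intro H hH
    ext s
    rw [mem_hyperOf]
    constructor
    · rintro ⟨h, h2⟩
      simpa using h2
    · intro hs
      have h3 := (mem_powersetCard.mp (hP H hH hs)).2
      exact ⟨h3, by simpa using hs⟩
  · intro x _
    exact cw_eq_pow p x

lemma map_inv_map (σ : Equiv.Perm (Fin n)) (s : Finset (Fin n)) :
    (s.map σ⁻¹.toEmbedding).map σ.toEmbedding = s := by
  ext v
  constructor
  · intro hv
    obtain ⟨u, hu, rfl⟩ := mem_map.mp hv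
    obtain ⟨w, hw, rfl⟩ := mem_map.mp hu
    simpa using hw
  · intro hv
    exact mem_map.mpr ⟨σ⁻¹ v, mem_map_of_mem _ hv, by simp⟩

lemma image_hyper (σ : Equiv.Perm (Fin n)) (x : Edge n r → Bool) :
    (hyperOf (x ∘ edgePerm σ)).image (Finset.map σ.toEmbedding) = hyperOf x := by
  ext s
  rw [mem_image, mem_hyperOf]
  constructor
  · rintro ⟨t, ht, rfl⟩
    obtain ⟨h, h2⟩ := mem_hyperOf.mp ht
    exact ⟨by rw [card_map]; exact h, h2⟩
  · rintro ⟨h, h2⟩
    refine ⟨s.map σ⁻¹.toEmbedding, mem_hyperOf.mpr ⟨by rw [card_map]; exact h, ?_⟩, ?_⟩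
    · have e : edgePerm σ ⟨s.map σ⁻¹.toEmbedding, by rw [card_map]; exact h⟩ = ⟨s, h⟩ := by
        apply Subtype.ext
        rw [edgePerm_val]
        exact map_inv_map σ s
      simp only [comp_apply]
      rw [e]
      exact h2
    · exact map_inv_map σ s

lemma fP_sym {P : Finset (Finset (Finset (Fin n)))}
    (hinv : ∀ σ : Equiv.Perm (Fin n), ∀ H ∈ P, H.image (Finset.map σ.toEmbedding) ∈ P)
    (σ : Equiv.Perm (Fin n)) (x : Edge n r → Bool) :
    fP P (x ∘ edgePerm σ) = fP P x := by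
  unfold fP
  have h : hyperOf (x ∘ edgePerm σ) ∈ P ↔ hyperOf x ∈ P := by
    constructor
    · intro h1
      have := hinv σ _ h1
      rwa [image_hyper] at this
    · intro h1
      have h2 := hinv σ⁻¹ _ h1
      have h3 := image_hyper σ⁻¹ (x ∘ edgePerm σ)
      have h4 : (x ∘ edgePerm σ) ∘ edgePerm σ⁻¹ = x := by
        funext e
        simp only [comp_apply]
        rw [edgePerm_inv']
      rw [h4] at h3
      rwa [h3] at h2
  simp only [h]

lemma hyperOf_sub (x : Edge n r → Bool) : hyperOf x ⊆ powersetCard r univ := by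
  intro s hs
  obtain ⟨h, _⟩ := mem_hyperOf.mp hs
  exact mem_powersetCard.mpr ⟨subset_univ _, h⟩

lemma fP_mono {P : Finset (Finset (Finset (Fin n)))}
    (hinc : ∀ H ∈ P, ∀ H', H ⊆ H' → H' ⊆ powersetCard r univ → H' ∈ P)
    (x : Edge n r → Bool) (e : Edge n r) :
    fP P (update x e false) ≤ fP P (update x e true) := by
  unfold fP
  by_cases h : hyperOf (update x e false) ∈ P
  · have hsub : hyperOf (update x e false) ⊆ hyperOf (update x e true) := by
      intro s hs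
      obtain ⟨h1, h2⟩ := mem_hyperOf.mp hs
      refine mem_hyperOf.mpr ⟨h1, ?_⟩
      by_cases he : (⟨s, h1⟩ : Edge n r) = e
      · rw [he, update_self]
      · rw [update_of_ne he] at h2 ⊢
        exact h2
    rw [if_pos h, if_pos (hinc _ h _ hsub (hyperOf_sub _))]
  · rw [if_neg h]
    split_ifs <;> norm_num

lemma cE_at_one (f : (Edge n r → Bool) → ℝ) : cE 1 f = f (fun _ => true) := by
  unfold cE
  rw [sum_eq_single (fun _ => true)]
  · have : cw 1 (fun _ : Edge n r => true) = 1 := by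
      unfold cw
      simp
    rw [this, one_mul]
  · intro x _ hx
    obtain ⟨e, he⟩ := Function.ne_iff.mp hx
    have h1 : x e = false := by simpa using he
    have : cw 1 x = 0 := by
      unfold cw
      apply prod_eq_zero (mem_univ e)
      rw [h1]
      simp
    rw [this, zero_mul]
  · simp

lemma fP_top {P : Finset (Finset (Finset (Fin n)))}
    (hP : ∀ H ∈ P, H ⊆ powersetCard r univ)
    (hinc : ∀ H ∈ P, ∀ H', H ⊆ H' → H' ⊆ powersetCard r univ → H' ∈ P)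
    (hne : P.Nonempty) : fP (r := r) P (fun _ => true) = 1 := by
  obtain ⟨H₀, hH₀⟩ := hne
  unfold fP
  rw [if_pos]
  apply hinc H₀ hH₀ _ _ (hyperOf_sub _)
  intro s hs
  have h3 := (mem_powersetCard.mp (hP H₀ hH₀ hs)).2
  exact mem_hyperOf.mpr ⟨h3, rfl⟩

lemma cE_fP_bounds (P : Finset (Finset (Finset (Fin n)))) (q : ℝ) (hq : q ∈ Set.Icc (0 : ℝ) 1) :
    0 ≤ cE q (fP (r := r) P) ∧ cE q (fP (r := r) P) ≤ 1 := by
  constructor
  · apply cE_nonneg hq.1 hq.2
    intro x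
    unfold fP
    split_ifs <;> norm_num
  · have := cE_mono (ι := Edge n r) hq.1 hq.2 (F := fP P) (G := fun _ => 1) (by
      intro x
      unfold fP
      split_ifs <;> norm_num)
    rwa [cE_const] at this

/-- The main lower bound on the derivative, in final form -/
lemma lower_final (hr : 2 ≤ r) {V₀ ℓ q c₃ : ℝ} (hℓdef : ℓ = Real.log n) (hℓ : 2 ≤ ℓ)
    (hV0 : 0 < V₀) (hV1 : V₀ ≤ 1)
    (F1 : 2432 * 2 ^ r * (Real.log 2 + 7 * Real.log (144 / V₀) + 16 * Real.log ℓ) ≤ √ℓ)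
    (F2 : 2 * (2 * (r : ℝ) ^ 2 * 4 ^ r * ℓ ^ 4 + 1) ≤ Real.exp (ℓ / 2))
    (F3 : Real.log (32 * ℓ ^ 2) ≤ ℓ / (128 * 109 * 4 ^ r))
    (hc₃1 : c₃ ≤ 1) (hc₃0 : 0 < c₃)
    (hc₃2 : c₃ ≤ (1 / (128 * 109 * 4 ^ r)) ^ bet r * V₀ / 128)
    (hq1 : ℓ ^ (-bet r) ≤ q) (hq2 : q ≤ 1 - ℓ ^ (-bet r))
    (f : (Edge n r → Bool) → ℝ) (hf : ∀ x, f x = 0 ∨ f x = 1)
    (hsym : ∀ (σ : Equiv.Perm (Fin n)) x, f (x ∘ edgePerm σ) = f x)
    (hvar : V₀ ≤ cE q f * (1 - cE q f)) :
    c₃ * ℓ ^ bet r ≤ inflT q f := by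
  have hℓ0 : 0 < ℓ := by linarith
  have hℓ1 : 1 ≤ ℓ := by linarith
  have hβ1 := bet_ge_one hr
  have hβ2 := bet_le_two hr
  have hβ0 : 0 < bet r := by linarith
  have hpow : 0 < ℓ ^ bet r := Real.rpow_pos_of_pos hℓ0 _
  have hp₀0 : 0 < ℓ ^ (-bet r) := Real.rpow_pos_of_pos hℓ0 _
  have hp₀1 : ℓ ^ (-bet r) ≤ 1 / 2 := by
    have h1 : ℓ ^ (-bet r) ≤ ℓ ^ (-1 : ℝ) :=
      Real.rpow_le_rpow_of_exponent_le hℓ1 (by linarith)
    have h2 : ℓ ^ (-1 : ℝ) = ℓ⁻¹ := Real.rpow_neg_one ℓ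
    have h3 : ℓ⁻¹ ≤ 1 / 2 := by
      rw [one_div]
      exact inv_anti₀ (by norm_num) hℓ
    linarith
  have h0 : 0 < q := by linarith
  have h1 : q < 1 := by linarith
  have hv : 1 / (2 * ℓ ^ 2) ≤ q * (1 - q) := by
    set p₀ := ℓ ^ (-bet r) with hp₀
    have h2 : p₀ * (1 - p₀) ≤ q * (1 - q) := by
      nlinarith
    have h3 : p₀ / 2 ≤ p₀ * (1 - p₀) := by nlinarith
    have h4 : ℓ ^ (-(2 : ℝ)) ≤ p₀ := Real.rpow_le_rpow_of_exponent_le hℓ1 (by linarith)
    have h5 : ℓ ^ (-(2 : ℝ)) = 1 / ℓ ^ 2 := by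
      rw [Real.rpow_neg hℓ0.le, Real.rpow_two, one_div]
    rw [h5] at h4
    have h6 : 1 / (2 * ℓ ^ 2) = (1 / ℓ ^ 2) / 2 := by
      field_simp
    rw [h6]
    linarith
  by_cases hI : inflT q f ≤ ℓ ^ 3
  · obtain ⟨t, ht1, ht2⟩ := main_inflT hr hℓdef hℓ hV0 hV1 F1 F2 F3 h0 h1 hv f hf hsym hvar hI
    have hv0 : 0 < q * (1 - q) := mul_pos h0 (by linarith)
    have hv1 : q * (1 - q) ≤ 1 / 4 := by nlinarith [sq_nonneg (q - 1 / 2)]
    have hz : 0 < ℓ / (128 * 109 * 4 ^ r) := by positivity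
    have hm : (1 : ℝ) ≤ ((2 ^ t : ℕ) : ℝ) := by exact_mod_cast Nat.one_le_two_pow
    have hI0 : 0 ≤ inflT q f := sum_nonneg fun e _ => inflE_nonneg h0.le h1.le f e
    have hb := infl_rpow_bound hr hz hm (lam_ge_one h0 h1) hv0 (v_lam_le hv0 hv1 hβ2) hI0 hV0 ht1 ht2
    have e : ℓ / (128 * 109 * 4 ^ r) = (1 / (128 * 109 * 4 ^ r)) * ℓ := by ring
    rw [e, Real.mul_rpow (by positivity) hℓ0.le] at hb
    have h3 : c₃ * ℓ ^ bet r ≤ ((1 / (128 * 109 * 4 ^ r)) ^ bet r * V₀ / 128) * ℓ ^ bet r :=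
      mul_le_mul_of_nonneg_right hc₃2 hpow.le
    have e2 : ((1 / (128 * 109 * (4 : ℝ) ^ r)) ^ bet r * V₀ / 128) * ℓ ^ bet r
        = (1 / (128 * 109 * 4 ^ r)) ^ bet r * ℓ ^ bet r * V₀ / 128 := by ring
    linarith
  · have h3 : ℓ ^ bet r ≤ ℓ ^ 3 := by
      rw [← Real.rpow_natCast ℓ 3]
      apply Real.rpow_le_rpow_of_exponent_le hℓ1
      push_cast
      linarith
    have h4 : c₃ * ℓ ^ bet r ≤ 1 * ℓ ^ bet r := mul_le_mul_of_nonneg_right hc₃1 hpow.le
    linarith [not_le.mp hI]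

/-- The final theorem: the threshold width bound for hypergraph properties. -/
theorem final_width :
    ∀ (r : ℕ), 2 ≤ r → ∀ ε : ℝ, 0 < ε → ε < 1 / 2 → ∃ C : ℝ, ∀ n : ℕ, r ≤ n →
      ∀ P : Finset (Finset (Finset (Fin n))),
        (∀ H ∈ P, H ⊆ Finset.powersetCard r Finset.univ) →
        (∀ σ : Equiv.Perm (Fin n), ∀ H ∈ P, H.image (Finset.map σ.toEmbedding) ∈ P) →
        (∀ H ∈ P, ∀ H', H ⊆ H' → H' ⊆ Finset.powersetCard r Finset.univ → H' ∈ P) →
        P.Nonempty →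
        (∃ H, H ⊆ Finset.powersetCard r Finset.univ ∧ H ∉ P) →
        sInf {p : ℝ | p ∈ Set.Icc (0 : ℝ) 1 ∧
            1 - ε ≤ ∑ H ∈ P, p ^ H.card * (1 - p) ^ (n.choose r - H.card)}
          - sInf {p : ℝ | p ∈ Set.Icc (0 : ℝ) 1 ∧
            ε ≤ ∑ H ∈ P, p ^ H.card * (1 - p) ^ (n.choose r - H.card)}
          ≤ C * Real.log n ^ (-((r : ℝ) / ((r : ℝ) - 1))) := by
  intro r hr ε hε0 hε1
  set V₀ := ε * (1 - ε) with hV₀
  have hV0 : 0 < V₀ := mul_pos hε0 (by linarith)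
  have hV1 : V₀ ≤ 1 := by nlinarith
  have hr0 : (2 : ℝ) ≤ r := by exact_mod_cast hr
  set c₁ : ℝ := 1 / (128 * 109 * 4 ^ r) with hc₁
  have hc₁0 : 0 < c₁ := by positivity
  set c₃ : ℝ := min 1 (c₁ ^ bet r * V₀ / 128) with hc₃
  have hc₃0 : 0 < c₃ := by
    apply lt_min (by norm_num)
    have : 0 < c₁ ^ bet r := Real.rpow_pos_of_pos hc₁0 _
    positivity
  -- the asymptotic conditions
  have ev1 := eventually_F1 (2432 * 2 ^ r * (Real.log 2 + 7 * Real.log (144 / V₀)))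
    (2432 * 2 ^ r * 16) (by positivity)
  have ev2 := eventually_F2 (2 * (r : ℝ) ^ 2 * 4 ^ r) (by positivity)
  have ev3 := eventually_F3 c₁ hc₁0
  have ev4 : ∀ᶠ ℓ : ℝ in atTop, 2 ≤ ℓ := eventually_ge_atTop 2
  obtain ⟨ℓ₀', hℓ₀'⟩ := eventually_atTop.mp (ev1.and (ev2.and (ev3.and ev4)))
  set ℓ₀ := max ℓ₀' 2 with hℓ₀
  have hℓ₀2 : 2 ≤ ℓ₀ := le_max_right _ _
  refine ⟨max (1 / c₃ + 2) (ℓ₀ ^ bet r), ?_⟩
  intro n hn P hP hinv hinc hne _
  set ℓ := Real.log n with hℓ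
  have hn2 : (2 : ℝ) ≤ n := by
    have : 2 ≤ n := le_trans hr hn
    exact_mod_cast this
  have hℓ0 : 0 < ℓ := Real.log_pos (by linarith)
  have hsets : ∀ a : ℝ, {p : ℝ | p ∈ Set.Icc (0 : ℝ) 1 ∧
      a ≤ ∑ H ∈ P, p ^ H.card * (1 - p) ^ (n.choose r - H.card)}
      = {q | q ∈ Set.Icc (0 : ℝ) 1 ∧ a ≤ cE q (fP (r := r) P)} := by
    intro a
    ext q
    simp only [Set.mem_ofPred_eq, sum_P_eq hP q]
  rw [hsets, hsets]
  set f : (Edge n r → Bool) → ℝ := fP (r := r) P with hf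
  have hf01 : ∀ x, f x = 0 ∨ f x = 1 := fP_01 P
  have hβ1 := bet_ge_one hr
  have hβ0 : 0 < bet r := by linarith
  have he : -((r : ℝ) / ((r : ℝ) - 1)) = - bet r := rfl
  rw [he]
  have hpow0 : 0 < ℓ ^ (-bet r) := Real.rpow_pos_of_pos hℓ0 _
  by_cases hlarge : ℓ₀ ≤ ℓ
  · -- large `n`
    have hℓ' : ℓ₀' ≤ ℓ := le_trans (le_max_left _ _) hlarge
    obtain ⟨F1', F2', F3', F4⟩ := hℓ₀' ℓ hℓ'
    have F1 : 2432 * 2 ^ r * (Real.log 2 + 7 * Real.log (144 / V₀) + 16 * Real.log ℓ) ≤ √ℓ := by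
      refine le_trans (le_of_eq ?_) F1'
      ring
    have F3 : Real.log (32 * ℓ ^ 2) ≤ ℓ / (128 * 109 * 4 ^ r) := by
      refine le_trans F3' (le_of_eq ?_)
      rw [hc₁]
      ring
    have hℓpow : 0 < ℓ ^ bet r := Real.rpow_pos_of_pos hℓ0 _
    have hmono' : ∀ x e, f (update x e false) ≤ f (update x e true) := fun x e => fP_mono hinc x e
    have hmain := width_abstract (fun q => cE q f) (fun q => inflT q f)
      (fun q => hasDerivAt_cE_mono f hf01 hmono' q)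
      (fun q hq => sum_nonneg fun e _ => inflE_nonneg hq.1 hq.2 f e)
      (by rw [cE_at_one]; exact fP_top hP hinc hne)
      (fun q hq => cE_fP_bounds P q hq)
      (ε₀ := ε) (p₀ := ℓ ^ (-bet r)) (G := c₃ * ℓ ^ bet r) hε0 hε1 (by positivity)
      (by
        intro q hq1 hq2 hvar
        exact lower_final hr rfl F4 hV0 hV1 F1 F2' F3 (min_le_left _ _) hc₃0 (min_le_right _ _)
          hq1 hq2 f hf01 (fun σ x => fP_sym hinv σ x) hvar)
      hpow0
      (by
        have h1 : ℓ ^ (-bet r) ≤ ℓ ^ (-1 : ℝ) :=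
          Real.rpow_le_rpow_of_exponent_le (by linarith) (by linarith)
        have h2 : ℓ ^ (-1 : ℝ) = ℓ⁻¹ := Real.rpow_neg_one ℓ
        have h3 : ℓ⁻¹ ≤ 1 / 2 := by
          rw [one_div]
          exact inv_anti₀ (by norm_num) F4
        linarith)
    refine le_trans hmain ?_
    have e2 : 1 / (c₃ * ℓ ^ bet r) + 2 * ℓ ^ (-bet r) = (1 / c₃ + 2) * ℓ ^ (-bet r) := by
      rw [Real.rpow_neg hℓ0.le]
      field_simp
    rw [e2]
    exact mul_le_mul_of_nonneg_right (le_max_left _ _) hpow0.le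
  · -- small `n`
    have hlt : ℓ < ℓ₀ := not_le.mp hlarge
    have hμ1 : cE 1 f = 1 := by
      rw [cE_at_one]
      exact fP_top hP hinc hne
    have hne1 : ({q | q ∈ Set.Icc (0 : ℝ) 1 ∧ 1 - ε ≤ cE q f}).Nonempty :=
      ⟨1, ⟨by norm_num, by norm_num⟩, by rw [hμ1]; linarith⟩
    have hne0 : ({q | q ∈ Set.Icc (0 : ℝ) 1 ∧ ε ≤ cE q f}).Nonempty :=
      ⟨1, ⟨by norm_num, by norm_num⟩, by rw [hμ1]; linarith⟩
    have h1 : sInf {q | q ∈ Set.Icc (0 : ℝ) 1 ∧ 1 - ε ≤ cE q f} ≤ 1 :=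
      csInf_le ⟨0, fun q hq => hq.1.1⟩ ⟨⟨by norm_num, by norm_num⟩, by rw [hμ1]; linarith⟩
    have h0 : 0 ≤ sInf {q | q ∈ Set.Icc (0 : ℝ) 1 ∧ ε ≤ cE q f} :=
      le_csInf hne0 (fun q hq => hq.1.1)
    have h2 : (1 : ℝ) ≤ max (1 / c₃ + 2) (ℓ₀ ^ bet r) * ℓ ^ (-bet r) := by
      have h3 : ℓ ^ (-bet r) = (ℓ ^ bet r)⁻¹ := Real.rpow_neg hℓ0.le _
      have h4 : ℓ ^ bet r ≤ ℓ₀ ^ bet r := Real.rpow_le_rpow hℓ0.le hlt.le hβ0.le
      have h5 : 0 < ℓ ^ bet r := Real.rpow_pos_of_pos hℓ0 _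
      rw [h3, ← div_eq_mul_inv, one_le_div h5]
      exact le_trans h4 (le_max_right _ _)
    linarith

end Vale.Agent.P063
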