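import Vale.Agent.P063.Select

/-!
Hyperedges, the action of vertex permutations, colourings, the selection of edges by colour
sets, orbit sizes and the combinatorial bundles.
-/

set_option linter.unusedSectionVars false
set_option linter.unusedSimpArgs false
set_option linter.unusedVariables false

namespace Vale.Agent.P063

open Finset Function

variable {n r : ℕ}

/-- hyperedges -/
abbrev Edge (n r : ℕ) := {e : Finset (Fin n) // e.card = r}

/-- the permutation of edges induced by a permutation of the vertices -/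
def edgePerm (σ : Equiv.Perm (Fin n)) : Equiv.Perm (Edge n r) :=
  σ.finsetCongr.subtypeEquiv (by intro a; simp [Equiv.finsetCongr])

lemma edgePerm_val (σ : Equiv.Perm (Fin n)) (e : Edge n r) :
    (edgePerm σ e).val = e.val.map σ.toEmbedding := rfl

/-- the vertices covered by a set of edges -/
def vset (S : Finset (Edge n r)) : Finset (Fin n) := S.biUnion (fun e => e.val)

lemma mem_vset {S : Finset (Edge n r)} {v : Fin n} : v ∈ vset S ↔ ∃ e ∈ S, v ∈ e.val := by
  simp [vset]

lemma vset_mono {S S' : Finset (Edge n r)} (h : S ⊆ S') : vset S ⊆ vset S' := by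
  intro v hv
  obtain ⟨e, he, hve⟩ := mem_vset.mp hv
  exact mem_vset.mpr ⟨e, h he, hve⟩

lemma vset_map (σ : Equiv.Perm (Fin n)) (S : Finset (Edge n r)) :
    vset (S.map (edgePerm σ).toEmbedding) = (vset S).map σ.toEmbedding := by
  ext v
  simp only [mem_vset, mem_map]
  constructor
  · rintro ⟨e, he, hv⟩
    obtain ⟨e', he', rfl⟩ := he
    have hv' : v ∈ e'.val.map σ.toEmbedding := hv
    obtain ⟨u, hu, rfl⟩ := mem_map.mp hv'
    exact ⟨u, ⟨e', he', hu⟩, rfl⟩
  · rintro ⟨u, ⟨e', he', hu⟩, rfl⟩
    refine ⟨edgePerm σ e', ⟨e', he', rfl⟩, ?_⟩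
    exact mem_map_of_mem _ hu

lemma card_vset_le (S : Finset (Edge n r)) : (vset S).card ≤ S.card * r := by
  unfold vset
  refine le_trans card_biUnion_le ?_
  have : ∑ e ∈ S, e.val.card = ∑ _e ∈ S, r := sum_congr rfl (fun e _ => e.property)
  rw [this, sum_const, smul_eq_mul]

section Colour

variable {C : Type*} [Fintype C] [DecidableEq C] (c : Fin n → C)

/-- the colour set of an edge -/
def colSet (e : Edge n r) : Finset C := e.val.image c

/-- edges selected through their colour sets -/
def selR (ρ : Finset C → Bool) : Finset (Edge n r) :=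
  univ.filter (fun e => (colSet c e).card = r ∧ ρ (colSet c e) = true)

variable {c}

lemma colSet_perm {σ : Equiv.Perm (Fin n)} (hσ : ∀ v, c (σ v) = c v) (e : Edge n r) :
    colSet c (edgePerm σ e) = colSet c e := by
  unfold colSet
  rw [edgePerm_val]
  ext k
  simp only [mem_image, mem_map]
  constructor
  · rintro ⟨v, ⟨u, hu, rfl⟩, rfl⟩
    refine ⟨u, hu, ?_⟩
    exact (hσ u).symm
  · rintro ⟨u, hu, rfl⟩
    exact ⟨σ u, ⟨u, hu, rfl⟩, hσ u⟩

lemma selR_perm {σ : Equiv.Perm (Fin n)} (hσ : ∀ v, c (σ v) = c v) (ρ : Finset C → Bool)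
    (e : Edge n r) : edgePerm σ e ∈ selR c ρ ↔ e ∈ selR c ρ := by
  unfold selR
  simp only [mem_filter, mem_univ, true_and, colSet_perm hσ]

/-- a permutation preserving colours and extending a colour preserving map -/
lemma exists_colour_perm (τ : Fin n → Fin n) (W : Finset (Fin n)) :
    Set.InjOn c W → (∀ w ∈ W, c (τ w) = c w) →
    ∃ σ : Equiv.Perm (Fin n), (∀ v, c (σ v) = c v) ∧ (∀ w ∈ W, σ w = τ w) ∧
      (∀ v, c v ∉ W.image c → σ v = v) := by
  induction W using Finset.induction_on with
  | empty =>
    intro _ _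
    exact ⟨1, by simp, by simp, by simp⟩
  | insert w W' hw ih =>
    intro hinj hτ
    have hinj' : Set.InjOn c W' := hinj.mono (by intro x hx; simp only [coe_insert]; exact Or.inr hx)
    obtain ⟨σ', h1, h2, h3⟩ := ih hinj' (fun u hu => hτ u (mem_insert_of_mem hu))
    have hτw : c (τ w) = c w := hτ w (mem_insert_self _ _)
    have hcw : c w ∉ W'.image c := by
      intro hc
      obtain ⟨u, hu, huc⟩ := mem_image.mp hc
      have : u = w := hinj (by simp [hu]) (by simp) huc
      exact hw (this ▸ hu)
    have hsw : ∀ u, c (Equiv.swap w (τ w) u) = c u := by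
      intro u
      rw [Equiv.swap_apply_def]
      split_ifs with h4 h5
      · rw [hτw, h4]
      · rw [h5, hτw]
      · rfl
    refine ⟨Equiv.swap w (τ w) * σ', ?_, ?_, ?_⟩
    · intro v
      rw [Equiv.Perm.mul_apply, hsw, h1]
    · intro u hu
      rw [Equiv.Perm.mul_apply]
      rcases mem_insert.mp hu with rfl | hu'
      · rw [h3 _ hcw, Equiv.swap_apply_left]
      · rw [h2 u hu']
        have hne : c (τ u) ≠ c w := by
          rw [hτ u hu]
          intro hc
          exact hcw (hc ▸ mem_image_of_mem c hu')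
        apply Equiv.swap_apply_of_ne_of_ne
        · rintro h
          exact hne (by rw [h])
        · rintro h
          exact hne (by rw [h, hτw])
    · intro v hv
      rw [Equiv.Perm.mul_apply]
      have hv' : c v ∉ W'.image c := by
        intro hc
        apply hv
        rw [image_insert]
        exact mem_insert_of_mem hc
      rw [h3 v hv']
      have hne : c v ≠ c w := by
        intro hc
        apply hv
        rw [image_insert, hc]
        exact mem_insert_self _ _
      apply Equiv.swap_apply_of_ne_of_ne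
      · rintro rfl
        exact hne rfl
      · rintro h
        exact hne (by rw [h, hτw])

/-- a large family of images of a set of edges under colour preserving permutations -/
lemma orbit_large (M : ℕ) (hM : ∀ k, M ≤ (univ.filter (fun v => c v = k)).card)
    (A : Finset (Edge n r)) (hinj : Set.InjOn c (vset A)) :
    ∃ Orb : Finset (Finset (Edge n r)), M ^ (vset A).card ≤ Orb.card ∧
      ∀ A' ∈ Orb, ∃ σ : Equiv.Perm (Fin n), (∀ v, c (σ v) = c v) ∧
        A' = A.map (edgePerm σ).toEmbedding := by
  classical
  set W := vset A with hW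
  let cls : Fin n → Finset (Fin n) := fun v => if v ∈ W then univ.filter (fun u => c u = c v) else {v}
  let Tt : Finset (Fin n → Fin n) := Fintype.piFinset cls
  have hTt : M ^ W.card ≤ Tt.card := by
    rw [Fintype.card_piFinset]
    calc M ^ W.card = ∏ v, (if v ∈ W then M else 1) := by
          rw [prod_ite_mem, univ_inter, prod_const]
      _ ≤ ∏ v, (cls v).card := by
          apply prod_le_prod
          · intro v _; positivity
          · intro v _
            simp only [cls]
            split_ifs with hv
            · exact hM (c v)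
            · simp
  let Orb : Finset (Finset (Edge n r)) := univ.filter (fun A' => ∃ σ : Equiv.Perm (Fin n),
    (∀ v, c (σ v) = c v) ∧ A' = A.map (edgePerm σ).toEmbedding)
  refine ⟨Orb, ?_, ?_⟩
  · refine le_trans hTt ?_
    apply card_le_card_of_forall_subsingleton (fun τ A' => ∃ σ : Equiv.Perm (Fin n),
      (∀ v, c (σ v) = c v) ∧ (∀ w ∈ W, σ w = τ w) ∧ A' = A.map (edgePerm σ).toEmbedding)
    · intro τ hτ
      have hτ' : ∀ w ∈ W, c (τ w) = c w := by
        intro w hw
        have := Fintype.mem_piFinset.mp hτ w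
        simp only [cls, hw, if_true, mem_filter, mem_univ, true_and] at this
        exact this
      obtain ⟨σ, h1, h2, h3⟩ := exists_colour_perm τ W hinj hτ'
      refine ⟨A.map (edgePerm σ).toEmbedding, ?_, σ, h1, h2, rfl⟩
      exact mem_filter.mpr ⟨mem_univ _, σ, h1, rfl⟩
    · intro A' _ τ₁ h₁ τ₂ h₂
      obtain ⟨hτ₁, σ₁, c₁, e₁, hA₁⟩ := h₁
      obtain ⟨hτ₂, σ₂, c₂, e₂, hA₂⟩ := h₂
      have hv : W.map σ₁.toEmbedding = W.map σ₂.toEmbedding := by
        rw [← vset_map, ← vset_map, ← hA₁, ← hA₂]
      funext v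
      by_cases hvW : v ∈ W
      · have h3 : σ₁ v ∈ W.map σ₂.toEmbedding := by
          rw [← hv]
          exact mem_map_of_mem _ hvW
        obtain ⟨u, hu, hu'⟩ := mem_map.mp h3
        have h4 : σ₂ u = σ₁ v := hu'
        have h5 : c u = c v := by
          rw [← c₂ u, h4, c₁ v]
        have h6 : u = v := hinj hu hvW h5
        rw [← e₁ v hvW, ← e₂ v hvW, ← h4, h6]
      · have h3 := Fintype.mem_piFinset.mp hτ₁ v
        have h4 := Fintype.mem_piFinset.mp hτ₂ v
        simp only [cls, hvW, if_false, mem_singleton] at h3 h4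
        rw [h3, h4]
  · intro A' hA'
    exact (mem_filter.mp hA').2

end Colour

/-- bundles of edges attached to disjoint vertex sets -/
lemma bundles (S : Finset (Edge n r)) (q : ℕ) (hq : 1 ≤ q) (T : ℕ) :
    (∀ T' < T, T' ^ r + 2 * q * T' + q ≤ S.card) →
    ∃ (U : ℕ → Finset (Fin n)) (B : ℕ → Finset (Edge n r)),
      (∀ i < T, ∀ j < T, i ≠ j → Disjoint (U i) (U j)) ∧
      (∀ i < T, B i ⊆ S ∧ (B i).card = q ∧ ∀ e ∈ B i, (e.val ∩ U i).Nonempty) ∧
      (∀ i < T, (U i).card = 1 ∨ (S.filter (fun e => (e.val ∩ U i).Nonempty)).card < 2 * q) := by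
  induction T with
  | zero =>
    intro _
    exact ⟨fun _ => ∅, fun _ => ∅, by simp, by simp, by simp⟩
  | succ T ih =>
    intro hT
    obtain ⟨U, B, hd, hB, hl⟩ := ih (fun T' hT' => hT T' (by omega))
    set Wv := (range T).biUnion U with hWv
    set W₁ := ((range T).filter (fun i => (U i).card = 1)).biUnion U with hW₁
    have hW₁card : W₁.card ≤ T := by
      calc W₁.card ≤ ∑ i ∈ (range T).filter (fun i => (U i).card = 1), (U i).card := card_biUnion_le
        _ = ∑ i ∈ (range T).filter (fun i => (U i).card = 1), 1 :=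
            sum_congr rfl (fun i hi => (mem_filter.mp hi).2)
        _ = ((range T).filter (fun i => (U i).card = 1)).card := by simp
        _ ≤ (range T).card := card_le_card (filter_subset _ _)
        _ = T := card_range T
    set Sin := S.filter (fun e => e.val ⊆ Wv) with hSin
    set S₁ := S.filter (fun e => e.val ⊆ W₁) with hS₁
    set S₂ := ((range T).filter (fun i => (U i).card ≠ 1)).biUnion
      (fun i => S.filter (fun e => (e.val ∩ U i).Nonempty)) with hS₂
    have hSinsub : Sin ⊆ S₁ ∪ S₂ := by
      intro e he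
      obtain ⟨heS, heW⟩ := mem_filter.mp he
      by_cases hex : ∃ i ∈ range T, (U i).card ≠ 1 ∧ (e.val ∩ U i).Nonempty
      · obtain ⟨i, hi, h1, h2⟩ := hex
        apply mem_union_right
        exact mem_biUnion.mpr ⟨i, mem_filter.mpr ⟨hi, h1⟩, mem_filter.mpr ⟨heS, h2⟩⟩
      · apply mem_union_left
        refine mem_filter.mpr ⟨heS, ?_⟩
        intro v hv
        obtain ⟨i, hi, hvi⟩ := mem_biUnion.mp (heW hv)
        refine mem_biUnion.mpr ⟨i, mem_filter.mpr ⟨hi, ?_⟩, hvi⟩
        by_contra hc
        exact hex ⟨i, hi, hc, ⟨v, mem_inter.mpr ⟨hv, hvi⟩⟩⟩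
    have hS₁card : S₁.card ≤ T ^ r := by
      have h1 : S₁.card ≤ (W₁.powersetCard r).card := by
        apply card_le_card_of_injOn (fun e => e.val)
        · intro e he
          have he' := (mem_filter.mp (mem_coe.mp he)).2
          exact mem_coe.mpr (mem_powersetCard.mpr ⟨he', e.property⟩)
        · intro e _ e' _ h
          exact Subtype.ext h
      rw [card_powersetCard] at h1
      calc S₁.card ≤ W₁.card.choose r := h1
        _ ≤ W₁.card ^ r := Nat.choose_le_pow _ _
        _ ≤ T ^ r := Nat.pow_le_pow_left hW₁card r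
    have hS₂card : S₂.card ≤ 2 * q * T := by
      calc S₂.card ≤ ∑ i ∈ (range T).filter (fun i => (U i).card ≠ 1),
            (S.filter (fun e => (e.val ∩ U i).Nonempty)).card := card_biUnion_le
        _ ≤ ∑ i ∈ (range T).filter (fun i => (U i).card ≠ 1), 2 * q := by
            apply sum_le_sum
            intro i hi
            obtain ⟨hi1, hi2⟩ := mem_filter.mp hi
            rcases hl i (mem_range.mp hi1) with h | h
            · exact absurd h hi2
            · exact h.le
        _ = ((range T).filter (fun i => (U i).card ≠ 1)).card * (2 * q) := by simp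
        _ ≤ T * (2 * q) := by
            apply Nat.mul_le_mul_right
            calc _ ≤ (range T).card := card_le_card (filter_subset _ _)
              _ = T := card_range T
        _ = _ := by ring
    have hSincard : Sin.card ≤ T ^ r + 2 * q * T :=
      le_trans (card_le_card hSinsub) (le_trans (card_union_le _ _) (Nat.add_le_add hS₁card hS₂card))
    have hrest : q ≤ (S.filter (fun e => ¬ e.val ⊆ Wv)).card := by
      have h1 := hT T (by omega)
      have h2 : Sin.card + (S.filter (fun e => ¬ e.val ⊆ Wv)).card = S.card :=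
        card_filter_add_card_filter_not (s := S) _
      omega
    -- the minimal vertex set
    set Good := (Wvᶜ).powerset.filter
      (fun Y => q ≤ (S.filter (fun e => (e.val ∩ Y).Nonempty)).card) with hGood
    have hGoodne : Good.Nonempty := by
      refine ⟨Wvᶜ, mem_filter.mpr ⟨mem_powerset.mpr (Subset.refl _), le_trans hrest ?_⟩⟩
      apply card_le_card
      intro e he
      obtain ⟨h1, h2⟩ := mem_filter.mp he
      refine mem_filter.mpr ⟨h1, ?_⟩
      obtain ⟨v, hv, hv'⟩ := not_subset.mp h2
      exact ⟨v, mem_inter.mpr ⟨hv, mem_compl.mpr hv'⟩⟩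
    obtain ⟨U₀, hU₀, hmin⟩ := exists_min_image Good (fun Y => Y.card) hGoodne
    obtain ⟨hU₀sub, hU₀q⟩ := mem_filter.mp hU₀
    have hU₀sub' : U₀ ⊆ Wvᶜ := mem_powerset.mp hU₀sub
    have hdichot : U₀.card = 1 ∨ (S.filter (fun e => (e.val ∩ U₀).Nonempty)).card < 2 * q := by
      by_cases hc : U₀.card = 1
      · exact Or.inl hc
      · right
        have hne : U₀.Nonempty := by
          by_contra hemp
          rw [not_nonempty_iff_eq_empty] at hemp
          rw [hemp] at hU₀q
          simp at hU₀q
          omega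
        obtain ⟨u, hu⟩ := hne
        have hcard2 : 1 < U₀.card := by
          have := card_pos.mpr ⟨u, hu⟩
          omega
        have h1 : ¬ q ≤ (S.filter (fun e => (e.val ∩ U₀.erase u).Nonempty)).card := by
          intro hge
          have hm : U₀.erase u ∈ Good := mem_filter.mpr
            ⟨mem_powerset.mpr (Subset.trans (erase_subset _ _) hU₀sub'), hge⟩
          have := hmin _ hm
          rw [card_erase_of_mem hu] at this
          omega
        have h2 : ¬ q ≤ (S.filter (fun e => (e.val ∩ {u}).Nonempty)).card := by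
          intro hge
          have hm : ({u} : Finset (Fin n)) ∈ Good := mem_filter.mpr
            ⟨mem_powerset.mpr (singleton_subset_iff.mpr (hU₀sub' hu)), hge⟩
          have := hmin _ hm
          rw [card_singleton] at this
          omega
        have hsub : S.filter (fun e => (e.val ∩ U₀).Nonempty)
            ⊆ S.filter (fun e => (e.val ∩ U₀.erase u).Nonempty)
              ∪ S.filter (fun e => (e.val ∩ {u}).Nonempty) := by
          intro e he
          obtain ⟨h3, v, hv⟩ := mem_filter.mp he
          obtain ⟨hv1, hv2⟩ := mem_inter.mp hv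
          by_cases hvu : v = u
          · apply mem_union_right
            refine mem_filter.mpr ⟨h3, v, mem_inter.mpr ⟨hv1, by simp [hvu]⟩⟩
          · apply mem_union_left
            refine mem_filter.mpr ⟨h3, v, mem_inter.mpr ⟨hv1, mem_erase.mpr ⟨hvu, hv2⟩⟩⟩
        have := le_trans (card_le_card hsub) (card_union_le _ _)
        omega
    obtain ⟨B₀, hB₀, hB₀q⟩ := exists_subset_card_eq hU₀q
    have hUnew : ∀ i < T, Disjoint (U i) U₀ := by
      intro i hi
      rw [disjoint_left]
      intro v hv hv0
      have := hU₀sub' hv0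
      rw [mem_compl] at this
      exact this (mem_biUnion.mpr ⟨i, mem_range.mpr hi, hv⟩)
    refine ⟨update U T U₀, update B T B₀, ?_, ?_, ?_⟩
    · intro i hi j hj hij
      rcases Nat.lt_succ_iff_lt_or_eq.mp hi with hi' | rfl
      · rcases Nat.lt_succ_iff_lt_or_eq.mp hj with hj' | rfl
        · rw [update_of_ne hi'.ne, update_of_ne hj'.ne]
          exact hd i hi' j hj' hij
        · rw [update_of_ne hi'.ne, update_self]
          exact hUnew i hi'
      · rcases Nat.lt_succ_iff_lt_or_eq.mp hj with hj' | rfl
        · rw [update_self, update_of_ne hj'.ne]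
          exact (hUnew j hj').symm
        · exact absurd rfl hij
    · intro i hi
      rcases Nat.lt_succ_iff_lt_or_eq.mp hi with hi' | rfl
      · rw [update_of_ne hi'.ne, update_of_ne hi'.ne]
        exact hB i hi'
      · rw [update_self, update_self]
        refine ⟨Subset.trans hB₀ (filter_subset _ _), hB₀q, ?_⟩
        intro e he
        exact (mem_filter.mp (hB₀ he)).2
    · intro i hi
      rcases Nat.lt_succ_iff_lt_or_eq.mp hi with hi' | rfl
      · rw [update_of_ne hi'.ne]
        exact hl i hi'
      · rw [update_self]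
        exact hdichot

section Cover

variable {C : Type*} [Fintype C] [DecidableEq C] (c : Fin n → C)

open Classical in
/-- the family of admissible selected sets -/
noncomputable def goodF (ρ : Finset C → Bool) (a T : ℕ) : Finset (Finset (Edge n r)) :=
  (selR c ρ).powerset.filter
    (fun A => A.card ≤ a ∧ Set.InjOn c (vset A) ∧ T ≤ 4 * (vset A).card)

variable {c}

lemma colSet_card {S : Finset (Edge n r)} (hinj : Set.InjOn c (vset S)) {e : Edge n r}
    (he : e ∈ S) : (colSet c e).card = r := by
  unfold colSet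
  rw [card_image_of_injOn, e.property]
  intro u hu v hv huv
  exact hinj (mem_vset.mpr ⟨e, he, hu⟩) (mem_vset.mpr ⟨e, he, hv⟩) huv

lemma colSet_injOn {S : Finset (Edge n r)} (hinj : Set.InjOn c (vset S)) :
    Set.InjOn (colSet c) (S : Set (Edge n r)) := by
  intro e he e' he' h
  apply Subtype.ext
  have he1 : e ∈ S := he
  have he2 : e' ∈ S := he'
  have key : ∀ {e e' : Edge n r}, e ∈ S → e' ∈ S → colSet c e = colSet c e' → e.val ⊆ e'.val := by
    intro e e' h1 h2 h3 v hv
    have : c v ∈ colSet c e' := by
      rw [← h3]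
      exact mem_image_of_mem c hv
    obtain ⟨u, hu, huv⟩ := mem_image.mp this
    have : u = v := hinj (mem_vset.mpr ⟨e', h2, hu⟩) (mem_vset.mpr ⟨e, h1, hv⟩) huv
    exact this ▸ hu
  exact Subset.antisymm (key he1 he2 h) (key he2 he1 h.symm)

lemma mem_selR_iff {S : Finset (Edge n r)} (hinj : Set.InjOn c (vset S)) {e : Edge n r}
    (he : e ∈ S) (ρ : Finset C → Bool) : e ∈ selR c ρ ↔ ρ (colSet c e) = true := by
  unfold selR
  simp only [mem_filter, mem_univ, true_and, colSet_card hinj he]

/-- the selected part of an edge set is good with probability at least one sixth -/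
theorem coverage_event (S : Finset (Edge n r)) (hinj : Set.InjOn c (vset S)) (q T a : ℕ)
    (hq : 1 ≤ q) (hT : 0 < T) (hbund : ∀ T' < T, T' ^ r + 2 * q * T' + q ≤ S.card) (ha : 0 < a)
    (hS : 6 * S.card ≤ a * q) :
    1 / 6 ≤ cE (1 / (q : ℝ)) (fun ρ : Finset C → Bool =>
      open Classical in if S ∩ selR c ρ ∈ goodF c ρ a T then (1 : ℝ) else 0) := by
  classical
  obtain ⟨U, B, hd, hB, hl⟩ := bundles S q hq T hbund
  have hqr : (0 : ℝ) < q := by exact_mod_cast hq
  have hπ0 : (0 : ℝ) ≤ 1 / (q : ℝ) := by positivity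
  have hπ1 : 1 / (q : ℝ) ≤ 1 := by
    rw [div_le_one hqr]
    exact_mod_cast hq
  have hinjκ := colSet_injOn hinj
  have hcov := coverage_prob (κ := Finset C) hπ0 hπ1 T hT (fun i => (B i).image (colSet c))
    (by
      intro i hi
      have hsub : ((B i : Finset (Edge n r)) : Set (Edge n r)) ⊆ S := by
        intro e he
        exact (hB i hi).1 he
      rw [card_image_of_injOn (hinjκ.mono hsub), (hB i hi).2.1]
      field_simp)
    (S.image (colSet c)) a ha
    (by
      rw [card_image_of_injOn hinjκ]
      rw [mul_one_div, ← mul_div_assoc, div_le_iff₀ hqr]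
      exact_mod_cast hS)
  refine le_trans hcov ?_
  apply cE_mono hπ0 hπ1
  intro ρ
  by_cases hg : (T ≤ 4 * ((range T).filter (fun i => ∃ k ∈ (B i).image (colSet c), ρ k = true)).card)
        ∧ ((S.image (colSet c)).filter (fun k => ρ k = true)).card ≤ a
  · rw [if_pos hg, if_pos]
    obtain ⟨hg1, hg2⟩ := hg
    set A := S ∩ selR c ρ with hA
    have hAS : A ⊆ S := inter_subset_left
    have hAmem : ∀ e, e ∈ A ↔ e ∈ S ∧ ρ (colSet c e) = true := by
      intro e
      rw [hA, mem_inter]
      constructor
      · rintro ⟨h1, h2⟩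
        exact ⟨h1, (mem_selR_iff hinj h1 ρ).mp h2⟩
      · rintro ⟨h1, h2⟩
        exact ⟨h1, (mem_selR_iff hinj h1 ρ).mpr h2⟩
    refine mem_filter.mpr ⟨mem_powerset.mpr inter_subset_right, ?_, ?_, ?_⟩
    · refine le_trans ?_ hg2
      have : ((S.image (colSet c)).filter (fun k => ρ k = true)) = A.image (colSet c) := by
        ext k
        simp only [mem_filter, mem_image]
        constructor
        · rintro ⟨⟨e, he, rfl⟩, h2⟩
          exact ⟨e, (hAmem e).mpr ⟨he, h2⟩, rfl⟩
        · rintro ⟨e, he, rfl⟩
          obtain ⟨h1, h2⟩ := (hAmem e).mp he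
          exact ⟨⟨e, h1, rfl⟩, h2⟩
      rw [this, card_image_of_injOn (hinjκ.mono (by exact_mod_cast hAS))]
    · exact hinj.mono (by exact_mod_cast vset_mono hAS)
    · refine le_trans hg1 (Nat.mul_le_mul_left 4 ?_)
      apply card_le_card_of_forall_subsingleton (fun i v => v ∈ U i)
      · intro i hi
        obtain ⟨hi1, k, hk, hρ⟩ := mem_filter.mp hi
        obtain ⟨e, he, rfl⟩ := mem_image.mp hk
        have hi' := mem_range.mp hi1
        obtain ⟨v, hv⟩ := (hB i hi').2.2 e he
        obtain ⟨hv1, hv2⟩ := mem_inter.mp hv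
        refine ⟨v, mem_vset.mpr ⟨e, (hAmem e).mpr ⟨(hB i hi').1 he, hρ⟩, hv1⟩, hv2⟩
      · intro v _ i hi j hj
        by_contra hij
        obtain ⟨hi1, hi2⟩ := hi
        obtain ⟨hj1, hj2⟩ := hj
        have hi' := mem_range.mp (mem_filter.mp (mem_coe.mp hi1)).1
        have hj' := mem_range.mp (mem_filter.mp (mem_coe.mp hj1)).1
        exact disjoint_left.mp (hd i hi' j hj' hij) hi2 hj2
  · rw [if_neg hg]
    split_ifs <;> norm_num

end Cover

end Vale.Agent.P063
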