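import Vale.Agent.P063.Params

/-!
Summing over the dyadic bands: the lower bound on the total influence.
-/

set_option linter.unusedSectionVars false
set_option linter.unusedSimpArgs false
set_option linter.unusedVariables false

namespace Vale.Agent.P063

open Finset Function

variable {n r : ℕ} {p : ℝ}

lemma lam_ge_one (h0 : 0 < p) (h1 : p < 1) : 1 ≤ Real.log (16 / (p * (1 - p))) := by
  have hv0 : 0 < p * (1 - p) := mul_pos h0 (by linarith)
  have hv1 : p * (1 - p) ≤ 1 / 4 := by nlinarith [sq_nonneg (p - 1 / 2)]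
  rw [Real.le_log_iff_exp_le (by positivity)]
  have h2 : (64 : ℝ) ≤ 16 / (p * (1 - p)) := by
    rw [le_div_iff₀ hv0]
    linarith
  have h3 := Real.exp_one_lt_d9
  linarith

/-- one band -/
lemma band_step (hr : 2 ≤ r) (j : ℕ) {ℓ ε L : ℝ} (h0 : 0 < p) (h1 : p < 1)
    (f : (Edge n r → Bool) → ℝ) (hf : ∀ x, f x = 0 ∨ f x = 1)
    (hsym : ∀ (σ : Equiv.Perm (Fin n)) x, f (x ∘ edgePerm σ) = f x)
    (hε : 0 < ε) (hε1 : ε ≤ 1) (hL : 1 ≤ L) (hI : inflT p f ≤ ε * L) (Lc : ℕ) (hLc : 0 < Lc)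
    (hMc : Real.exp (ℓ / 2) ≤ ((n / Lc : ℕ) : ℝ)) (hℓ : 1 ≤ ℓ)
    (hP : (((2 ^ j : ℕ) : ℝ)) ^ (r - 1) * Real.log (16 / (p * (1 - p))) ≤ ℓ / (128 * 109 * 4 ^ r))
    (hA : 2432 * 2 ^ r * (Real.log (2 * L ^ 3 / ε ^ 2) + 2 * Real.log (1 / ε)) ≤ √ℓ)
    (hcol : 2 * (r : ℝ) ^ 2 * 4 ^ r * ℓ ^ 4 ≤ Lc) :
    ∑ S ∈ univ.filter (fun S : Finset (Edge n r) => (2 ^ j) ^ r ≤ S.card ∧ S.card < (2 ^ (j + 1)) ^ r),
      fc p f S ^ 2 ≤ 72 * ε := by
  set lam := Real.log (16 / (p * (1 - p))) with hlam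
  have hlam1 : 1 ≤ lam := lam_ge_one h0 h1
  have hs4 := sB_ge_four h0 h1
  have hs1 : 1 ≤ sB p := by linarith
  have hs0 : 0 < sB p := by linarith
  have hL0 : 0 < L := by linarith
  have hexp1 : 1 ≤ Real.exp (ℓ / 2) := Real.one_le_exp (by linarith)
  have hMc1 : 1 ≤ n / Lc := by
    have : (1 : ℝ) ≤ ((n / Lc : ℕ) : ℝ) := le_trans hexp1 hMc
    exact_mod_cast this
  set a := aa r j with ha
  set θ := ε / (sB p ^ a * L) with hθ
  have hθ0 : 0 < θ := by positivity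
  have hθL : sB p ^ a * θ * L ≤ ε := by
    rw [hθ]
    apply le_of_eq
    field_simp
  have hcol' : 2 * (hh r j * r) ^ 2 ≤ Lc := by
    have hm1 : (1 : ℝ) ≤ ((2 ^ j : ℕ) : ℝ) := by exact_mod_cast Nat.one_le_two_pow
    set m : ℝ := ((2 ^ j : ℕ) : ℝ) with hm
    have hPm : m ^ (r - 1) ≤ ℓ := by
      have h5 : m ^ (r - 1) ≤ m ^ (r - 1) * lam := by
        have : 0 ≤ m ^ (r - 1) := by positivity
        nlinarith
      have h6 : ℓ / (128 * 109 * 4 ^ r) ≤ ℓ := by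
        apply div_le_self (by linarith)
        have : (1 : ℝ) ≤ 4 ^ r := one_le_pow₀ (by norm_num)
        nlinarith
      linarith
    have hmle : m ≤ ℓ := by
      refine le_trans ?_ hPm
      calc m = m ^ 1 := (pow_one m).symm
        _ ≤ m ^ (r - 1) := pow_le_pow_right₀ hm1 (by omega)
    have hmr : m ^ r ≤ ℓ ^ 2 := by
      have e : m ^ r = m * m ^ (r - 1) := by
        rw [← pow_succ']
        congr 1
        omega
      rw [e, pow_two]
      exact mul_le_mul hmle hPm (by positivity) (by linarith)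
    have hhr : (hh r j : ℝ) = 2 ^ r * m ^ r := by
      unfold hh
      push_cast
      rw [hm]
      push_cast
      ring
    have hh0 : (hh r j : ℝ) ≤ 2 ^ r * ℓ ^ 2 := by
      rw [hhr]
      exact mul_le_mul_of_nonneg_left hmr (by positivity)
    have h4 : (4 : ℝ) ^ r = 2 ^ r * 2 ^ r := by
      rw [← mul_pow]
      norm_num
    have hreal : 2 * ((hh r j : ℝ) * r) ^ 2 ≤ (Lc : ℝ) := by
      refine le_trans ?_ hcol
      have h5 : ((hh r j : ℝ) * r) ^ 2 ≤ (2 ^ r * ℓ ^ 2 * r) ^ 2 := by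
        apply pow_le_pow_left₀ (by positivity)
        exact mul_le_mul_of_nonneg_right hh0 (by positivity)
      have e : 2 * (r : ℝ) ^ 2 * 4 ^ r * ℓ ^ 4 = 2 * (2 ^ r * ℓ ^ 2 * r) ^ 2 := by
        rw [h4]
        ring
      rw [e]
      linarith
    exact_mod_cast hreal
  have hbb := band_bound h0 h1 f hf hsym Lc hLc ((2 ^ j) ^ r) (hh r j) (qq r j) (TT j) a (hh r j)
    (tt j) (qq_pos r j) (TT_pos j) (fun T' hT' => bund_ok hr j T' hT') (aa_pos r j) (aa_mul_qq j)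
    (le_refl _) hcol' (fun V hV => tt_of_le hV) hMc1 hε.le hL0 hθ0 hθL hI
  rw [hh_eq] at hbb
  set O : ℝ := (((n / Lc) ^ tt j : ℕ) : ℝ) with hO
  have hM0 : (0 : ℝ) < ((n / Lc : ℕ) : ℝ) := by linarith
  have hO0 : 0 < O := by
    rw [hO]
    push_cast
    positivity
  have hlogO : ℓ / 2 * (tt j : ℝ) ≤ Real.log O := by
    rw [hO]
    push_cast
    rw [Real.log_pow]
    have h2 : ℓ / 2 ≤ Real.log ((n / Lc : ℕ) : ℝ) := by
      rw [Real.le_log_iff_exp_le hM0]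
      exact hMc
    have h3 : (0 : ℝ) ≤ (tt j : ℝ) := Nat.cast_nonneg _
    calc ℓ / 2 * (tt j : ℝ) ≤ Real.log ((n / Lc : ℕ) : ℝ) * (tt j : ℝ) :=
          mul_le_mul_of_nonneg_right h2 h3
      _ = _ := by ring
  have hD0 : 0 ≤ Real.log (2 * L ^ 3 / ε ^ 2) := by
    apply Real.log_nonneg
    have h2 : 1 ≤ L ^ 3 := one_le_pow₀ hL
    have h3 : ε ^ 2 ≤ 1 := pow_le_one₀ hε.le hε1
    rw [one_le_div (by positivity)]
    linarith
  have hG0 : 0 ≤ Real.log (1 / ε) := by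
    apply Real.log_nonneg
    rw [one_le_div hε]
    exact hε1
  have hexpb := exponent_bound hr j hlam1 hℓ hD0 hG0 hP hA
  have hdb := delta_bound (s := sB p) (ε := ε) (L := L) (O := O) (lam := lam)
    (D := Real.log (2 * L ^ 3 / ε ^ 2)) (G := Real.log (1 / ε)) a (hh r j) hs1 hε hε1 hL hO0
    (by rw [sB_sq h0 h1]) rfl rfl (le_trans hexpb hlogO)
  have h6 : ∑ S ∈ univ.filter (fun S : Finset (Edge n r) => (2 ^ j) ^ r ≤ S.card ∧ S.card < (2 ^ (j + 1)) ^ r),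
      fc p f S ^ 2 ≤ 12 * (2 * ε + 4 * ε) := by
    refine le_trans hbb ?_
    have e : hh r j = (2 ^ (j + 1)) ^ r := hh_eq r j
    rw [← e]
    have hdb' := hdb
    rw [← hθ] at hdb'
    linarith
  linarith

/-- summing the bands -/
lemma low_sum (f : (Edge n r → Bool) → ℝ) (B : ℝ) (t : ℕ)
    (hb : ∀ j < t, ∑ S ∈ univ.filter (fun S : Finset (Edge n r) =>
      (2 ^ j) ^ r ≤ S.card ∧ S.card < (2 ^ (j + 1)) ^ r), fc p f S ^ 2 ≤ B) :
    ∑ S ∈ univ.filter (fun S : Finset (Edge n r) => 1 ≤ S.card ∧ S.card < (2 ^ t) ^ r),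
      fc p f S ^ 2 ≤ t * B := by
  induction t with
  | zero =>
    have : univ.filter (fun S : Finset (Edge n r) => 1 ≤ S.card ∧ S.card < (2 ^ 0) ^ r) = ∅ := by
      apply filter_eq_empty_iff.mpr
      intro S _ h
      obtain ⟨h1, h2⟩ := h
      rw [pow_zero, one_pow] at h2
      omega
    rw [this]
    simp
  | succ t ih =>
    have hsub : univ.filter (fun S : Finset (Edge n r) => 1 ≤ S.card ∧ S.card < (2 ^ (t + 1)) ^ r)
        ⊆ univ.filter (fun S : Finset (Edge n r) => 1 ≤ S.card ∧ S.card < (2 ^ t) ^ r)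
          ∪ univ.filter (fun S : Finset (Edge n r) =>
            (2 ^ t) ^ r ≤ S.card ∧ S.card < (2 ^ (t + 1)) ^ r) := by
      intro S hS
      obtain ⟨h1, h2⟩ := (mem_filter.mp hS).2
      rcases Nat.lt_or_ge S.card ((2 ^ t) ^ r) with h | h
      · exact mem_union_left _ (mem_filter.mpr ⟨mem_univ _, h1, h⟩)
      · exact mem_union_right _ (mem_filter.mpr ⟨mem_univ _, h, h2⟩)
    have h3 := ih (fun j hj => hb j (by omega))
    have h4 := hb t (by omega)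
    have h5 := sum_le_sum_of_subset_of_nonneg (f := fun S => fc p f S ^ 2) hsub
      (fun _ _ _ => sq_nonneg _)
    have h6 := sum_union_inter (s₁ := univ.filter (fun S : Finset (Edge n r) => 1 ≤ S.card ∧ S.card < (2 ^ t) ^ r))
      (s₂ := univ.filter (fun S : Finset (Edge n r) =>
            (2 ^ t) ^ r ≤ S.card ∧ S.card < (2 ^ (t + 1)) ^ r)) (f := fun S => fc p f S ^ 2)
    have h7 : 0 ≤ ∑ S ∈ univ.filter (fun S : Finset (Edge n r) => 1 ≤ S.card ∧ S.card < (2 ^ t) ^ r)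
        ∩ univ.filter (fun S : Finset (Edge n r) =>
            (2 ^ t) ^ r ≤ S.card ∧ S.card < (2 ^ (t + 1)) ^ r), fc p f S ^ 2 :=
      sum_nonneg fun _ _ => sq_nonneg _
    push_cast
    linarith

/-- the log identity for the parameters -/
lemma log_param {V₀ ℓ : ℝ} (hV0 : 0 < V₀) (hℓ : 0 < ℓ) :
    Real.log (2 * (ℓ ^ 3 / (V₀ / (144 * ℓ))) ^ 3 / (V₀ / (144 * ℓ)) ^ 2)
        + 2 * Real.log (1 / (V₀ / (144 * ℓ)))
      = Real.log 2 + 7 * Real.log (144 / V₀) + 16 * Real.log ℓ := by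
  set w := 144 / V₀ with hw
  have hw0 : 0 < w := by positivity
  have e1 : 2 * (ℓ ^ 3 / (V₀ / (144 * ℓ))) ^ 3 / (V₀ / (144 * ℓ)) ^ 2 = 2 * (w ^ 5 * ℓ ^ 14) := by
    rw [hw]
    field_simp
  have e2 : 1 / (V₀ / (144 * ℓ)) = w * ℓ := by
    rw [hw]
    field_simp
  rw [e1, e2, Real.log_mul (by norm_num) (by positivity), Real.log_mul (by positivity) (by positivity),
    Real.log_mul hw0.ne' hℓ.ne', Real.log_pow, Real.log_pow]
  push_cast
  ring

/-- choice of the top scale -/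
lemma top_exists {r : ℕ} (hr : 2 ≤ r) {lam c1 ℓ : ℝ} (hlam1 : 1 ≤ lam) (hc1le : c1 ≤ ℓ)
    (hℓ1 : 1 ≤ ℓ) (hlamle : lam ≤ c1) :
    ∃ top : ℕ, 1 ≤ top ∧ (∀ j < top, (((2 ^ j : ℕ) : ℝ)) ^ (r - 1) * lam ≤ c1)
      ∧ ¬ ((((2 ^ top : ℕ) : ℝ)) ^ (r - 1) * lam ≤ c1) ∧ (top : ℝ) ≤ ℓ := by
  classical
  have key : ∀ j : ℕ, ((2 ^ j : ℕ) : ℝ) ≤ (((2 ^ j : ℕ) : ℝ)) ^ (r - 1) * lam := by
    intro j
    have h3 : (1 : ℝ) ≤ ((2 ^ j : ℕ) : ℝ) := by exact_mod_cast Nat.one_le_two_pow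
    have h4 : ((2 ^ j : ℕ) : ℝ) ≤ (((2 ^ j : ℕ) : ℝ)) ^ (r - 1) := by
      calc ((2 ^ j : ℕ) : ℝ) = (((2 ^ j : ℕ) : ℝ)) ^ 1 := (pow_one _).symm
        _ ≤ _ := pow_le_pow_right₀ h3 (by omega)
    have h5 : (((2 ^ j : ℕ) : ℝ)) ^ (r - 1) * 1 ≤ (((2 ^ j : ℕ) : ℝ)) ^ (r - 1) * lam :=
      mul_le_mul_of_nonneg_left hlam1 (by positivity)
    linarith
  have hex : ∃ j : ℕ, ¬ ((((2 ^ j : ℕ) : ℝ)) ^ (r - 1) * lam ≤ c1) := by
    obtain ⟨j, hj⟩ := exists_nat_gt c1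
    refine ⟨j, ?_⟩
    rw [not_le]
    have h2 : (j : ℝ) ≤ ((2 ^ j : ℕ) : ℝ) := by
      exact_mod_cast (Nat.lt_two_pow_self).le
    have := key j
    linarith
  refine ⟨Nat.find hex, ?_, ?_, Nat.find_spec hex, ?_⟩
  · by_contra hc
    have h2 : Nat.find hex = 0 := by omega
    have h3 := Nat.find_spec hex
    rw [h2] at h3
    apply h3
    simpa using hlamle
  · intro j hj
    by_contra hc
    exact Nat.find_min hex hj hc
  · set top := Nat.find hex with htop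
    have htop1 : 1 ≤ top := by
      by_contra hc
      have h2 : top = 0 := by omega
      have h3 := Nat.find_spec hex
      rw [← htop, h2] at h3
      apply h3
      simpa using hlamle
    have h2 : (((2 ^ (top - 1) : ℕ) : ℝ)) ^ (r - 1) * lam ≤ c1 := by
      by_contra hc
      exact Nat.find_min hex (show top - 1 < Nat.find hex by omega) hc
    have h5 := key (top - 1)
    have h6 : top ≤ 2 ^ (top - 1) := by
      have : top - 1 < 2 ^ (top - 1) := Nat.lt_two_pow_self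
      omega
    have h7 : (top : ℝ) ≤ ((2 ^ (top - 1) : ℕ) : ℝ) := by exact_mod_cast h6
    linarith

/-- the size of the colour classes -/
lemma Mc_bound {n Lc : ℕ} {e : ℝ} (hLc : 0 < Lc) (he1 : 1 ≤ e) (hee : e * e = n)
    (hLce : 2 * (Lc : ℝ) ≤ e) : e ≤ ((n / Lc : ℕ) : ℝ) := by
  have h2 : n < Lc * (n / Lc + 1) := Nat.lt_mul_div_succ n hLc
  have h3 : (n : ℝ) < (Lc : ℝ) * (((n / Lc : ℕ) : ℝ) + 1) := by exact_mod_cast h2
  set M : ℝ := ((n / Lc : ℕ) : ℝ) with hM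
  have hM0 : 0 ≤ M := Nat.cast_nonneg _
  have h4 : (Lc : ℝ) * (M + 1) ≤ (e / 2) * (M + 1) :=
    mul_le_mul_of_nonneg_right (by linarith) (by linarith)
  have h5 : e * e < (e / 2) * (M + 1) := by
    rw [hee]
    linarith
  have he0 : 0 < e := by linarith
  have h6 : e * (2 * e) < e * (M + 1) := by
    have e1 : e * (2 * e) = 2 * (e * e) := by ring
    have e2 : e * (M + 1) = 2 * ((e / 2) * (M + 1)) := by ring
    rw [e1, e2]
    linarith
  have h7 : 2 * e < M + 1 := lt_of_mul_lt_mul_left h6 he0.le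
  linarith

/-- the central estimate: a large value of the dyadic scale with large mass above it -/
theorem main_inflT (hr : 2 ≤ r) {V₀ ℓ : ℝ} (hℓdef : ℓ = Real.log n) (hℓ : 2 ≤ ℓ)
    (hV0 : 0 < V₀) (hV1 : V₀ ≤ 1)
    (F1 : 2432 * 2 ^ r * (Real.log 2 + 7 * Real.log (144 / V₀) + 16 * Real.log ℓ) ≤ √ℓ)
    (F2 : 2 * (2 * (r : ℝ) ^ 2 * 4 ^ r * ℓ ^ 4 + 1) ≤ Real.exp (ℓ / 2))
    (F3 : Real.log (32 * ℓ ^ 2) ≤ ℓ / (128 * 109 * 4 ^ r))
    (h0 : 0 < p) (h1 : p < 1) (hv : 1 / (2 * ℓ ^ 2) ≤ p * (1 - p))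
    (f : (Edge n r → Bool) → ℝ) (hf : ∀ x, f x = 0 ∨ f x = 1)
    (hsym : ∀ (σ : Equiv.Perm (Fin n)) x, f (x ∘ edgePerm σ) = f x)
    (hvar : V₀ ≤ cE p f * (1 - cE p f)) (hI : inflT p f ≤ ℓ ^ 3) :
    ∃ t : ℕ, ℓ / (128 * 109 * 4 ^ r)
        < (((2 ^ t : ℕ) : ℝ)) ^ (r - 1) * Real.log (16 / (p * (1 - p)))
      ∧ (((2 ^ t : ℕ) : ℝ)) ^ r * (V₀ / 2) ≤ p * (1 - p) * inflT p f := by
  classical
  have hℓ0 : 0 < ℓ := by linarith
  have hℓ1 : 1 ≤ ℓ := by linarith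
  have hn : 0 < (n : ℝ) := by
    rcases Nat.eq_zero_or_pos n with h | h
    · subst h
      simp at hℓdef
      linarith
    · exact_mod_cast h
  have hnexp : Real.exp ℓ = n := by
    rw [hℓdef, Real.exp_log hn]
  set v := p * (1 - p) with hvdef
  have hv0 : 0 < v := mul_pos h0 (by linarith)
  set lam := Real.log (16 / v) with hlam
  have hlam1 : 1 ≤ lam := lam_ge_one h0 h1
  have hlam0 : 0 < lam := by linarith
  set c1 := ℓ / (128 * 109 * 4 ^ r) with hc1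
  have hc1le : c1 ≤ ℓ := by
    apply div_le_self hℓ0.le
    have : (1 : ℝ) ≤ 4 ^ r := one_le_pow₀ (by norm_num)
    nlinarith
  -- the first band is admissible
  have hlamle : lam ≤ c1 := by
    refine le_trans ?_ F3
    apply Real.log_le_log (by positivity)
    rw [div_le_iff₀ hv0]
    have h2 : 0 < 2 * ℓ ^ 2 := by positivity
    have h3 : 1 ≤ v * (2 * ℓ ^ 2) := by
      rwa [div_le_iff₀ h2] at hv
    nlinarith
  -- the top scale
  obtain ⟨top, htop1, hmin, htopn, htople⟩ := top_exists (r := r) hr hlam1 hc1le hℓ1 hlamle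
  -- the parameters
  set ε := V₀ / (144 * ℓ) with hε
  have hε0 : 0 < ε := by positivity
  have hε1 : ε ≤ 1 := by
    rw [hε, div_le_one (by positivity)]
    linarith
  set L := ℓ ^ 3 / ε with hL
  have hL1 : 1 ≤ L := by
    rw [hL, one_le_div hε0]
    have : (1 : ℝ) ≤ ℓ ^ 3 := one_le_pow₀ hℓ1
    linarith
  have hIL : inflT p f ≤ ε * L := by
    have : ε * L = ℓ ^ 3 := by
      rw [hL]
      field_simp
    rw [this]
    exact hI
  have hA : 2432 * 2 ^ r * (Real.log (2 * L ^ 3 / ε ^ 2) + 2 * Real.log (1 / ε)) ≤ √ℓ := by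
    rw [hL, hε, log_param hV0 hℓ0]
    exact F1
  set X := 2 * (r : ℝ) ^ 2 * 4 ^ r * ℓ ^ 4 with hX
  have hX0 : 0 ≤ X := by positivity
  set Lc := ⌈X⌉₊ with hLcdef
  have hr0 : (0 : ℝ) < r := by
    have : 0 < r := by omega
    exact_mod_cast this
  have hLc : 0 < Lc := Nat.ceil_pos.mpr (by positivity)
  have hLcle : (Lc : ℝ) ≤ X + 1 := (Nat.ceil_lt_add_one hX0).le
  have hcol : X ≤ Lc := Nat.le_ceil X
  set e := Real.exp (ℓ / 2) with he
  have he1 : 1 ≤ e := Real.one_le_exp (by linarith)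
  have hee : e * e = n := by
    rw [he, ← Real.exp_add, ← hnexp]
    congr 1
    ring
  have hLce : 2 * (Lc : ℝ) ≤ e := by linarith
  have hMc : e ≤ ((n / Lc : ℕ) : ℝ) := Mc_bound hLc he1 hee hLce
  -- each band
  have hband : ∀ j < top, ∑ S ∈ univ.filter (fun S : Finset (Edge n r) =>
      (2 ^ j) ^ r ≤ S.card ∧ S.card < (2 ^ (j + 1)) ^ r), fc p f S ^ 2 ≤ 72 * ε := by
    intro j hj
    exact band_step hr j h0 h1 f hf hsym hε0 hε1 hL1 hIL Lc hLc hMc hℓ1 (hmin j hj) hA hcol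
  have hlow := low_sum f (72 * ε) top hband
  have hlow2 : (top : ℝ) * (72 * ε) ≤ V₀ / 2 := by
    have h2 : (top : ℝ) * (72 * ε) ≤ ℓ * (72 * ε) :=
      mul_le_mul_of_nonneg_right htople (by positivity)
    have h3 : ℓ * (72 * ε) = V₀ / 2 := by
      rw [hε]
      field_simp
      norm_num
    linarith
  refine ⟨top, not_le.mp htopn, ?_⟩
  have hM1 : 1 ≤ (2 ^ top) ^ r := Nat.one_le_pow _ _ (by positivity)
  have hen := energy_lower h0 h1 f hf ((2 ^ top) ^ r) hM1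
  have hcast : (((2 ^ top) ^ r : ℕ) : ℝ) = (((2 ^ top : ℕ) : ℝ)) ^ r := by
    push_cast
    ring
  rw [hcast] at hen
  have hm0 : 0 ≤ (((2 ^ top : ℕ) : ℝ)) ^ r := by positivity
  refine le_trans (mul_le_mul_of_nonneg_left ?_ hm0) hen
  linarith

end Vale.Agent.P063
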