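import Vale.Agent.P063.Energy

/-!
The parameters of the dyadic bands and the numerical inequalities they satisfy.
-/

set_option linter.unusedSectionVars false
set_option linter.unusedSimpArgs false
set_option linter.unusedVariables false

namespace Vale.Agent.P063

open Finset Function

/-- selection density parameter -/
def qq (r j : ℕ) : ℕ := (2 ^ j) ^ ((r + 1) / 2)
/-- bound on the size of the selected part -/
def aa (r j : ℕ) : ℕ := 6 * 2 ^ r * (2 ^ j) ^ (r / 2)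
/-- the top of the band -/
def hh (r j : ℕ) : ℕ := 2 ^ r * (2 ^ j) ^ r
/-- the number of bundles -/
def TT (j : ℕ) : ℕ := (2 ^ j + 7) / 8
/-- the lower bound on the number of vertices -/
def tt (j : ℕ) : ℕ := (TT j + 3) / 4

lemma hh_eq (r j : ℕ) : hh r j = (2 ^ (j + 1)) ^ r := by
  unfold hh
  rw [pow_succ, mul_pow]
  ring

lemma qq_pos (r j : ℕ) : 1 ≤ qq r j := Nat.one_le_pow _ _ (by positivity)

lemma aa_pos (r j : ℕ) : 0 < aa r j := by
  unfold aa
  positivity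

lemma TT_pos (j : ℕ) : 0 < TT j := by
  unfold TT
  have : 1 ≤ 2 ^ j := Nat.one_le_two_pow
  omega

lemma tt_of_le {j V : ℕ} (h : TT j ≤ 4 * V) : tt j ≤ V := by
  unfold tt
  omega

lemma tt_lower (j : ℕ) : 2 ^ j ≤ 32 * tt j := by
  unfold tt TT
  omega

lemma aa_mul_qq {r : ℕ} (j : ℕ) : 6 * hh r j ≤ aa r j * qq r j := by
  unfold aa qq hh
  have h1 : (2 ^ j) ^ (r / 2) * (2 ^ j) ^ ((r + 1) / 2) = (2 ^ j) ^ r := by
    rw [← pow_add]
    congr 1
    omega
  have e : 6 * 2 ^ r * (2 ^ j) ^ (r / 2) * (2 ^ j) ^ ((r + 1) / 2) = 6 * (2 ^ r * (2 ^ j) ^ r) := by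
    rw [← h1]; ring
  exact le_of_eq e.symm

lemma bund_ok {r : ℕ} (hr : 2 ≤ r) (j T' : ℕ) (hT' : T' < TT j) :
    T' ^ r + 2 * qq r j * T' + qq r j ≤ (2 ^ j) ^ r := by
  set m := 2 ^ j with hm
  have hm1 : 1 ≤ m := Nat.one_le_two_pow
  set q := qq r j with hq
  have hqdef : q = m ^ ((r + 1) / 2) := rfl
  have h8 : 8 * T' < m := by
    have : T' < (m + 7) / 8 := hT'
    omega
  rcases Nat.eq_zero_or_pos T' with h0 | h0
  · subst h0
    have h2 : q ≤ m ^ r := by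
      rw [hqdef]
      exact Nat.pow_le_pow_right hm1 (by omega)
    have h3 : 0 ^ r = 0 := zero_pow (by omega)
    rw [h3]
    omega
  · have hmq : m * q ≤ m ^ r := by
      rw [hqdef, ← pow_succ']
      exact Nat.pow_le_pow_right hm1 (by omega)
    have h3 : 64 * T' ^ r ≤ m ^ r := by
      have h4 : (8 * T') ^ r ≤ m ^ r := Nat.pow_le_pow_left h8.le r
      have h5 : 64 ≤ 8 ^ r := by
        calc 64 = 8 ^ 2 := by norm_num
          _ ≤ 8 ^ r := Nat.pow_le_pow_right (by norm_num) hr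
      calc 64 * T' ^ r ≤ 8 ^ r * T' ^ r := Nat.mul_le_mul_right _ h5
        _ = (8 * T') ^ r := by rw [mul_pow]
        _ ≤ _ := h4
    have h6 : 8 * (T' * q) ≤ m ^ r := by
      calc 8 * (T' * q) = (8 * T') * q := by ring
        _ ≤ m * q := Nat.mul_le_mul_right _ h8.le
        _ ≤ _ := hmq
    have h7 : 8 * q ≤ m ^ r := by
      have : 8 ≤ m := by omega
      calc 8 * q ≤ m * q := Nat.mul_le_mul_right _ this
        _ ≤ _ := hmq
    have e : 2 * q * T' = 2 * (T' * q) := by ring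
    rw [e]
    omega

/-- the main numerical inequality for a band -/
lemma exponent_bound {r : ℕ} (hr : 2 ≤ r) (j : ℕ) {lam ℓ D G : ℝ} (hlam : 1 ≤ lam) (hℓ : 1 ≤ ℓ)
    (hD : 0 ≤ D) (hG : 0 ≤ G)
    (hP : (((2 ^ j : ℕ) : ℝ)) ^ (r - 1) * lam ≤ ℓ / (128 * 109 * 4 ^ r))
    (hA : 2432 * 2 ^ r * (D + 2 * G) ≤ √ℓ) :
    (hh r j : ℝ) * lam + 3 * (aa r j : ℝ) * (D + (aa r j : ℝ) * lam) + 2 * G
      ≤ ℓ / 2 * (tt j : ℝ) := by
  set m : ℝ := ((2 ^ j : ℕ) : ℝ) with hm
  have hm1 : 1 ≤ m := by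
    rw [hm]
    exact_mod_cast Nat.one_le_two_pow
  have hm0 : 0 < m := by linarith
  have hhr : (hh r j : ℝ) = 2 ^ r * m ^ r := by
    unfold hh
    push_cast
    rw [hm]
    push_cast
    ring
  have har : (aa r j : ℝ) = 6 * 2 ^ r * m ^ (r / 2) := by
    unfold aa
    push_cast
    rw [hm]
    push_cast
    ring
  have h4 : (4 : ℝ) ^ r = 2 ^ r * 2 ^ r := by
    rw [← mul_pow]
    norm_num
  have h2r : (1 : ℝ) ≤ 2 ^ r := one_le_pow₀ (by norm_num)
  have hlam0 : 0 < lam := by linarith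
  have hℓ0 : 0 < ℓ := by linarith
  -- the bound on the power of m
  have hPm : m ^ (r - 1) ≤ ℓ := by
    have h5 : m ^ (r - 1) ≤ m ^ (r - 1) * lam := by
      have : 0 ≤ m ^ (r - 1) := by positivity
      nlinarith
    have h6 : ℓ / (128 * 109 * 4 ^ r) ≤ ℓ := by
      apply div_le_self hℓ0.le
      have : (1 : ℝ) ≤ 4 ^ r := one_le_pow₀ (by norm_num)
      nlinarith
    linarith
  have hmr : m ^ r = m * m ^ (r - 1) := by
    rw [← pow_succ']
    congr 1
    omega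
  -- first part
  have hfirst : (hh r j : ℝ) * lam + 3 * (aa r j : ℝ) * ((aa r j : ℝ) * lam) ≤ m * ℓ / 128 := by
    have h7 : (aa r j : ℝ) * (aa r j : ℝ) ≤ 36 * 4 ^ r * m ^ r := by
      rw [har, h4]
      have h8 : m ^ (r / 2) * m ^ (r / 2) ≤ m ^ r := by
        rw [← pow_add]
        exact pow_le_pow_right₀ hm1 (by omega)
      have h9 : (0 : ℝ) ≤ 36 * (2 ^ r * 2 ^ r) := by positivity
      calc 6 * 2 ^ r * m ^ (r / 2) * (6 * 2 ^ r * m ^ (r / 2))
          = 36 * (2 ^ r * 2 ^ r) * (m ^ (r / 2) * m ^ (r / 2)) := by ring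
        _ ≤ 36 * (2 ^ r * 2 ^ r) * m ^ r := mul_le_mul_of_nonneg_left h8 h9
    have h10 : (hh r j : ℝ) ≤ 4 ^ r * m ^ r := by
      rw [hhr]
      apply mul_le_mul_of_nonneg_right _ (by positivity)
      rw [h4]
      nlinarith
    have h11 : (hh r j : ℝ) * lam + 3 * (aa r j : ℝ) * ((aa r j : ℝ) * lam)
        ≤ (109 * 4 ^ r) * (m ^ r * lam) := by
      have h12 : (hh r j : ℝ) * lam ≤ (4 ^ r * m ^ r) * lam :=
        mul_le_mul_of_nonneg_right h10 hlam0.le
      have h13 : ((aa r j : ℝ) * (aa r j : ℝ)) * lam ≤ (36 * 4 ^ r * m ^ r) * lam :=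
        mul_le_mul_of_nonneg_right h7 hlam0.le
      nlinarith
    have h14 : m ^ r * lam ≤ m * (ℓ / (128 * 109 * 4 ^ r)) := by
      rw [hmr, mul_assoc]
      exact mul_le_mul_of_nonneg_left hP hm0.le
    have h15 : (109 * (4 : ℝ) ^ r) * (m * (ℓ / (128 * 109 * 4 ^ r))) = m * ℓ / 128 := by
      have : (4 : ℝ) ^ r ≠ 0 := by positivity
      field_simp
    calc _ ≤ _ := h11
      _ ≤ (109 * 4 ^ r) * (m * (ℓ / (128 * 109 * 4 ^ r))) :=
          mul_le_mul_of_nonneg_left h14 (by positivity)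
      _ = _ := h15
  -- second part
  have hsecond : 3 * (aa r j : ℝ) * D + 2 * G ≤ m * ℓ / 128 := by
    have ha1 : (1 : ℝ) ≤ aa r j := by
      exact_mod_cast aa_pos r j
    have h16 : 3 * (aa r j : ℝ) * D + 2 * G ≤ 3 * (aa r j : ℝ) * (D + 2 * G) := by
      nlinarith
    refine le_trans h16 ?_
    set u := m ^ (r / 2 - 1) with hu
    have hu0 : 0 ≤ u := by positivity
    have hu2 : u ≤ √ℓ := by
      apply Real.le_sqrt_of_sq_le
      rw [hu, ← pow_mul]
      refine le_trans (pow_le_pow_right₀ hm1 ?_) hPm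
      omega
    have hm2 : m ^ (r / 2) = m * u := by
      rw [hu, ← pow_succ']
      congr 1
      omega
    rw [har, hm2]
    have hDG : 0 ≤ D + 2 * G := by linarith
    have hs0 : 0 ≤ √ℓ := Real.sqrt_nonneg _
    have hss : √ℓ * √ℓ = ℓ := Real.mul_self_sqrt hℓ0.le
    have h17 : 2 ^ r * (D + 2 * G) ≤ √ℓ / 2432 := by
      rw [le_div_iff₀ (by norm_num)]
      linarith
    have h2DG : 0 ≤ (2 : ℝ) ^ r * (D + 2 * G) := by positivity
    calc 3 * (6 * 2 ^ r * (m * u)) * (D + 2 * G) = 18 * m * u * (2 ^ r * (D + 2 * G)) := by ring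
      _ ≤ 18 * m * √ℓ * (√ℓ / 2432) := by
          apply mul_le_mul _ h17 h2DG (by positivity)
          exact mul_le_mul_of_nonneg_left hu2 (by positivity)
      _ = (18 / 2432) * (m * (√ℓ * √ℓ)) := by ring
      _ = (18 / 2432) * (m * ℓ) := by rw [hss]
      _ ≤ m * ℓ / 128 := by
          have : 0 ≤ m * ℓ := by positivity
          linarith
  -- conclusion
  have htt : m / 32 ≤ (tt j : ℝ) := by
    have h18 := tt_lower j
    have h19 : m ≤ 32 * (tt j : ℝ) := by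
      rw [hm]
      exact_mod_cast h18
    linarith
  have h20 : m * ℓ / 64 ≤ ℓ / 2 * (tt j : ℝ) := by
    have := mul_le_mul_of_nonneg_left htt (by positivity : 0 ≤ ℓ / 2)
    calc m * ℓ / 64 = ℓ / 2 * (m / 32) := by ring
      _ ≤ _ := this
  have e : (hh r j : ℝ) * lam + 3 * (aa r j : ℝ) * (D + (aa r j : ℝ) * lam) + 2 * G
      = ((hh r j : ℝ) * lam + 3 * (aa r j : ℝ) * ((aa r j : ℝ) * lam))
        + (3 * (aa r j : ℝ) * D + 2 * G) := by ring
  rw [e]
  linarith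

/-- the bound on the truncated mass in terms of the exponent inequality -/
lemma delta_bound {s ε L O lam D G : ℝ} (a d : ℕ) (hs : 1 ≤ s) (hε : 0 < ε) (hε1 : ε ≤ 1)
    (hL : 1 ≤ L) (hO : 0 < O) (hlam : lam = Real.log (s ^ 2))
    (hDd : D = Real.log (2 * L ^ 3 / ε ^ 2)) (hGd : G = Real.log (1 / ε))
    (hexp : (d : ℝ) * lam + 3 * (a : ℝ) * (D + (a : ℝ) * lam) + 2 * G ≤ Real.log O) :
    s ^ d * ((1 + L / (ε / (s ^ a * L)) ^ 2) ^ a
        * √((1 + L / (ε / (s ^ a * L)) ^ 2) ^ a / O)) ≤ ε := by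
  have hs0 : 0 < s := by linarith
  have hL0 : 0 < L := by linarith
  set X := L / (ε / (s ^ a * L)) ^ 2 with hX
  have hXe : X = (2 * L ^ 3 / ε ^ 2) * (s ^ 2) ^ a / 2 := by
    rw [hX]
    field_simp
    rw [← pow_mul, ← pow_mul, mul_comm]
  have hX1 : 1 ≤ X := by
    have h1 : (1 : ℝ) ≤ (s ^ 2) ^ a := one_le_pow₀ (one_le_pow₀ hs)
    have h2 : 1 ≤ L ^ 3 := one_le_pow₀ hL
    have h3 : ε ^ 2 ≤ 1 := pow_le_one₀ hε.le hε1
    have h4 : 1 ≤ L ^ 3 / ε ^ 2 := by
      rw [one_le_div (by positivity)]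
      linarith
    have h5 : X = (L ^ 3 / ε ^ 2) * (s ^ 2) ^ a := by
      rw [hXe]; ring
    rw [h5]
    nlinarith
  have hX0 : 0 < X := by linarith
  set Y := (1 + X) ^ a with hY
  have hY0 : 0 < Y := by positivity
  have hs2 : 0 < s ^ 2 := by positivity
  have hexplam : s ^ 2 = Real.exp lam := by
    rw [hlam, Real.exp_log hs2]
  have h2X : 2 * X = Real.exp (D + (a : ℝ) * lam) := by
    have h6 : 0 < 2 * L ^ 3 / ε ^ 2 := by positivity
    rw [Real.exp_add, hDd, Real.exp_log h6, Real.exp_nat_mul, ← hexplam, hXe]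
    ring
  have hYle : Y ≤ Real.exp ((a : ℝ) * (D + (a : ℝ) * lam)) := by
    rw [Real.exp_nat_mul, ← h2X, hY]
    apply pow_le_pow_left₀ (by positivity)
    linarith
  have hsd : (s ^ d) ^ 2 = Real.exp ((d : ℝ) * lam) := by
    rw [Real.exp_nat_mul, ← hexplam]
    ring
  have hεe : ε ^ 2 = Real.exp (-(2 * G)) := by
    rw [hGd]
    have : Real.log (1 / ε) = - Real.log ε := by
      rw [one_div, Real.log_inv]
    rw [this]
    have h7 : -(2 * -Real.log ε) = 2 * Real.log ε := by ring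
    rw [h7, mul_comm, Real.exp_mul, Real.exp_log hε]
    norm_num
  have hsqrt : (√(Y / O)) ^ 2 = Y / O := Real.sq_sqrt (by positivity)
  have hW0 : 0 ≤ s ^ d * (Y * √(Y / O)) := by positivity
  have hsq : (s ^ d * (Y * √(Y / O))) ^ 2 ≤ ε ^ 2 := by
    have e1 : (s ^ d * (Y * √(Y / O))) ^ 2 = (s ^ d) ^ 2 * Y ^ 3 / O := by
      calc (s ^ d * (Y * √(Y / O))) ^ 2 = (s ^ d) ^ 2 * Y ^ 2 * (√(Y / O)) ^ 2 := by ring
        _ = _ := by
            rw [hsqrt]
            field_simp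
    rw [e1, div_le_iff₀ hO]
    have h8 : Y ^ 3 ≤ Real.exp (3 * ((a : ℝ) * (D + (a : ℝ) * lam))) := by
      have h9 : Real.exp (3 * ((a : ℝ) * (D + (a : ℝ) * lam)))
          = (Real.exp ((a : ℝ) * (D + (a : ℝ) * lam))) ^ 3 := by
        rw [← Real.exp_nat_mul]
        norm_num
      rw [h9]
      exact pow_le_pow_left₀ hY0.le hYle 3
    have h10 : O = Real.exp (Real.log O) := (Real.exp_log hO).symm
    rw [hεe, hsd]
    calc Real.exp ((d : ℝ) * lam) * Y ^ 3
        ≤ Real.exp ((d : ℝ) * lam) * Real.exp (3 * ((a : ℝ) * (D + (a : ℝ) * lam))) :=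
          mul_le_mul_of_nonneg_left h8 (Real.exp_pos _).le
      _ = Real.exp ((d : ℝ) * lam + 3 * ((a : ℝ) * (D + (a : ℝ) * lam))) := by
          rw [Real.exp_add]
      _ ≤ Real.exp (-(2 * G) + Real.log O) := by
          apply Real.exp_le_exp.mpr
          nlinarith
      _ = Real.exp (-(2 * G)) * O := by
          rw [Real.exp_add, Real.exp_log hO]
  exact (abs_le_of_sq_le_sq' hsq hε.le).2

end Vale.Agent.P063
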