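import Vale.Agent.P063.Bonami

/-!
Restrictions of a function on the biased cube: the mixing map, the coefficient functions,
local influences and the list lemma.
-/

set_option linter.unusedSectionVars false
set_option linter.unusedSimpArgs false
set_option linter.unusedVariables false

namespace Vale.Agent.P063

open Finset Function

variable {ι : Type*} [Fintype ι] [DecidableEq ι] {p : ℝ}

/-- coordinates in `R` taken from `y`, the others from `x` -/
def mix (R : Finset ι) (y x : ι → Bool) : ι → Bool := fun e => if e ∈ R then y e else x e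

lemma cw_mix (p : ℝ) (R : Finset ι) (x y : ι → Bool) :
    cw p (mix R y x) * cw p (mix R x y) = cw p x * cw p y := by
  unfold cw
  rw [← prod_mul_distrib, ← prod_mul_distrib]
  apply prod_congr rfl
  intro e _
  unfold mix
  by_cases he : e ∈ R
  · simp only [he, if_true]; ring
  · simp only [he, if_false]

lemma mix_invol (R : Finset ι) (x y : ι → Bool) : mix R (mix R x y) (mix R y x) = x := by
  funext e
  unfold mix
  by_cases he : e ∈ R <;> simp [he]

/-- integrating out the coordinates in `R` and then the others -/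
lemma cE_mix (p : ℝ) (R : Finset ι) (F : (ι → Bool) → ℝ) :
    cE p (fun x => cE p (fun y => F (mix R y x))) = cE p F := by
  unfold cE
  let Φ : ((ι → Bool) × (ι → Bool)) ≃ ((ι → Bool) × (ι → Bool)) :=
    { toFun := fun z => (mix R z.2 z.1, mix R z.1 z.2)
      invFun := fun z => (mix R z.2 z.1, mix R z.1 z.2)
      left_inv := by
        intro z
        ext1
        · exact mix_invol R z.1 z.2
        · exact mix_invol R z.2 z.1
      right_inv := by
        intro z
        ext1
        · exact mix_invol R z.1 z.2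
        · exact mix_invol R z.2 z.1 }
  have h1 : ∑ x, cw p x * ∑ y, cw p y * F (mix R y x)
      = ∑ z : (ι → Bool) × (ι → Bool), cw p z.1 * cw p z.2 * F (mix R z.2 z.1) := by
    rw [Fintype.sum_prod_type]
    apply sum_congr rfl; intro x _
    rw [mul_sum]
    apply sum_congr rfl; intro y _
    ring
  have h2 : ∑ z : (ι → Bool) × (ι → Bool), cw p z.1 * cw p z.2 * F (mix R z.2 z.1)
      = ∑ z : (ι → Bool) × (ι → Bool), cw p z.1 * cw p z.2 * F z.1 := by
    rw [← Equiv.sum_comp Φ (fun z : (ι → Bool) × (ι → Bool) => cw p z.1 * cw p z.2 * F z.1)]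
    apply sum_congr rfl
    intro z _
    change cw p z.1 * cw p z.2 * F (mix R z.2 z.1)
      = cw p (mix R z.2 z.1) * cw p (mix R z.1 z.2) * F (mix R z.2 z.1)
    rw [cw_mix]
  rw [h1, h2, Fintype.sum_prod_type]
  apply sum_congr rfl; intro x _
  have : ∑ y : ι → Bool, cw p x * cw p y * F x = cw p x * F x * ∑ y : ι → Bool, cw p y := by
    rw [mul_sum]; apply sum_congr rfl; intro y _; ring
  rw [this, cw_sum, mul_one]

/-- the coefficient function of a set `A` of restricted coordinates -/
noncomputable def cA (p : ℝ) (f : (ι → Bool) → ℝ) (R A : Finset ι) (x : ι → Bool) : ℝ :=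
  fc p (fun y => f (mix R y x)) A

/-- local influence -/
noncomputable def Iloc (p : ℝ) (f : (ι → Bool) → ℝ) (R : Finset ι) (e : ι) (x : ι → Bool) : ℝ :=
  inflE p (fun y => f (mix R y x)) e

/-- total local influence on `R` -/
noncomputable def Itot (p : ℝ) (f : (ι → Bool) → ℝ) (R : Finset ι) (x : ι → Bool) : ℝ :=
  ∑ e ∈ R, Iloc p f R e x

lemma chi_mix_left (p : ℝ) {R A : Finset ι} (hA : A ⊆ R) (y x : ι → Bool) :
    chi p A (mix R y x) = chi p A y := by
  apply chi_congr
  intro e he
  simp [mix, hA he]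

lemma chi_mix_right (p : ℝ) {R U : Finset ι} (hU : Disjoint U R) (y x : ι → Bool) :
    chi p U (mix R y x) = chi p U x := by
  apply chi_congr
  intro e he
  simp [mix, disjoint_left.mp hU he]

/-- the Fourier coefficients of a coefficient function are Fourier coefficients of `f` -/
lemma fc_cA (p : ℝ) (f : (ι → Bool) → ℝ) {R A U : Finset ι} (hA : A ⊆ R) (hU : Disjoint U R) :
    fc p (cA p f R A) U = fc p f (A ∪ U) := by
  have hd : Disjoint A U := by
    rw [disjoint_left]
    intro e he hu
    exact (disjoint_left.mp hU hu) (hA he)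
  unfold fc cA
  unfold fc
  rw [← cE_mix p R (fun z => f z * chi p (A ∪ U) z)]
  congr 1
  funext x
  rw [← cE_mul_const]
  congr 1
  funext y
  rw [chi_union p hd, chi_mix_left p hA, chi_mix_right p hU]
  ring

lemma mix_update {R : Finset ι} {e : ι} (he : e ∈ R) (y x : ι → Bool) (b : Bool) :
    mix R (update y e b) x = update (mix R y x) e b := by
  funext j
  unfold mix
  by_cases hj : j = e
  · subst hj; simp [he]
  · simp [update_of_ne hj]

/-- the average of a local influence is the influence -/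
lemma cE_Iloc (p : ℝ) (f : (ι → Bool) → ℝ) {R : Finset ι} {e : ι} (he : e ∈ R) :
    cE p (Iloc p f R e) = inflE p f e := by
  have h2 : inflE p f e = cE p (fun z => if f (update z e true) ≠ f (update z e false)
      then (1 : ℝ) else 0) := rfl
  rw [h2, ← cE_mix p R (fun z => if f (update z e true) ≠ f (update z e false)
      then (1 : ℝ) else 0)]
  unfold Iloc inflE
  congr 1
  funext x
  congr 1
  funext y
  simp only [mix_update he]

lemma Iloc_nonneg (h0 : 0 ≤ p) (h1 : p ≤ 1) (f : (ι → Bool) → ℝ) (R : Finset ι) (e : ι)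
    (x : ι → Bool) : 0 ≤ Iloc p f R e x := inflE_nonneg h0 h1 _ e

lemma Itot_nonneg (h0 : 0 ≤ p) (h1 : p ≤ 1) (f : (ι → Bool) → ℝ) (R : Finset ι)
    (x : ι → Bool) : 0 ≤ Itot p f R x := sum_nonneg fun e _ => Iloc_nonneg h0 h1 f R e x

lemma cE_Itot (h0 : 0 ≤ p) (h1 : p ≤ 1) (f : (ι → Bool) → ℝ) (R : Finset ι) :
    cE p (Itot p f R) ≤ inflT p f := by
  have : Itot p f R = fun x => ∑ e ∈ R, Iloc p f R e x := rfl
  rw [this, cE_sum]
  calc ∑ e ∈ R, cE p (Iloc p f R e) = ∑ e ∈ R, inflE p f e :=
        sum_congr rfl (fun e he => cE_Iloc p f he)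
    _ ≤ ∑ e, inflE p f e := sum_le_sum_of_subset_of_nonneg (subset_univ R)
        (fun e _ _ => inflE_nonneg h0 h1 f e)

/-- the squares of the coefficient functions sum to at most one -/
lemma cA_sq_sum (h0 : 0 < p) (h1 : p < 1) (f : (ι → Bool) → ℝ) (hf : ∀ x, f x = 0 ∨ f x = 1)
    (R : Finset ι) (x : ι → Bool) : ∑ A : Finset ι, cA p f R A x ^ 2 ≤ 1 := by
  unfold cA
  rw [parseval_sq h0 h1]
  have := cE_mono (ι := ι) h0.le h1.le (F := fun y => f (mix R y x) ^ 2) (G := fun _ => 1)
    (by
      intro y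
      rcases hf (mix R y x) with h | h <;> simp [h])
  rwa [cE_const] at this

lemma cA_abs_le (h0 : 0 < p) (h1 : p < 1) (f : (ι → Bool) → ℝ) (hf : ∀ x, f x = 0 ∨ f x = 1)
    (R A : Finset ι) (x : ι → Bool) : |cA p f R A x| ≤ 1 := by
  have h2 : cA p f R A x ^ 2 ≤ ∑ A : Finset ι, cA p f R A x ^ 2 :=
    single_le_sum (f := fun A => cA p f R A x ^ 2) (fun _ _ => sq_nonneg _) (mem_univ A)
  have h3 := cA_sq_sum h0 h1 f hf R x
  exact abs_le_of_sq_le_sq' (by linarith) (by norm_num) |> abs_le.mpr

/-- mass on sets containing a given coordinate -/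
lemma star_bound (h0 : 0 < p) (h1 : p < 1) (g : (ι → Bool) → ℝ) (hg : ∀ x, g x = 0 ∨ g x = 1)
    (e : ι) (F : Finset (Finset ι)) (a : ℕ) (hF : ∀ A ∈ F, e ∈ A ∧ A.card ≤ a) :
    ∑ A ∈ F, fc p g A ^ 2 ≤ sB p ^ a * (inflE p g e * √(inflE p g e)) := by
  have hs := s0_pos h0 h1
  have hs1 := s0_le_one h0 h1
  have hs4 := sB_ge_four h0 h1
  have e1 : ∑ A ∈ F, fc p g A ^ 2 = s0 p ^ 2 * ∑ U ∈ F.image (fun A => A.erase e), fc p (dd e g) U ^ 2 := by
    rw [sum_image, mul_sum]
    · apply sum_congr rfl
      intro A hA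
      rw [fc_of_mem h0 h1 g (hF A hA).1]
      ring
    · intro A hA B hB hAB
      have hAe := (hF A hA).1
      have hBe := (hF B hB).1
      have hAB' : A.erase e = B.erase e := hAB
      rw [← insert_erase hAe, ← insert_erase hBe, hAB']
  have hl := level_ineq h0 h1 (dd e g)
    (by
      intro x
      unfold dd
      rcases hg (update x e true) with h2 | h2 <;> rcases hg (update x e false) with h3 | h3 <;>
        simp [h2, h3])
    (fun x => g (update x e true) ≠ g (update x e false))
    (by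
      intro x hx
      unfold dd at hx
      exact sub_ne_zero.mp hx)
    (F.image (fun A => A.erase e)) a
    (by
      intro U hU
      obtain ⟨A, hA, rfl⟩ := mem_image.mp hU
      exact le_trans (card_erase_le) (hF A hA).2)
  rw [e1]
  have hnn : 0 ≤ ∑ U ∈ F.image (fun A => A.erase e), fc p (dd e g) U ^ 2 :=
    sum_nonneg fun _ _ => sq_nonneg _
  have hs2 : s0 p ^ 2 ≤ 1 := by nlinarith
  calc s0 p ^ 2 * ∑ U ∈ F.image (fun A => A.erase e), fc p (dd e g) U ^ 2
      ≤ 1 * ∑ U ∈ F.image (fun A => A.erase e), fc p (dd e g) U ^ 2 :=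
        mul_le_mul_of_nonneg_right hs2 hnn
    _ ≤ _ := by
        rw [one_mul]
        exact hl

/-- the list lemma: sets not inside the list of influential coordinates carry little mass -/
lemma list_bound (h0 : 0 < p) (h1 : p < 1) (g : (ι → Bool) → ℝ) (hg : ∀ x, g x = 0 ∨ g x = 1)
    (R : Finset ι) (θ : ℝ) (hθ : 0 ≤ θ) (a : ℕ) (F : Finset (Finset ι))
    (hF : ∀ A ∈ F, A ⊆ R ∧ A.card ≤ a) :
    ∑ A ∈ F.filter (fun A => ¬ A ⊆ R.filter (fun e => θ ^ 2 ≤ inflE p g e)), fc p g A ^ 2
      ≤ sB p ^ a * θ * ∑ e ∈ R, inflE p g e := by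
  have hs4 := sB_ge_four h0 h1
  have hτ : 0 ≤ sB p ^ a := by positivity
  set J := R.filter (fun e => θ ^ 2 ≤ inflE p g e) with hJ
  have hnn : ∀ e, 0 ≤ inflE p g e := fun e => inflE_nonneg h0.le h1.le g e
  have hcover : ∑ A ∈ F.filter (fun A => ¬ A ⊆ J), fc p g A ^ 2
      ≤ ∑ e ∈ R.filter (fun e => ¬ θ ^ 2 ≤ inflE p g e), ∑ A ∈ F.filter (fun A => e ∈ A), fc p g A ^ 2 := by
    have h2 : ∀ A ∈ F.filter (fun A => ¬ A ⊆ J), fc p g A ^ 2
        ≤ ∑ e ∈ R.filter (fun e => ¬ θ ^ 2 ≤ inflE p g e), (if e ∈ A then fc p g A ^ 2 else 0) := by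
      intro A hA
      obtain ⟨hAF, hAJ⟩ := mem_filter.mp hA
      obtain ⟨e, heA, heJ⟩ := not_subset.mp hAJ
      have heR : e ∈ R := (hF A hAF).1 heA
      have he' : e ∈ R.filter (fun e => ¬ θ ^ 2 ≤ inflE p g e) := by
        refine mem_filter.mpr ⟨heR, ?_⟩
        intro hc
        exact heJ (mem_filter.mpr ⟨heR, hc⟩)
      calc fc p g A ^ 2 = (if e ∈ A then fc p g A ^ 2 else 0) := by simp [heA]
        _ ≤ _ := single_le_sum (f := fun e => if e ∈ A then fc p g A ^ 2 else 0)
            (fun j _ => by split_ifs <;> positivity) he'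
    calc ∑ A ∈ F.filter (fun A => ¬ A ⊆ J), fc p g A ^ 2
        ≤ ∑ A ∈ F.filter (fun A => ¬ A ⊆ J), ∑ e ∈ R.filter (fun e => ¬ θ ^ 2 ≤ inflE p g e),
            (if e ∈ A then fc p g A ^ 2 else 0) := sum_le_sum h2
      _ = ∑ e ∈ R.filter (fun e => ¬ θ ^ 2 ≤ inflE p g e), ∑ A ∈ F.filter (fun A => ¬ A ⊆ J),
            (if e ∈ A then fc p g A ^ 2 else 0) := sum_comm
      _ ≤ _ := by
          apply sum_le_sum
          intro e _
          rw [sum_filter (s := F) (p := fun A => e ∈ A)]
          calc ∑ A ∈ F.filter (fun A => ¬ A ⊆ J), (if e ∈ A then fc p g A ^ 2 else 0)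
              ≤ ∑ A ∈ F, (if e ∈ A then fc p g A ^ 2 else 0) :=
                sum_le_sum_of_subset_of_nonneg (filter_subset _ _)
                  (fun j _ _ => by split_ifs <;> positivity)
            _ = _ := rfl
  refine le_trans hcover ?_
  have hstep : ∀ e ∈ R.filter (fun e => ¬ θ ^ 2 ≤ inflE p g e),
      ∑ A ∈ F.filter (fun A => e ∈ A), fc p g A ^ 2 ≤ sB p ^ a * θ * inflE p g e := by
    intro e he
    have hlt : inflE p g e < θ ^ 2 := not_le.mp (mem_filter.mp he).2
    have hsb := star_bound h0 h1 g hg e (F.filter (fun A => e ∈ A)) a (by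
      intro A hA
      obtain ⟨h2, h3⟩ := mem_filter.mp hA
      exact ⟨h3, (hF A h2).2⟩)
    have hsq : √(inflE p g e) ≤ θ := by
      rw [show θ = √(θ ^ 2) from (Real.sqrt_sq hθ).symm]
      exact Real.sqrt_le_sqrt hlt.le
    calc _ ≤ _ := hsb
      _ ≤ sB p ^ a * (inflE p g e * θ) :=
          mul_le_mul_of_nonneg_left (mul_le_mul_of_nonneg_left hsq (hnn e)) hτ
      _ = _ := by ring
  calc ∑ e ∈ R.filter (fun e => ¬ θ ^ 2 ≤ inflE p g e), ∑ A ∈ F.filter (fun A => e ∈ A), fc p g A ^ 2
      ≤ ∑ e ∈ R.filter (fun e => ¬ θ ^ 2 ≤ inflE p g e), sB p ^ a * θ * inflE p g e := sum_le_sum hstep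
    _ ≤ ∑ e ∈ R, sB p ^ a * θ * inflE p g e := by
        apply sum_le_sum_of_subset_of_nonneg (filter_subset _ _)
        intro e _ _
        have := hnn e
        positivity
    _ = _ := by rw [mul_sum]

/-- the number of subsets of size at most `a` -/
lemma card_low_subsets (J : Finset ι) (a : ℕ) :
    ((J.powerset.filter (fun A => A.card ≤ a)).card : ℝ) ≤ (1 + (J.card : ℝ)) ^ a := by
  induction a with
  | zero =>
    have : J.powerset.filter (fun A => A.card ≤ 0) ⊆ {∅} := by
      intro A hA
      have := (mem_filter.mp hA).2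
      have h2 : A = ∅ := card_eq_zero.mp (by omega)
      simp [h2]
    have h3 := card_le_card this
    simp only [card_singleton] at h3
    have h4 : ((J.powerset.filter (fun A => A.card ≤ 0)).card : ℝ) ≤ 1 := by exact_mod_cast h3
    simpa using h4
  | succ a ih =>
    have hsplit : J.powerset.filter (fun A => A.card ≤ a + 1)
        ⊆ J.powerset.filter (fun A => A.card ≤ a) ∪ J.powersetCard (a + 1) := by
      intro A hA
      obtain ⟨h2, h3⟩ := mem_filter.mp hA
      rcases Nat.lt_or_ge a A.card with h4 | h4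
      · apply mem_union_right
        exact mem_powersetCard.mpr ⟨mem_powerset.mp h2, by omega⟩
      · apply mem_union_left
        exact mem_filter.mpr ⟨h2, h4⟩
    have h5 := le_trans (card_le_card hsplit) (card_union_le _ _)
    rw [card_powersetCard] at h5
    have h6 : J.card.choose (a + 1) ≤ J.card * (J.powerset.filter (fun A => A.card ≤ a)).card := by
      have h7 : J.card.choose (a + 1) ≤ J.card * J.card.choose a := by
        have h8 := Nat.choose_succ_right_eq J.card a
        have h9 : J.card.choose (a + 1) ≤ J.card.choose (a + 1) * (a + 1) :=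
          Nat.le_mul_of_pos_right _ (Nat.succ_pos a)
        calc _ ≤ _ := h9
          _ = J.card.choose a * (J.card - a) := h8
          _ ≤ J.card.choose a * J.card := Nat.mul_le_mul_left _ (Nat.sub_le _ _)
          _ = _ := Nat.mul_comm _ _
      have h10 : J.card.choose a ≤ (J.powerset.filter (fun A => A.card ≤ a)).card := by
        rw [← card_powersetCard]
        apply card_le_card
        intro A hA
        obtain ⟨h2, h3⟩ := mem_powersetCard.mp hA
        exact mem_filter.mpr ⟨mem_powerset.mpr h2, h3.le⟩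
      exact le_trans h7 (Nat.mul_le_mul_left _ h10)
    have h11 : (J.powerset.filter (fun A => A.card ≤ a + 1)).card
        ≤ (1 + J.card) * (J.powerset.filter (fun A => A.card ≤ a)).card := by
      rw [add_mul, one_mul]
      omega
    have h12 : ((J.powerset.filter (fun A => A.card ≤ a + 1)).card : ℝ)
        ≤ (1 + (J.card : ℝ)) * ((J.powerset.filter (fun A => A.card ≤ a)).card : ℝ) := by
      exact_mod_cast h11
    calc _ ≤ _ := h12
      _ ≤ (1 + (J.card : ℝ)) * (1 + (J.card : ℝ)) ^ a :=
          mul_le_mul_of_nonneg_left ih (by positivity)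
      _ = _ := by ring

end Vale.Agent.P063
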