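import Vale.Agent.P063.Core

/-!
Random selection of coordinates: hitting probabilities for bundles.
-/

set_option linter.unusedSectionVars false
set_option linter.unusedSimpArgs false
set_option linter.unusedVariables false

namespace Vale.Agent.P063

open Finset Function

variable {κ : Type*} [Fintype κ] [DecidableEq κ] {π : ℝ}

/-- indicator that a coordinate is selected -/
def sel (k : κ) (ρ : κ → Bool) : ℝ := if ρ k then 1 else 0

lemma sel_update_of_ne {k j : κ} (h : k ≠ j) (ρ : κ → Bool) (b : Bool) :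
    sel k (update ρ j b) = sel k ρ := by
  unfold sel
  rw [update_of_ne h]

lemma cE_sel (π : ℝ) (k : κ) : cE π (sel k) = π := by
  have h := cE_mul_coord π k (fun _ : κ → Bool => (1 : ℝ)) (fun _ _ => rfl)
    (fun b => if b then (1 : ℝ) else 0)
  rw [cE_const] at h
  have e : (fun x : κ → Bool => (1 : ℝ) * (if x k then (1 : ℝ) else 0)) = sel k := by
    funext x; simp [sel]
  rw [e] at h
  rw [h]
  simp

lemma cE_sel_two (π : ℝ) {k j : κ} (h : k ≠ j) :
    cE π (fun ρ => sel k ρ * sel j ρ) = π ^ 2 := by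
  have h2 := cE_mul_coord π j (sel k) (fun ρ b => sel_update_of_ne h ρ b)
    (fun b => if b then (1 : ℝ) else 0)
  have e : (fun x : κ → Bool => sel k x * (if x j then (1 : ℝ) else 0))
      = fun ρ => sel k ρ * sel j ρ := by
    funext x; simp [sel]
  rw [e] at h2
  rw [h2, cE_sel]
  simp
  ring

lemma sel_sq (k : κ) (ρ : κ → Bool) : sel k ρ * sel k ρ = sel k ρ := by
  unfold sel
  split_ifs <;> norm_num

/-- number of selected coordinates in `B` -/
lemma sum_sel_eq_card (B : Finset κ) (ρ : κ → Bool) :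
    ∑ k ∈ B, sel k ρ = ((B.filter (fun k => ρ k = true)).card : ℝ) := by
  unfold sel
  rw [← sum_filter]
  simp

/-- a bundle of `q` coordinates is hit with probability at least one half -/
lemma hit_prob (h0 : 0 ≤ π) (h1 : π ≤ 1) (B : Finset κ) (hB : (B.card : ℝ) * π = 1) :
    1 / 2 ≤ cE π (fun ρ => if ∃ k ∈ B, ρ k = true then (1 : ℝ) else 0) := by
  -- pointwise inequality
  have hpt : ∀ ρ : κ → Bool,
      (3 * ∑ k ∈ B, sel k ρ - ∑ k ∈ B, ∑ j ∈ B, sel k ρ * sel j ρ) / 2
        ≤ if ∃ k ∈ B, ρ k = true then (1 : ℝ) else 0 := by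
    intro ρ
    have e1 : ∑ k ∈ B, ∑ j ∈ B, sel k ρ * sel j ρ = (∑ k ∈ B, sel k ρ) ^ 2 := by
      rw [pow_two, sum_mul_sum]
    rw [e1, sum_sel_eq_card]
    set N := (B.filter (fun k => ρ k = true)).card with hN
    by_cases hex : ∃ k ∈ B, ρ k = true
    · rw [if_pos hex]
      have : (0 : ℝ) ≤ ((N : ℝ) - 1) * ((N : ℝ) - 2) := by
        rcases N with _ | _ | N
        · norm_num
        · norm_num
        · push_cast
          have : (0 : ℝ) ≤ N := Nat.cast_nonneg N
          nlinarith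
      nlinarith
    · rw [if_neg hex]
      have : N = 0 := by
        rw [hN, card_eq_zero, filter_eq_empty_iff]
        intro k hk hρ
        exact hex ⟨k, hk, hρ⟩
      rw [this]
      norm_num
  have hm := cE_mono (ι := κ) h0 h1 hpt
  refine le_trans ?_ hm
  -- the expectation of the lower bound
  have e1 : cE π (fun ρ => (3 * ∑ k ∈ B, sel k ρ - ∑ k ∈ B, ∑ j ∈ B, sel k ρ * sel j ρ) / 2)
      = (3 * ∑ k ∈ B, cE π (sel k) - ∑ k ∈ B, ∑ j ∈ B, cE π (fun ρ => sel k ρ * sel j ρ)) / 2 := by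
    have : (fun ρ : κ → Bool => (3 * ∑ k ∈ B, sel k ρ - ∑ k ∈ B, ∑ j ∈ B, sel k ρ * sel j ρ) / 2)
        = fun ρ => (3 * ∑ k ∈ B, sel k ρ - ∑ k ∈ B, ∑ j ∈ B, sel k ρ * sel j ρ) * (1 / 2) := by
      funext ρ; ring
    rw [this, cE_mul_const, cE_sub, cE_const_mul, cE_sum]
    have h2 : cE π (fun ρ => ∑ k ∈ B, ∑ j ∈ B, sel k ρ * sel j ρ)
        = ∑ k ∈ B, ∑ j ∈ B, cE π (fun ρ => sel k ρ * sel j ρ) := by
      rw [cE_sum]
      apply sum_congr rfl
      intro k _
      rw [cE_sum]
    rw [h2]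
    ring
  rw [e1]
  have h3 : ∀ k ∈ B, ∑ j ∈ B, cE π (fun ρ => sel k ρ * sel j ρ) ≤ π + (B.card : ℝ) * π ^ 2 := by
    intro k hk
    rw [← add_sum_erase B _ hk]
    have e2 : cE π (fun ρ => sel k ρ * sel k ρ) = π := by
      simp only [sel_sq]
      exact cE_sel π k
    rw [e2]
    have h4 : ∑ j ∈ B.erase k, cE π (fun ρ => sel k ρ * sel j ρ) = ((B.erase k).card : ℝ) * π ^ 2 := by
      rw [← nsmul_eq_mul, ← sum_const]
      apply sum_congr rfl
      intro j hj
      exact cE_sel_two π (ne_of_mem_erase hj).symm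
    rw [h4]
    have h5 : ((B.erase k).card : ℝ) ≤ B.card := by
      exact_mod_cast card_le_card (erase_subset k B)
    have h6 : 0 ≤ π ^ 2 := sq_nonneg _
    nlinarith
  have h7 : ∑ k ∈ B, ∑ j ∈ B, cE π (fun ρ => sel k ρ * sel j ρ)
      ≤ (B.card : ℝ) * (π + (B.card : ℝ) * π ^ 2) := by
    calc _ ≤ ∑ k ∈ B, (π + (B.card : ℝ) * π ^ 2) := sum_le_sum h3
      _ = _ := by rw [sum_const, nsmul_eq_mul]
  have h8 : ∑ k ∈ B, cE π (sel k) = (B.card : ℝ) * π := by
    simp only [cE_sel]
    rw [sum_const, nsmul_eq_mul]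
  rw [h8, hB]
  have h9 : (B.card : ℝ) * (π + (B.card : ℝ) * π ^ 2) = (B.card : ℝ) * π + ((B.card : ℝ) * π) ^ 2 := by
    ring
  rw [h9, hB] at h7
  linarith

/-- the good selection event has probability at least one sixth -/
lemma coverage_prob (h0 : 0 ≤ π) (h1 : π ≤ 1) (T : ℕ) (hT : 0 < T) (B : ℕ → Finset κ)
    (hB : ∀ i < T, ((B i).card : ℝ) * π = 1) (Z : Finset κ) (a : ℕ) (ha : 0 < a)
    (hZ : 6 * ((Z.card : ℝ) * π) ≤ a) :
    1 / 6 ≤ cE π (fun ρ => if (T ≤ 4 * ((range T).filter (fun i => ∃ k ∈ B i, ρ k = true)).card)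
        ∧ (Z.filter (fun k => ρ k = true)).card ≤ a then (1 : ℝ) else 0) := by
  have hTr : (0 : ℝ) < T := by exact_mod_cast hT
  have har : (0 : ℝ) < a := by exact_mod_cast ha
  set Wr : (κ → Bool) → ℝ := fun ρ => ∑ i ∈ range T, (if ∃ k ∈ B i, ρ k = true then (1 : ℝ) else 0) with hWr
  have hWcard : ∀ ρ, Wr ρ = (((range T).filter (fun i => ∃ k ∈ B i, ρ k = true)).card : ℝ) := by
    intro ρ
    simp only [hWr]
    rw [← sum_filter]
    simp
  have hWle : ∀ ρ, Wr ρ ≤ T := by
    intro ρ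
    rw [hWcard]
    have : ((range T).filter (fun i => ∃ k ∈ B i, ρ k = true)).card ≤ (range T).card :=
      card_le_card (filter_subset _ _)
    rw [card_range] at this
    exact_mod_cast this
  set Zr : (κ → Bool) → ℝ := fun ρ => ∑ k ∈ Z, sel k ρ with hZr
  have hZcard : ∀ ρ, Zr ρ = ((Z.filter (fun k => ρ k = true)).card : ℝ) := fun ρ => sum_sel_eq_card Z ρ
  have hpt : ∀ ρ : κ → Bool, (4 * Wr ρ - T) * (1 / (3 * T)) - Zr ρ * (1 / a)
      ≤ if (T ≤ 4 * ((range T).filter (fun i => ∃ k ∈ B i, ρ k = true)).card)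
        ∧ (Z.filter (fun k => ρ k = true)).card ≤ a then (1 : ℝ) else 0 := by
    intro ρ
    have hW1 := hWle ρ
    have hZ0 : 0 ≤ Zr ρ := by rw [hZcard]; positivity
    have hZa : 0 ≤ Zr ρ * (1 / a) := by positivity
    have hWb : (4 * Wr ρ - T) * (1 / (3 * T)) ≤ 1 := by
      rw [mul_one_div, div_le_one (by positivity)]
      linarith
    split_ifs with hg
    · linarith
    · rw [not_and_or] at hg
      rcases hg with hg | hg
      · have h4 : 4 * Wr ρ < T := by
          rw [hWcard]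
          have : 4 * ((range T).filter (fun i => ∃ k ∈ B i, ρ k = true)).card < T := not_le.mp hg
          exact_mod_cast this
        have h5 : (4 * Wr ρ - T) * (1 / (3 * T)) ≤ 0 := by
          apply mul_nonpos_of_nonpos_of_nonneg (by linarith) (by positivity)
        linarith
      · have h4 : (a : ℝ) < Zr ρ := by
          rw [hZcard]
          have : a < (Z.filter (fun k => ρ k = true)).card := not_le.mp hg
          exact_mod_cast this
        have h5 : 1 < Zr ρ * (1 / a) := by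
          rw [mul_one_div, one_lt_div har]
          exact h4
        linarith
  have hm := cE_mono (ι := κ) h0 h1 hpt
  refine le_trans ?_ hm
  rw [cE_sub, cE_mul_const, cE_mul_const, cE_sub, cE_const_mul, cE_const]
  have hEW : (T : ℝ) / 2 ≤ cE π Wr := by
    simp only [hWr]
    rw [cE_sum]
    calc (T : ℝ) / 2 = ∑ i ∈ range T, (1 / 2 : ℝ) := by
          rw [sum_const, card_range, nsmul_eq_mul]; ring
      _ ≤ _ := by
          apply sum_le_sum
          intro i hi
          exact hit_prob h0 h1 (B i) (hB i (mem_range.mp hi))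
  have hEZ : cE π Zr = (Z.card : ℝ) * π := by
    simp only [hZr]
    rw [cE_sum]
    simp only [cE_sel]
    rw [sum_const, nsmul_eq_mul]
  rw [hEZ]
  have h5 : ((Z.card : ℝ) * π) * (1 / a) ≤ 1 / 6 := by
    rw [mul_one_div, div_le_iff₀ har]
    linarith
  have h6 : (1 : ℝ) / 3 ≤ (4 * cE π Wr - T) * (1 / (3 * T)) := by
    rw [mul_one_div, le_div_iff₀ (by positivity)]
    have : (1 : ℝ) / 3 * (3 * T) = T := by ring
    rw [this]
    linarith
  linarith

end Vale.Agent.P063
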