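import Vale.Agent.P063.Hyper

/-!
Symmetrisation over all permutations of the vertices: most permutations make a small vertex
set rainbow. The residue colouring.
-/

set_option linter.unusedSectionVars false
set_option linter.unusedSimpArgs false
set_option linter.unusedVariables false

namespace Vale.Agent.P063

open Finset Function

variable {n r : ℕ} {C : Type*} [Fintype C] [DecidableEq C] {c : Fin n → C}

/-- the probability that two given vertices get the same colour after a random permutation -/
lemma pair_count (L : ℝ) (hL : 0 < L)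
    (hcl : ∀ a, ((univ.filter (fun b => b ≠ a ∧ c b = c a)).card : ℝ) * L ≤ (n : ℝ) - 1)
    {u v : Fin n} (huv : u ≠ v) :
    ((univ.filter (fun σ : Equiv.Perm (Fin n) => c (σ u) = c (σ v))).card : ℝ) * L
      ≤ (n.factorial : ℝ) := by
  set Nab : Fin n → Fin n → ℕ := fun a b =>
    (univ.filter (fun σ : Equiv.Perm (Fin n) => σ u = a ∧ σ v = b)).card with hNab
  set Na : Fin n → ℕ := fun a => (univ.filter (fun σ : Equiv.Perm (Fin n) => σ u = a)).card with hNa
  have heq : ∀ a b b', b ≠ a → b' ≠ a → Nab a b = Nab a b' := by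
    intro a b b' hb hb'
    simp only [hNab]
    apply card_nbij' (fun σ => Equiv.swap b b' * σ) (fun σ => Equiv.swap b b' * σ)
    · intro σ hσ
      have hσ' := (mem_filter.mp (mem_coe.mp hσ)).2
      refine mem_coe.mpr (mem_filter.mpr ⟨mem_univ _, ?_, ?_⟩)
      · rw [Equiv.Perm.mul_apply, hσ'.1]
        exact Equiv.swap_apply_of_ne_of_ne hb.symm hb'.symm
      · rw [Equiv.Perm.mul_apply, hσ'.2]
        exact Equiv.swap_apply_left b b'
    · intro σ hσ
      have hσ' := (mem_filter.mp (mem_coe.mp hσ)).2
      refine mem_coe.mpr (mem_filter.mpr ⟨mem_univ _, ?_, ?_⟩)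
      · rw [Equiv.Perm.mul_apply, hσ'.1]
        exact Equiv.swap_apply_of_ne_of_ne hb.symm hb'.symm
      · rw [Equiv.Perm.mul_apply, hσ'.2]
        exact Equiv.swap_apply_right b b'
    · intro σ _
      simp only [← mul_assoc, Equiv.swap_mul_self, one_mul]
    · intro σ _
      simp only [← mul_assoc, Equiv.swap_mul_self, one_mul]
  have hsum : ∀ a, ∑ b ∈ univ.erase a, Nab a b = Na a := by
    intro a
    simp only [hNa]
    rw [card_eq_sum_card_fiberwise (f := fun σ : Equiv.Perm (Fin n) => σ v) (t := univ.erase a)]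
    · apply sum_congr rfl
      intro b _
      simp only [hNab]
      congr 1
      ext σ
      simp only [mem_filter, mem_univ, true_and]
    · intro σ hσ
      have hσ' := (mem_filter.mp (mem_coe.mp hσ)).2
      refine mem_coe.mpr (mem_erase.mpr ⟨?_, mem_univ _⟩)
      intro h
      have h' : σ v = a := h
      apply huv
      apply σ.injective
      rw [hσ', h']
  have hn1 : ∀ a b, b ≠ a → ((n : ℝ) - 1) * (Nab a b : ℝ) = (Na a : ℝ) := by
    intro a b hb
    have h1 : ∑ b' ∈ univ.erase a, Nab a b' = (univ.erase a).card * Nab a b := by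
      rw [← smul_eq_mul, ← sum_const]
      apply sum_congr rfl
      intro b' hb'
      exact heq a b' b (ne_of_mem_erase hb') hb
    have h2 := hsum a
    rw [h1, card_erase_of_mem (mem_univ a), card_univ, Fintype.card_fin] at h2
    have hn : 1 ≤ n := by
      have := a.isLt
      omega
    rw [← h2]
    push_cast [Nat.cast_sub hn]
    ring
  have hbad : ∀ a, ((univ.filter (fun σ : Equiv.Perm (Fin n) => c (σ u) = c (σ v) ∧ σ u = a)).card : ℝ) * L
      ≤ (Na a : ℝ) := by
    intro a
    set Ba := univ.filter (fun b => b ≠ a ∧ c b = c a) with hBa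
    have h1 : (univ.filter (fun σ : Equiv.Perm (Fin n) => c (σ u) = c (σ v) ∧ σ u = a)).card
        = ∑ b ∈ Ba, Nab a b := by
      rw [card_eq_sum_card_fiberwise (f := fun σ : Equiv.Perm (Fin n) => σ v) (t := Ba)]
      · apply sum_congr rfl
        intro b hb
        simp only [hNab]
        congr 1
        ext σ
        simp only [mem_filter, mem_univ, true_and]
        have hb' := (mem_filter.mp hb).2
        constructor
        · rintro ⟨⟨_, h3⟩, h4⟩
          exact ⟨h3, h4⟩
        · rintro ⟨h3, h4⟩
          refine ⟨⟨?_, h3⟩, h4⟩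
          rw [h3, h4, hb'.2]
      · intro σ hσ
        have hσ' := (mem_filter.mp (mem_coe.mp hσ)).2
        refine mem_coe.mpr (mem_filter.mpr ⟨mem_univ _, ?_, ?_⟩)
        · intro h
          have h' : σ v = a := h
          apply huv
          apply σ.injective
          rw [hσ'.2, h']
        · rw [← hσ'.1, hσ'.2]
    rw [h1]
    rcases Ba.eq_empty_or_nonempty with hemp | ⟨b₀, hb₀⟩
    · rw [hemp]
      simp only [sum_empty, Nat.cast_zero, zero_mul]
      positivity
    · have hb₀' := (mem_filter.mp hb₀).2.1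
      have h2 : ∑ b ∈ Ba, Nab a b = Ba.card * Nab a b₀ := by
        rw [← smul_eq_mul, ← sum_const]
        apply sum_congr rfl
        intro b hb
        exact heq a b b₀ (mem_filter.mp hb).2.1 hb₀'
      rw [h2, ← hn1 a b₀ hb₀']
      push_cast
      have h3 := hcl a
      have h4 : (0 : ℝ) ≤ (Nab a b₀ : ℝ) := Nat.cast_nonneg _
      calc (Ba.card : ℝ) * (Nab a b₀ : ℝ) * L = ((Ba.card : ℝ) * L) * (Nab a b₀ : ℝ) := by ring
        _ ≤ ((n : ℝ) - 1) * (Nab a b₀ : ℝ) := mul_le_mul_of_nonneg_right h3 h4
  have htot : ∑ a, Na a = n.factorial := by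
    simp only [hNa]
    rw [← card_eq_sum_card_fiberwise (f := fun σ : Equiv.Perm (Fin n) => σ u) (s := univ) (t := univ)]
    · rw [card_univ, Fintype.card_perm, Fintype.card_fin]
    · intro σ _
      exact mem_coe.mpr (mem_univ _)
  have hsplit : (univ.filter (fun σ : Equiv.Perm (Fin n) => c (σ u) = c (σ v))).card
      = ∑ a, (univ.filter (fun σ : Equiv.Perm (Fin n) => c (σ u) = c (σ v) ∧ σ u = a)).card := by
    rw [card_eq_sum_card_fiberwise (f := fun σ : Equiv.Perm (Fin n) => σ u) (t := univ)]
    · apply sum_congr rfl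
      intro a _
      congr 1
      ext σ
      simp only [mem_filter, mem_univ, true_and]
    · intro σ _
      exact mem_coe.mpr (mem_univ _)
  rw [hsplit]
  push_cast
  rw [sum_mul]
  calc _ ≤ ∑ a, (Na a : ℝ) := sum_le_sum (fun a _ => hbad a)
    _ = _ := by exact_mod_cast htot

/-- most permutations make a small vertex set rainbow -/
lemma rainbow_count (L : ℝ) (hL : 0 < L)
    (hcl : ∀ a, ((univ.filter (fun b => b ≠ a ∧ c b = c a)).card : ℝ) * L ≤ (n : ℝ) - 1)
    (V : Finset (Fin n)) (hV : 2 * ((V.card : ℝ) ^ 2) ≤ L) :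
    (n.factorial : ℝ) ≤ 2 * ((univ.filter (fun σ : Equiv.Perm (Fin n) =>
      open Classical in Set.InjOn c ((V.map σ.toEmbedding : Finset (Fin n)) : Set (Fin n)))).card : ℝ) := by
  classical
  set Good := univ.filter (fun σ : Equiv.Perm (Fin n) =>
      Set.InjOn c ((V.map σ.toEmbedding : Finset (Fin n)) : Set (Fin n))) with hGood
  set Bad := univ.filter (fun σ : Equiv.Perm (Fin n) =>
      ¬ Set.InjOn c ((V.map σ.toEmbedding : Finset (Fin n)) : Set (Fin n))) with hBad
  have htot : Good.card + Bad.card = n.factorial := by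
    have := card_filter_add_card_filter_not (s := (univ : Finset (Equiv.Perm (Fin n))))
      (fun σ : Equiv.Perm (Fin n) =>
        Set.InjOn c ((V.map σ.toEmbedding : Finset (Fin n)) : Set (Fin n)))
    rw [card_univ, Fintype.card_perm, Fintype.card_fin] at this
    exact this
  have hsub : Bad ⊆ V.offDiag.biUnion (fun z =>
      univ.filter (fun σ : Equiv.Perm (Fin n) => c (σ z.1) = c (σ z.2))) := by
    intro σ hσ
    have h1 := (mem_filter.mp hσ).2
    unfold Set.InjOn at h1
    push Not at h1
    obtain ⟨x, hx, y, hy, hxy, hne⟩ := h1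
    obtain ⟨u, hu, rfl⟩ := mem_map.mp (mem_coe.mp hx)
    obtain ⟨v, hv, rfl⟩ := mem_map.mp (mem_coe.mp hy)
    refine mem_biUnion.mpr ⟨(u, v), mem_offDiag.mpr ⟨hu, hv, ?_⟩, mem_filter.mpr ⟨mem_univ _, hxy⟩⟩
    intro h
    have h' : u = v := h
    rw [h'] at hne
    exact hne rfl
  have hBadle : (Bad.card : ℝ) * L ≤ (V.card : ℝ) ^ 2 * (n.factorial : ℝ) := by
    have h1 : Bad.card ≤ ∑ z ∈ V.offDiag,
        (univ.filter (fun σ : Equiv.Perm (Fin n) => c (σ z.1) = c (σ z.2))).card :=
      le_trans (card_le_card hsub) card_biUnion_le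
    have h2 : (Bad.card : ℝ) ≤ ∑ z ∈ V.offDiag,
        ((univ.filter (fun σ : Equiv.Perm (Fin n) => c (σ z.1) = c (σ z.2))).card : ℝ) := by
      exact_mod_cast h1
    calc (Bad.card : ℝ) * L ≤ (∑ z ∈ V.offDiag,
          ((univ.filter (fun σ : Equiv.Perm (Fin n) => c (σ z.1) = c (σ z.2))).card : ℝ)) * L :=
          mul_le_mul_of_nonneg_right h2 hL.le
      _ = ∑ z ∈ V.offDiag,
          ((univ.filter (fun σ : Equiv.Perm (Fin n) => c (σ z.1) = c (σ z.2))).card : ℝ) * L := by
          rw [sum_mul]
      _ ≤ ∑ z ∈ V.offDiag, (n.factorial : ℝ) := by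
          apply sum_le_sum
          intro z hz
          exact pair_count L hL hcl (mem_offDiag.mp hz).2.2
      _ = (V.offDiag.card : ℝ) * (n.factorial : ℝ) := by rw [sum_const, nsmul_eq_mul]
      _ ≤ (V.card : ℝ) ^ 2 * (n.factorial : ℝ) := by
          apply mul_le_mul_of_nonneg_right _ (by positivity)
          rw [offDiag_card]
          have : V.card * V.card - V.card ≤ V.card ^ 2 := by
            rw [pow_two]; exact Nat.sub_le _ _
          exact_mod_cast this
  have hfac : (0 : ℝ) < n.factorial := by exact_mod_cast Nat.factorial_pos n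
  have hBad2 : 2 * (Bad.card : ℝ) ≤ (n.factorial : ℝ) := by
    have h3 : (Bad.card : ℝ) * L ≤ (L / 2) * (n.factorial : ℝ) := by
      refine le_trans hBadle (mul_le_mul_of_nonneg_right ?_ hfac.le)
      linarith
    have h4 : L * (2 * (Bad.card : ℝ)) ≤ L * (n.factorial : ℝ) := by nlinarith
    exact le_of_mul_le_mul_left h4 hL
  have htot' : (Good.card : ℝ) + (Bad.card : ℝ) = (n.factorial : ℝ) := by exact_mod_cast htot
  linarith

lemma edgePerm_inv (σ : Equiv.Perm (Fin n)) (e : Edge n r) :
    edgePerm σ⁻¹ (edgePerm σ e) = e := by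
  apply Subtype.ext
  rw [edgePerm_val, edgePerm_val, map_map]
  ext v
  simp

lemma edgePerm_inv' (σ : Equiv.Perm (Fin n)) (e : Edge n r) :
    edgePerm σ (edgePerm σ⁻¹ e) = e := by
  have := edgePerm_inv σ⁻¹ e
  rwa [inv_inv] at this

/-- symmetrisation over the vertex permutations -/
theorem sym_band (w : Finset (Edge n r) → ℝ) (hw0 : ∀ S, 0 ≤ w S)
    (hw : ∀ (σ : Equiv.Perm (Fin n)) S, w (S.map (edgePerm σ).toEmbedding) = w S)
    (Band : Finset (Finset (Edge n r)))
    (hB : ∀ (σ : Equiv.Perm (Fin n)), ∀ S ∈ Band, S.map (edgePerm σ).toEmbedding ∈ Band)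
    (h : ∀ S ∈ Band, (n.factorial : ℝ) ≤ 2 * ((univ.filter (fun σ : Equiv.Perm (Fin n) =>
      open Classical in Set.InjOn c (((vset S).map σ.toEmbedding : Finset (Fin n)) : Set (Fin n)))).card : ℝ)) :
    ∑ S ∈ Band, w S ≤ 2 * ∑ S ∈ Band,
      (open Classical in if Set.InjOn c ((vset S : Finset (Fin n)) : Set (Fin n)) then w S else 0) := by
  classical
  set g : Finset (Edge n r) → ℝ := fun S =>
    if Set.InjOn c ((vset S : Finset (Fin n)) : Set (Fin n)) then 1 else 0 with hg
  set Tsum := ∑ S ∈ Band, w S * g S with hTsum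
  have e1 : ∑ S ∈ Band, (if Set.InjOn c ((vset S : Finset (Fin n)) : Set (Fin n)) then w S else 0)
      = Tsum := by
    apply sum_congr rfl
    intro S _
    simp only [hg]
    split_ifs <;> simp
  rw [e1]
  have hσ : ∀ σ : Equiv.Perm (Fin n),
      ∑ S ∈ Band, w S * g (S.map (edgePerm σ).toEmbedding) = Tsum := by
    intro σ
    simp only [hTsum]
    apply sum_nbij' (fun S => S.map (edgePerm σ).toEmbedding)
      (fun S => S.map (edgePerm σ⁻¹).toEmbedding)
    · intro S hS
      exact hB σ S hS
    · intro S hS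
      exact hB σ⁻¹ S hS
    · intro S _
      rw [map_map]
      ext e
      simp only [mem_map, Function.Embedding.trans_apply, Equiv.coe_toEmbedding]
      constructor
      · rintro ⟨e', he', rfl⟩
        rwa [edgePerm_inv]
      · intro he
        exact ⟨e, he, edgePerm_inv σ e⟩
    · intro S _
      rw [map_map]
      ext e
      simp only [mem_map, Function.Embedding.trans_apply, Equiv.coe_toEmbedding]
      constructor
      · rintro ⟨e', he', rfl⟩
        rwa [edgePerm_inv']
      · intro he
        exact ⟨e, he, edgePerm_inv' σ e⟩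
    · intro S _
      rw [hw]
  have hsw : (n.factorial : ℝ) * Tsum
      = ∑ S ∈ Band, w S * ((univ.filter (fun σ : Equiv.Perm (Fin n) =>
          Set.InjOn c (((vset S).map σ.toEmbedding : Finset (Fin n)) : Set (Fin n)))).card : ℝ) := by
    have hc : (n.factorial : ℝ) * Tsum = ∑ σ : Equiv.Perm (Fin n), Tsum := by
      rw [sum_const, card_univ, Fintype.card_perm, Fintype.card_fin, nsmul_eq_mul]
    rw [hc]
    rw [sum_congr rfl (fun σ _ => (hσ σ).symm)]
    rw [sum_comm]
    apply sum_congr rfl
    intro S _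
    rw [← mul_sum]
    congr 1
    rw [card_filter]
    push_cast
    apply sum_congr rfl
    intro σ _
    simp only [hg, vset_map, coe_map]
  have hfac : (0 : ℝ) < n.factorial := by exact_mod_cast Nat.factorial_pos n
  have hlow : (n.factorial : ℝ) * ∑ S ∈ Band, w S ≤ (n.factorial : ℝ) * (2 * Tsum) := by
    have : (n.factorial : ℝ) * (2 * Tsum) = 2 * ((n.factorial : ℝ) * Tsum) := by ring
    rw [this, hsw, mul_sum, mul_sum]
    apply sum_le_sum
    intro S hS
    have h3 := h S hS
    have h4 := hw0 S
    calc (n.factorial : ℝ) * w S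
        ≤ (2 * ((univ.filter (fun σ : Equiv.Perm (Fin n) =>
            Set.InjOn c (((vset S).map σ.toEmbedding : Finset (Fin n)) : Set (Fin n)))).card : ℝ)) * w S :=
          mul_le_mul_of_nonneg_right h3 h4
      _ = _ := by ring
  exact le_of_mul_le_mul_left hlow hfac

/-- the residue colouring -/
def modC (L : ℕ) (hL : 0 < L) (v : Fin n) : Fin L := ⟨v.val % L, Nat.mod_lt _ hL⟩

lemma modC_class_lower (L : ℕ) (hL : 0 < L) (k : Fin L) :
    n / L ≤ (univ.filter (fun v : Fin n => modC L hL v = k)).card := by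
  have h1 : (range (n / L)).card ≤ (univ.filter (fun v : Fin n => modC L hL v = k)).card := by
    apply card_le_card_of_forall_subsingleton (fun j v => v.val = k.val + j * L)
    · intro j hj
      have hj' := mem_range.mp hj
      have hb : k.val + j * L < n := by
        have h2 : (j + 1) * L ≤ n / L * L := Nat.mul_le_mul_right L hj'
        have h3 : n / L * L ≤ n := Nat.div_mul_le_self n L
        have h4 := k.isLt
        nlinarith
      refine ⟨⟨k.val + j * L, hb⟩, mem_filter.mpr ⟨mem_univ _, ?_⟩, rfl⟩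
      apply Fin.ext
      simp only [modC]
      rw [Nat.add_mul_mod_self_right]
      exact Nat.mod_eq_of_lt k.isLt
    · intro v _ i hi j hj
      have h1 : k.val + i * L = k.val + j * L := by
        rw [← hi.2, ← hj.2]
      have h2 : i * L = j * L := by omega
      exact Nat.eq_of_mul_eq_mul_right hL h2
  rwa [card_range] at h1

lemma modC_class_upper (L : ℕ) (hL : 0 < L) (a : Fin n) :
    ((univ.filter (fun b : Fin n => b ≠ a ∧ modC L hL b = modC L hL a)).card : ℝ) * L ≤ (n : ℝ) - 1 := by
  have h1 : (univ.filter (fun b : Fin n => b ≠ a ∧ modC L hL b = modC L hL a)).card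
      ≤ ((range ((n - 1) / L + 1)).erase (a.val / L)).card := by
    apply card_le_card_of_injOn (fun b => b.val / L)
    · intro b hb
      obtain ⟨h2, h3⟩ := (mem_filter.mp (mem_coe.mp hb)).2 |> fun h => (⟨h.1, h.2⟩ : _ ∧ _)
      have h4 : b.val % L = a.val % L := congrArg Fin.val h3
      refine mem_coe.mpr (mem_erase.mpr ⟨?_, mem_range.mpr ?_⟩)
      · intro h5
        apply h2
        apply Fin.ext
        rw [← Nat.div_add_mod b.val L, ← Nat.div_add_mod a.val L, h4]
        simp only at h5
        rw [h5]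
      · have h6 : b.val ≤ n - 1 := by
          have := b.isLt
          omega
        exact Nat.lt_succ_of_le (Nat.div_le_div_right h6)
    · intro b hb b' hb' h
      have hb1 := (mem_filter.mp (mem_coe.mp hb)).2.2
      have hb2 := (mem_filter.mp (mem_coe.mp hb')).2.2
      have h4 : b.val % L = b'.val % L := by
        have h5 : b.val % L = a.val % L := congrArg Fin.val hb1
        have h6 : b'.val % L = a.val % L := congrArg Fin.val hb2
        omega
      apply Fin.ext
      rw [← Nat.div_add_mod b.val L, ← Nat.div_add_mod b'.val L, h4]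
      simp only at h
      rw [h]
  have hmem : a.val / L ∈ range ((n - 1) / L + 1) := by
    refine mem_range.mpr ?_
    have h6 : a.val ≤ n - 1 := by
      have := a.isLt
      omega
    have := Nat.div_le_div_right (c := L) h6
    omega
  rw [card_erase_of_mem hmem, card_range] at h1
  simp only [Nat.add_sub_cancel] at h1
  have h2 : (univ.filter (fun b : Fin n => b ≠ a ∧ modC L hL b = modC L hL a)).card * L ≤ n - 1 :=
    le_trans (Nat.mul_le_mul_right L h1) (Nat.div_mul_le_self _ _)
  have hn : 1 ≤ n := by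
    have := a.isLt
    omega
  have h3 : (((univ.filter (fun b : Fin n => b ≠ a ∧ modC L hL b = modC L hL a)).card * L : ℕ) : ℝ)
      ≤ ((n - 1 : ℕ) : ℝ) := by exact_mod_cast h2
  rw [Nat.cast_sub hn] at h3
  push_cast at h3
  exact h3

end Vale.Agent.P063
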