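import Vale.Agent.P063.Main

/-!
From the lower bound on the total influence to the threshold width.
-/

set_option linter.unusedSectionVars false
set_option linter.unusedSimpArgs false
set_option linter.unusedVariables false

namespace Vale.Agent.P063

open Finset Function Filter Topology

/-- the exponent -/
noncomputable def bet (r : ℕ) : ℝ := (r : ℝ) / ((r : ℝ) - 1)

lemma r_cast_sub {r : ℕ} (hr : 2 ≤ r) : ((r - 1 : ℕ) : ℝ) = (r : ℝ) - 1 := by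
  rw [Nat.cast_sub (by omega)]
  simp

lemma r_sub_pos {r : ℕ} (hr : 2 ≤ r) : 0 < (r : ℝ) - 1 := by
  have : (2 : ℝ) ≤ r := by exact_mod_cast hr
  linarith

lemma bet_ge_one {r : ℕ} (hr : 2 ≤ r) : 1 ≤ bet r := by
  unfold bet
  rw [one_le_div (r_sub_pos hr)]
  linarith

lemma bet_le_two {r : ℕ} (hr : 2 ≤ r) : bet r ≤ 2 := by
  unfold bet
  have : (2 : ℝ) ≤ r := by exact_mod_cast hr
  rw [div_le_iff₀ (r_sub_pos hr)]
  linarith

lemma bet_mul {r : ℕ} (hr : 2 ≤ r) : ((r : ℝ) - 1) * bet r = r := by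
  unfold bet
  have := (r_sub_pos hr).ne'
  field_simp

/-- the elementary bound on `v * λ ^ β` -/
lemma v_lam_le {v β : ℝ} (hv0 : 0 < v) (hv1 : v ≤ 1 / 4) (hβ2 : β ≤ 2) :
    v * Real.log (16 / v) ^ β ≤ 64 := by
  set u := 16 / v with hu
  have hu0 : 0 < u := by positivity
  have hlam1 : 1 ≤ Real.log u := by
    rw [Real.le_log_iff_exp_le hu0]
    have h2 : (64 : ℝ) ≤ u := by
      rw [hu, le_div_iff₀ hv0]
      linarith
    have h3 := Real.exp_one_lt_d9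
    linarith
  have h1 : Real.log u ^ β ≤ Real.log u ^ (2 : ℝ) :=
    Real.rpow_le_rpow_of_exponent_le hlam1 hβ2
  rw [Real.rpow_two] at h1
  have h2 : Real.log u ≤ 2 * √u := by
    have h3 : Real.log √u = Real.log u / 2 := Real.log_sqrt hu0.le
    have h4 : Real.log √u ≤ √u - 1 := Real.log_le_sub_one_of_pos (Real.sqrt_pos.mpr hu0)
    linarith
  have h5 : Real.log u ^ 2 ≤ 4 * u := by
    have h6 : (2 * √u) ^ 2 = 4 * u := by
      rw [mul_pow, Real.sq_sqrt hu0.le]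
      norm_num
    rw [← h6]
    exact pow_le_pow_left₀ (by linarith) h2 2
  have h7 : v * u = 16 := by
    rw [hu]
    field_simp
  calc v * Real.log u ^ β ≤ v * (4 * u) :=
        mul_le_mul_of_nonneg_left (le_trans h1 h5) hv0.le
    _ = 4 * (v * u) := by ring
    _ = 64 := by rw [h7]; norm_num

/-- conversion of the output of the central estimate to a power bound -/
lemma infl_rpow_bound {r : ℕ} (hr : 2 ≤ r) {z m lam v I V₀ : ℝ} (hz : 0 < z) (hm : 1 ≤ m)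
    (hlam : 1 ≤ lam) (hv0 : 0 < v) (hvlam : v * lam ^ bet r ≤ 64) (hI : 0 ≤ I) (hV0 : 0 < V₀)
    (h1 : z < m ^ (r - 1) * lam) (h2 : m ^ r * (V₀ / 2) ≤ v * I) :
    z ^ bet r * V₀ / 128 ≤ I := by
  have hβ0 : 0 < bet r := by
    have := bet_ge_one hr
    linarith
  have hm0 : 0 < m := by linarith
  have hlam0 : 0 < lam := by linarith
  have h3 : z ^ bet r ≤ m ^ r * lam ^ bet r := by
    have h4 : z ^ bet r ≤ (m ^ (r - 1) * lam) ^ bet r :=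
      Real.rpow_le_rpow hz.le h1.le hβ0.le
    have h5 : (m ^ (r - 1) * lam) ^ bet r = (m ^ (r - 1)) ^ bet r * lam ^ bet r :=
      Real.mul_rpow (by positivity) hlam0.le
    have h6 : (m ^ (r - 1) : ℝ) ^ bet r = m ^ r := by
      rw [← Real.rpow_natCast m (r - 1), ← Real.rpow_mul hm0.le, r_cast_sub hr, bet_mul hr,
        Real.rpow_natCast]
    rw [h5, h6] at h4
    exact h4
  have hl0 : 0 ≤ lam ^ bet r := by positivity
  have h7 : z ^ bet r * (V₀ / 2) ≤ lam ^ bet r * (v * I) := by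
    calc z ^ bet r * (V₀ / 2) ≤ (m ^ r * lam ^ bet r) * (V₀ / 2) :=
          mul_le_mul_of_nonneg_right h3 (by positivity)
      _ = lam ^ bet r * (m ^ r * (V₀ / 2)) := by ring
      _ ≤ _ := mul_le_mul_of_nonneg_left h2 hl0
  have h8 : lam ^ bet r * (v * I) ≤ 64 * I := by
    have e : lam ^ bet r * (v * I) = (v * lam ^ bet r) * I := by ring
    rw [e]
    exact mul_le_mul_of_nonneg_right hvlam hI
  have e : z ^ bet r * V₀ / 128 = (z ^ bet r * (V₀ / 2)) / 64 := by ring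
  rw [e, div_le_iff₀ (by norm_num)]
  linarith

/-- the abstract width bound -/
lemma width_abstract (μ I : ℝ → ℝ) (hd : ∀ q, HasDerivAt μ (I q) q)
    (hI0 : ∀ q ∈ Set.Icc (0 : ℝ) 1, 0 ≤ I q) (hμ1 : μ 1 = 1)
    (hμ01 : ∀ q ∈ Set.Icc (0 : ℝ) 1, 0 ≤ μ q ∧ μ q ≤ 1) {ε₀ p₀ G : ℝ} (h₀ : 0 < ε₀)
    (h₁ : ε₀ < 1 / 2) (hG : 0 < G)
    (hlow : ∀ q, p₀ ≤ q → q ≤ 1 - p₀ → ε₀ * (1 - ε₀) ≤ μ q * (1 - μ q) → G ≤ I q)
    (hp₀ : 0 < p₀) (hp₀1 : p₀ ≤ 1 / 2) :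
    sInf {q | q ∈ Set.Icc (0 : ℝ) 1 ∧ 1 - ε₀ ≤ μ q} - sInf {q | q ∈ Set.Icc (0 : ℝ) 1 ∧ ε₀ ≤ μ q}
      ≤ 1 / G + 2 * p₀ := by
  have hcont : Continuous μ := continuous_iff_continuousAt.mpr fun q => (hd q).continuousAt
  have hmono : MonotoneOn μ (Set.Icc (0 : ℝ) 1) := by
    apply monotoneOn_of_deriv_nonneg (convex_Icc 0 1) hcont.continuousOn
    · exact fun q _ => (hd q).differentiableAt.differentiableWithinAt
    · intro q hq
      rw [(hd q).deriv]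
      exact hI0 q (interior_subset hq)
  have hset : ∀ a : ℝ, a ≤ 1 → ({q | q ∈ Set.Icc (0 : ℝ) 1 ∧ a ≤ μ q}).Nonempty ∧
      IsClosed {q | q ∈ Set.Icc (0 : ℝ) 1 ∧ a ≤ μ q} ∧
      BddBelow {q | q ∈ Set.Icc (0 : ℝ) 1 ∧ a ≤ μ q} := by
    intro a ha
    refine ⟨⟨1, ⟨by norm_num, by norm_num⟩, by rw [hμ1]; exact ha⟩, ?_, ⟨0, fun q hq => hq.1.1⟩⟩
    have : {q | q ∈ Set.Icc (0 : ℝ) 1 ∧ a ≤ μ q} = Set.Icc (0 : ℝ) 1 ∩ μ ⁻¹' Set.Ici a := rfl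
    rw [this]
    exact isClosed_Icc.inter (isClosed_Ici.preimage hcont)
  obtain ⟨n0, c0, b0⟩ := hset ε₀ (by linarith)
  obtain ⟨n1, c1, b1⟩ := hset (1 - ε₀) (by linarith)
  set a₀ := sInf {q | q ∈ Set.Icc (0 : ℝ) 1 ∧ ε₀ ≤ μ q} with ha₀
  set a₁ := sInf {q | q ∈ Set.Icc (0 : ℝ) 1 ∧ 1 - ε₀ ≤ μ q} with ha₁
  have m0 : a₀ ∈ {q | q ∈ Set.Icc (0 : ℝ) 1 ∧ ε₀ ≤ μ q} := c0.csInf_mem n0 b0
  have m1 : a₁ ∈ {q | q ∈ Set.Icc (0 : ℝ) 1 ∧ 1 - ε₀ ≤ μ q} := c1.csInf_mem n1 b1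
  obtain ⟨⟨a00, a01⟩, a0μ⟩ := m0
  obtain ⟨⟨a10, a11⟩, a1μ⟩ := m1
  have hG1 : 0 < 1 / G := by positivity
  set a := max a₀ p₀ with ha
  set b := min a₁ (1 - p₀) with hb
  have hwidth : a₁ - a₀ ≤ (b + p₀) - (a - p₀) := by
    have h1 : a₁ ≤ b + p₀ := by
      rcases min_cases a₁ (1 - p₀) with ⟨h, _⟩ | ⟨h, _⟩
      · rw [hb, h]; linarith
      · rw [hb, h]; linarith
    have h2 : a - p₀ ≤ a₀ := by
      rcases max_cases a₀ p₀ with ⟨h, _⟩ | ⟨h, _⟩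
      · rw [ha, h]; linarith
      · rw [ha, h]; linarith
    linarith
  by_cases hab : a < b
  · have ha0 : a₀ ≤ a := le_max_left _ _
    have hap : p₀ ≤ a := le_max_right _ _
    have hb1 : b ≤ a₁ := min_le_left _ _
    have hbp : b ≤ 1 - p₀ := min_le_right _ _
    have haI : a ∈ Set.Icc (0 : ℝ) 1 := ⟨by linarith, by linarith⟩
    have hbI : b ∈ Set.Icc (0 : ℝ) 1 := ⟨by linarith, by linarith⟩
    obtain ⟨ξ, hξ, hξe⟩ := exists_hasDerivAt_eq_slope μ I hab hcont.continuousOn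
      (fun q _ => hd q)
    have hξI : ξ ∈ Set.Icc (0 : ℝ) 1 := ⟨by linarith [hξ.1], by linarith [hξ.2]⟩
    have hμlo : ε₀ ≤ μ ξ := by
      have : μ a₀ ≤ μ ξ := hmono ⟨a00, a01⟩ hξI (by linarith [hξ.1])
      linarith
    have hμhi : μ ξ ≤ 1 - ε₀ := by
      by_contra hc
      have hmem : ξ ∈ {q | q ∈ Set.Icc (0 : ℝ) 1 ∧ 1 - ε₀ ≤ μ q} := ⟨hξI, (not_le.mp hc).le⟩
      have := csInf_le b1 hmem
      linarith [hξ.2]
    have hvar : ε₀ * (1 - ε₀) ≤ μ ξ * (1 - μ ξ) := by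
      nlinarith
    have hGξ := hlow ξ (by linarith [hξ.1]) (by linarith [hξ.2]) hvar
    rw [hξe] at hGξ
    have hba : 0 < b - a := by linarith
    rw [le_div_iff₀ hba] at hGξ
    have hμb := hμ01 b hbI
    have hμa := hμ01 a haI
    have h3 : G * (b - a) ≤ 1 := by linarith [hμb.2, hμa.1]
    have h4 : b - a ≤ 1 / G := by
      rw [le_div_iff₀ hG]
      linarith
    linarith
  · have : b - a ≤ 0 := by linarith [not_lt.mp hab]
    linarith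

/-! The asymptotic inequalities -/

lemma eventually_F1 (c0 c1 : ℝ) (hc1 : 0 < c1) :
    ∀ᶠ ℓ : ℝ in atTop, c0 + c1 * Real.log ℓ ≤ √ℓ := by
  have hs : Tendsto (fun ℓ : ℝ => √ℓ) atTop atTop := Real.tendsto_sqrt_atTop
  have h1 : ∀ᶠ y : ℝ in atTop, ‖Real.log y‖ ≤ (1 / (4 * c1)) * ‖y‖ :=
    Real.isLittleO_log_id_atTop.def (by positivity)
  have h2 : ∀ᶠ y : ℝ in atTop, 2 * c0 ≤ y := eventually_ge_atTop _
  have h3 : ∀ᶠ y : ℝ in atTop, 1 ≤ y := eventually_ge_atTop _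
  have h4 := hs.eventually (h1.and (h2.and h3))
  have h5 : ∀ᶠ ℓ : ℝ in atTop, 0 ≤ ℓ := eventually_ge_atTop _
  filter_upwards [h4, h5] with ℓ hℓ hℓ0
  obtain ⟨h6, h7, h8⟩ := hℓ
  have h9 : Real.log √ℓ = Real.log ℓ / 2 := Real.log_sqrt hℓ0
  rw [h9] at h6
  rw [Real.norm_eq_abs, Real.norm_eq_abs, abs_of_pos (by linarith : 0 < √ℓ)] at h6
  have h10 : Real.log ℓ / 2 ≤ (1 / (4 * c1)) * √ℓ := le_trans (le_abs_self _) h6
  have h11 : c1 * Real.log ℓ ≤ √ℓ / 2 := by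
    have h12 : c1 * (Real.log ℓ / 2) ≤ c1 * ((1 / (4 * c1)) * √ℓ) :=
      mul_le_mul_of_nonneg_left h10 hc1.le
    have h13 : c1 * ((1 / (4 * c1)) * √ℓ) = √ℓ / 4 := by
      field_simp
    linarith
  linarith

lemma eventually_F2 (c : ℝ) (hc : 0 ≤ c) :
    ∀ᶠ ℓ : ℝ in atTop, 2 * (c * ℓ ^ 4 + 1) ≤ Real.exp (ℓ / 2) := by
  have h1 : ∀ᶠ ℓ : ℝ in atTop, ‖ℓ ^ 4‖ ≤ (1 / (4 * (c + 1))) * ‖Real.exp ((1 / 2) * ℓ)‖ :=
    (isLittleO_pow_exp_pos_mul_atTop 4 (by norm_num : (0 : ℝ) < 1 / 2)).def (by positivity)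
  have h2 : Tendsto (fun ℓ : ℝ => Real.exp (ℓ / 2)) atTop atTop :=
    Real.tendsto_exp_atTop.comp (tendsto_id.atTop_div_const (by norm_num))
  have h3 := h2.eventually (eventually_ge_atTop (4 : ℝ))
  filter_upwards [h1, h3] with ℓ h4 h5
  have e : (1 / 2) * ℓ = ℓ / 2 := by ring
  rw [e, Real.norm_eq_abs, Real.norm_eq_abs, abs_of_pos (Real.exp_pos _)] at h4
  have h6 : ℓ ^ 4 ≤ (1 / (4 * (c + 1))) * Real.exp (ℓ / 2) := le_trans (le_abs_self _) h4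
  have hc1 : 0 < c + 1 := by linarith
  have h7 : (c + 1) * ℓ ^ 4 ≤ Real.exp (ℓ / 2) / 4 := by
    have h8 := mul_le_mul_of_nonneg_left h6 hc1.le
    have h9 : (c + 1) * ((1 / (4 * (c + 1))) * Real.exp (ℓ / 2)) = Real.exp (ℓ / 2) / 4 := by
      field_simp
    linarith
  have h10 : 0 ≤ ℓ ^ 4 := by positivity
  nlinarith

lemma eventually_F3 (c : ℝ) (hc : 0 < c) :
    ∀ᶠ ℓ : ℝ in atTop, Real.log (32 * ℓ ^ 2) ≤ c * ℓ := by
  have h1 : ∀ᶠ y : ℝ in atTop, ‖Real.log y‖ ≤ (c / 4) * ‖y‖ :=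
    Real.isLittleO_log_id_atTop.def (by positivity)
  have h2 : ∀ᶠ y : ℝ in atTop, Real.log 32 * (2 / c) ≤ y := eventually_ge_atTop _
  have h3 : ∀ᶠ y : ℝ in atTop, 1 ≤ y := eventually_ge_atTop _
  filter_upwards [h1, h2, h3] with ℓ h4 h5 h6
  have h0 : 0 < ℓ := by linarith
  rw [Real.log_mul (by norm_num) (by positivity), Real.log_pow]
  rw [Real.norm_eq_abs, Real.norm_eq_abs, abs_of_pos h0] at h4
  have h7 := le_trans (le_abs_self _) h4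
  have h8 : Real.log 32 ≤ c * ℓ / 2 := by
    have h9 := mul_le_mul_of_nonneg_left h5 hc.le
    have h10 : c * (Real.log 32 * (2 / c)) = 2 * Real.log 32 := by
      field_simp
    linarith
  push_cast
  linarith

end Vale.Agent.P063
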